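import Vale.Agent.P104.TypeI

open Finset Vale.Agent.P104
open scoped InnerProductSpace

set_option linter.unusedSectionVars false

namespace Vale.Agent.P082

variable {H : Type*} [NormedAddCommGroup H] [InnerProductSpace ℂ H] [CompleteSpace H]
  {M : VonNeumannAlgebra H}

lemma pos_cut {b e : Op H} (hb : 0 ≤ b) (he : IsStarProjection e) (h : e * b = b * e) :
    0 ≤ b * e := by
  have := star_left_conjugate_nonneg hb e
  rwa [pstar he, h, mul_assoc, pidem he] at this

lemma bin {h : Op H} (h0 : 0 ≤ h) (P : Set (Op H)) (hc : IsClosed P) (z : 0 ∈ P)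
    (add : ∀ x ∈ P, ∀ y ∈ P, x + y ∈ P) (smul : ∀ c : ℝ, 0 ≤ c → ∀ x ∈ P, (c : ℂ) • x ∈ P)
    (hp : ∀ e, IsStarProjection e → (∀ y, h * y = y * h → e * y = y * e) → e ∈ P) : h ∈ P := by
  have aux : ∀ (n : ℕ) (b : Op H) (l : ℝ), 0 ≤ l → 0 ≤ b → b ≤ (l : ℂ) • 1 →
      (∀ y, h * y = y * h → b * y = y * b) → ∃ g ∈ P, ‖b - g‖ ≤ l / 2 ^ n := by
    intro n
    induction n with
    | zero =>
      intro b l l0 b0 b1 _
      refine ⟨0, z, ?_⟩
      rw [sub_zero, pow_zero, div_one, CStarAlgebra.norm_le_iff_le_algebraMap b l0 b0,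
        Algebra.algebraMap_eq_smul_one, ← Complex.coe_smul]
      exact b1
    | succ n ih =>
      intro b l l0 b0 b1 bc
      set c : ℂ := ((l / 2 : ℝ) : ℂ) with hc
      obtain ⟨e, he, e1, e2, e3⟩ := exists_spec (a := b - c • 1)
        (by simp [IsSelfAdjoint, b0.isSelfAdjoint.star_eq, hc])
      have e4 : ∀ y, b * y = y * b → e * y = y * e := fun y hy => e1 y (by
        simp [sub_mul, mul_sub, hy])
      have eb := e4 b rfl
      obtain ⟨g, g1, g2⟩ := ih (b - c • e) (l / 2) (by positivity) (by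
          have := add_nonneg e2 (pos_cut b0 he.one_sub (by rw [sub_mul, mul_sub, eb]; simp))
          convert this using 1
          simp only [sub_mul, mul_sub, smul_mul_assoc, one_mul, mul_one]; abel) (by
          have := add_nonneg e3 (pos_cut (sub_nonneg.2 b1) he (by
            simp [sub_mul, mul_sub, eb]))
          rw [← sub_nonneg]
          convert this using 1
          have : (l : ℂ) = c + c := by rw [hc]; push_cast; ring
          simp only [sub_mul, mul_sub, add_mul, smul_mul_assoc, one_mul, mul_one, this, add_smul,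
            ← hc]
          abel)
        fun y hy => by
          simp only [sub_mul, mul_sub, smul_mul_assoc, mul_smul_comm, bc y hy, e4 y (bc y hy)]
      refine ⟨g + c • e, add g g1 _ (smul _ (by positivity) _ (hp e he fun y hy =>
        e4 y (bc y hy))), ?_⟩
      rw [← sub_sub, sub_right_comm, pow_succ', ← div_div]
      exact g2
  refine hc.closure_subset (Metric.mem_closure_iff.2 fun ε hε => ?_)
  obtain ⟨n, hn⟩ := pow_unbounded_of_one_lt (‖h‖ / ε) (one_lt_two (α := ℝ))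
  obtain ⟨g, g1, g2⟩ := aux n h ‖h‖ (norm_nonneg _) h0 (by
    rw [Complex.coe_smul, ← Algebra.algebraMap_eq_smul_one]
    exact h0.isSelfAdjoint.le_algebraMap_norm_self) fun _ h => h
  refine ⟨g, g1, ?_⟩
  rw [dist_eq_norm]
  refine g2.trans_lt ?_
  rw [div_lt_iff₀ hε] at hn
  rw [div_lt_iff₀ (by positivity)]
  linarith

lemma exists_polar2 {a : Op H} (ha : a ∈ M) : ∃ s ∈ M, PI s ∧ s * CFC.abs a = a ∧
    star s * a = CFC.abs a ∧ (∀ b, b * a = 0 → b * s = 0) ∧ ∀ b, a * b = 0 → s * b = 0 := by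
  have hsa : star (CFC.abs a) = CFC.abs a := (CFC.abs_nonneg a).isSelfAdjoint.star_eq
  obtain ⟨s, hs, h1, -, h2, h3, h4⟩ := exists_pi
    (LinearMap.range ((CFC.abs a).toLinearMap.prod a.toLinearMap)) (by
      rintro _ ⟨x, rfl⟩
      rw [← sq_eq_sq₀ (norm_nonneg _) (norm_nonneg _)]
      change ‖CFC.abs a x‖ ^ 2 = ‖a x‖ ^ 2
      rw [normsq_eq, normsq_eq, hsa, CFC.abs_mul_abs])
  have e1 : s * CFC.abs a = a := by ext x; exact (h1 _ ⟨x, rfl⟩).1
  have e2 : star s * a = CFC.abs a := by ext x; exact (h1 _ ⟨x, rfl⟩).2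
  have hy : ∀ y ∈ M.commutant, ∀ z ∈ LinearMap.range ((CFC.abs a).toLinearMap.prod a.toLinearMap),
      (y z.1, y z.2) ∈ LinearMap.range ((CFC.abs a).toLinearMap.prod a.toLinearMap) := by
    rintro y hy _ ⟨x, rfl⟩
    have c1 := commM ha hy
    have c2 := (Commute.cfcAbs_left (a := a) (b := y) c1 (commM ha (star_mem hy))).eq
    exact ⟨y x, Prod.ext congr($c2 x) congr($c1 x)⟩
  refine ⟨s, memM fun y h => h4 y (hy y h) (hy _ (star_mem h)), hs, e1, e2,
    fun b hb => h3 b ?_, fun b hb => ?_⟩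
  · rintro _ ⟨x, rfl⟩; exact congr($hb x)
  · have : star b * CFC.abs a = 0 := by
      rw [← hsa, ← star_mul, ← e2, mul_assoc, hb, mul_zero, star_zero]
    have := h2 (star b) (by rintro _ ⟨x, rfl⟩; exact congr($this x))
    rwa [← star_mul, star_eq_zero] at this

lemma PI.le1 {s : Op H} (h : PI s) : ‖s‖ ≤ 1 := by
  have := proj_le1 h.proj
  rw [CStarRing.norm_star_mul_self] at this
  nlinarith [norm_nonneg s]

lemma PI.of_p {s : Op H} (h : IsStarProjection s) : PI s := by rw [PI, pstar h, pidem h, pidem h]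

lemma PI.st {s : Op H} (h : PI s) : star s * s * star s = star s := by
  have := h.star; rwa [PI, star_star] at this

section sum
variable {ι : Type*}

structure Ort (s : ι → Op H) : Prop where
  pi : ∀ i, PI (s i)
  o1 : ∀ i j, i ≠ j → star (s i) * s j = 0
  o2 : ∀ i j, i ≠ j → s i * star (s j) = 0

lemma Ort.st {s : ι → Op H} (h : Ort s) : Ort fun i => star (s i) :=
  ⟨fun i => (h.pi i).star, fun i j hij => by rw [star_star, h.o2 i j hij],
    fun i j hij => by rw [star_star, h.o1 i j hij]⟩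

lemma Ort.fam {s : ι → Op H} (h : Ort s) :
    OrthogonalFamily ℂ (fun i => (s i).range) fun i => (s i).range.subtypeₗᵢ := by
  rintro i j hij ⟨_, x, rfl⟩ ⟨_, y, rfl⟩
  change ⟪s i x, s j y⟫_ℂ = 0
  rw [← inner_star_r, ← mul_apply_eq_comp, h.o1 i j hij]; simp

lemma Ort.pyth {s : ι → Op H} (h : Ort s) (F : Finset ι) (x : ι → H) :
    ‖∑ i ∈ F, s i (x i)‖ ^ 2 = ∑ i ∈ F, ‖s i (x i)‖ ^ 2 :=
  h.fam.norm_sum (fun i => ⟨s i (x i), x i, rfl⟩) F

lemma Ort.bessel {s : ι → Op H} (h : Ort s) (F : Finset ι) (x : H) :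
    ∑ i ∈ F, ‖s i x‖ ^ 2 ≤ ‖x‖ ^ 2 := by
  have h1 : ‖∑ i ∈ F, star (s i) (s i x)‖ ^ 2 ≤ ∑ i ∈ F, ‖s i x‖ ^ 2 := by
    rw [h.st.pyth]; exact sum_le_sum fun i _ => by gcongr; exact app_le (PI.le1 (h.pi i).star) _
  have h2 : ∑ i ∈ F, ‖s i x‖ ^ 2 ≤ ‖x‖ * ‖∑ i ∈ F, star (s i) (s i x)‖ := by
    simp only [normsq_eq]
    rw [← Complex.re_sum, ← inner_sum]
    exact (Complex.re_le_norm _).trans (norm_inner_le_norm _ _)
  nlinarith [sq_nonneg (‖x‖ - ‖∑ i ∈ F, star (s i) (s i x)‖)]

lemma Ort.ex1 {s : ι → Op H} (h : Ort s) : ∃ t : Op H, ∀ x, HasSum (fun i => s i x) (t x) := by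
  have h1 : ∀ x, Summable fun i => s i x := fun x =>
    (h.fam.summable_iff_norm_sq_summable fun i => ⟨s i x, x, rfl⟩).2
      (summable_of_sum_le (fun i => by positivity) fun F => h.bessel F x)
  let l : H →ₗ[ℂ] H := ⟨⟨fun x => ∑' i, s i x, fun x y => by
    simp only [map_add]; exact (h1 x).tsum_add (h1 y)⟩, fun c x => by
    simp only [map_smul, RingHom.id_apply]; exact (h1 x).tsum_const_smul c⟩
  refine ⟨l.mkContinuous 1 fun x => ?_, fun x => (h1 x).hasSum⟩
  refine le_of_tendsto' (h1 x).hasSum.norm fun F => ?_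
  rw [one_mul, ← pow_le_pow_iff_left₀ (norm_nonneg _) (norm_nonneg _) two_ne_zero,
    h.pyth F fun _ => x]
  exact h.bessel F x

structure SumOf (s : ι → Op H) (t : Op H) : Prop where
  ort : Ort s
  hs : ∀ x, HasSum (fun i => s i x) (t x)
  hs' : ∀ x, HasSum (fun i => star (s i) x) (star t x)

lemma Ort.ex {s : ι → Op H} (h : Ort s) (hM : ∀ i, s i ∈ M) : ∃ t ∈ M, SumOf s t := by
  obtain ⟨t, ht⟩ := h.ex1
  obtain ⟨t', ht'⟩ := h.st.ex1
  have : star t = t' := by
    ext y; refine ext_inner_left ℂ fun x => ?_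
    rw [inner_star_r]
    have h1 := (ht x).mapL ((innerSL ℂ y).restrictScalars ℝ)
    have h2 := ((ht' y).mapL ((innerSL ℂ x).restrictScalars ℝ)).star
    simp only [ContinuousLinearMap.coe_restrictScalars', innerSL_apply_apply, inner_star_r,
      Complex.star_def, inner_conj_symm] at h1 h2
    rw [← inner_conj_symm, h1.unique h2, inner_conj_symm]
  refine ⟨t, memM fun y hy => ?_, h, ht, this ▸ ht'⟩
  ext x
  refine ((ht x).mapL y).unique ?_
  have e : ∀ i, y (s i x) = s i (y x) := fun i => congr($(commM (hM i) hy) x).symm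
  simp only [e]; exact ht (y x)

namespace SumOf
variable {s : ι → Op H} {t : Op H} (h : SumOf s t)
include h

lemma st : SumOf (fun i => star (s i)) (star t) :=
  ⟨h.ort.st, h.hs', by simpa only [star_star] using h.hs⟩

lemma left {b : Op H} (hb : ∀ i, b * s i = 0) : b * t = 0 := by
  ext x
  refine ((h.hs x).mapL b).unique ?_
  have e : ∀ i, b (s i x) = 0 := fun i => congr($(hb i) x)
  simp only [e]; exact hasSum_zero

lemma right {b : Op H} (hb : ∀ i, s i * b = 0) : t * b = 0 := by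
  have := h.st.left (b := star b) fun i => by rw [← star_mul, hb, star_zero]
  rwa [← star_mul, star_eq_zero] at this

lemma fixl {b : Op H} (hb : ∀ i, b * s i = s i) : b * t = t := by
  have := h.left (b := 1 - b) fun i => by rw [sub_mul, hb, one_mul, sub_self]
  rw [sub_mul, one_mul, sub_eq_zero] at this; exact this.symm

lemma fixr {b : Op H} (hb : ∀ i, s i * b = s i) : t * b = t := by
  have := h.right (b := 1 - b) fun i => by rw [mul_sub, hb, mul_one, sub_self]
  rw [mul_sub, mul_one, sub_eq_zero] at this; exact this.symm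

lemma one (j : ι) : star (s j) * t = star (s j) * s j := by
  ext x
  exact ((h.hs x).mapL (star (s j))).unique (hasSum_single j fun i hi =>
    congr($(h.ort.o1 j i hi.symm) x))

lemma one' (j : ι) : s j * star t = s j * star (s j) := by simpa only [star_star] using h.st.one j

lemma two (j : ι) : star t * s j = star (s j) * s j := by
  simpa only [star_mul, star_star] using congrArg star (h.one j)

lemma two' (j : ι) : t * star (s j) = s j * star (s j) := by
  simpa only [star_mul, star_star] using congrArg star (h.one' j)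

lemma pp (x : H) : HasSum (fun i => (star (s i) * s i) x) ((star t * t) x) := by
  have e : ∀ i, (star (s i) * s i) x = star (s i) (t x) := fun i => congr($(h.one i) x).symm
  simp only [e]; exact h.hs' (t x)

lemma pi : PI t := by
  ext x
  refine (h.hs _).unique ?_
  have e : ∀ i, s i (star t (t x)) = s i x := fun i => by
    rw [← mul_apply_eq_comp, ← mul_apply_eq_comp, h.one', mul_assoc, h.one, ← mul_assoc,
      h.ort.pi i]
  exact (funext e).symm ▸ h.hs x

lemma nsq (x : H) : HasSum (fun i => ‖s i x‖ ^ 2) (‖t x‖ ^ 2) := by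
  have := ((h.hs x).norm.pow 2)
  simp only [h.ort.pyth _ fun _ => x] at this
  exact this

lemma eqp {s' : ι → Op H} {t' : Op H} (h' : SumOf s' t')
    (e : ∀ i, star (s i) * s i = star (s' i) * s' i) : star t * t = star t' * t' := by
  ext x
  exact (h.pp x).unique (by simpa only [e] using h'.pp x)

end SumOf
end sum

lemma exists_maxfam {α : Type*} (P : α → Prop) (R : α → α → Prop) (hR : ∀ a b, R a b → R b a) :
    ∃ F : Set α, (∀ x ∈ F, P x) ∧ F.Pairwise R ∧ ∀ t, P t → (∀ x ∈ F, R t x) → t ∈ F := by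
  obtain ⟨F, hF⟩ := zorn_subset {F : Set α | (∀ x ∈ F, P x) ∧ F.Pairwise R} fun c hc hch =>
    ⟨⋃₀ c, ⟨fun x ⟨s, hs, hx⟩ => (hc hs).1 x hx, fun x ⟨s, hs, hx⟩ y ⟨s', hs', hy⟩ hxy =>
      (hch.total hs hs').elim (fun h => (hc hs').2 (h hx) hy hxy)
        fun h => (hc hs).2 hx (h hy) hxy⟩, fun s hs => Set.subset_sUnion_of_mem hs⟩
  refine ⟨F, hF.1.1, hF.1.2, fun t ht h => hF.2 (y := insert t F) ⟨?_, ?_⟩ (Set.subset_insert _ _)
    (Set.mem_insert _ _)⟩
  · rintro x (rfl | hx)
    exacts [ht, hF.1.1 x hx]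
  · exact hF.1.2.insert fun b hb _ => ⟨h b hb, hR _ _ (h b hb)⟩

lemma exists_maxpi (P : Op H → Prop) (hP : ∀ s, P s → s ∈ M ∧ PI s) :
    ∃ (F : Set (Op H)) (t : Op H), (∀ s ∈ F, P s) ∧ t ∈ M ∧ SumOf (fun s : F => s.1) t ∧
      ∀ s, P s → star s * t = 0 → s * star t = 0 → s = 0 := by
  obtain ⟨F, h1, h2, h3⟩ := exists_maxfam P (fun a b => star a * b = 0 ∧ a * star b = 0)
    fun a b h => ⟨by simpa using congrArg star h.1, by simpa using congrArg star h.2⟩
  obtain ⟨t, tM, ht⟩ := Ort.ex (M := M) (s := fun s : F => s.1) ⟨fun i => (hP _ (h1 _ i.2)).2,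
    fun i j h => (h2 i.2 j.2 (Subtype.coe_ne_coe.2 h)).1,
    fun i j h => (h2 i.2 j.2 (Subtype.coe_ne_coe.2 h)).2⟩ fun i => (hP _ (h1 _ i.2)).1
  refine ⟨F, t, h1, tM, ht, fun s hs a b => ?_⟩
  have := ht.one ⟨s, h3 s hs fun x hx => ⟨?_, ?_⟩⟩
  · exact (CStarRing.star_mul_self_eq_zero_iff s).1 (this.symm.trans a)
  · have e : x * star x * x = x := ht.ort.pi ⟨x, hx⟩
    rw [← e, ← ht.two' ⟨x, hx⟩, ← mul_assoc, ← mul_assoc, a]; simp
  · have e : star x * x * star x = star x := PI.st (ht.ort.pi ⟨x, hx⟩)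
    rw [← e, ← ht.two ⟨x, hx⟩, ← mul_assoc, ← mul_assoc, b]; simp

lemma exists_cover {q : Op H} (hq : IsStarProjection q) (qM : q ∈ M) : ∃ z, Cen M z ∧ z * q = q ∧
    ∃ F : Set (Op H), (∀ a ∈ F, a ∈ M ∧ PI a ∧ q * a = a) ∧ SumOf (fun a : F => star a.1 * a.1) z := by
  obtain ⟨z, hz, z1, z2⟩ := exists_cs qM
  obtain ⟨F, h1, h2, h3⟩ := exists_maxfam (fun a => a ∈ M ∧ PI a ∧ q * a = a)
    (fun a b => a * star b = 0) fun a b h => by simpa using congrArg star h
  have o : ∀ i j : F, i ≠ j → star i.1 * i.1 * (star j.1 * j.1) = 0 := fun i j h => by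
    rw [mul_assoc, ← mul_assoc i.1, h2 i.2 j.2 (Subtype.coe_ne_coe.2 h)]; simp
  have pp : ∀ i : F, IsStarProjection (star i.1 * i.1) := fun i => (h1 _ i.2).2.1.proj
  obtain ⟨p, pM, hp⟩ := Ort.ex (M := M) (s := fun a : F => star a.1 * a.1)
    ⟨fun i => PI.of_p (pp i), fun i j h => by rw [pstar (pp i), o i j h],
      fun i j h => by rw [pstar (pp j), o i j h]⟩
    fun i => mul_mem (star_mem (h1 _ i.2).1) (h1 _ i.2).1
  have ps : star p = p := by
    ext x; exact (hp.hs' x).unique (by simpa only [pstar (pp _)] using hp.hs x)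
  have p2 : IsStarProjection p := by
    have : star p * p = p := by
      ext x; exact (hp.pp x).unique (by simpa only [pstar (pp _), pidem (pp _)] using hp.hs x)
    rw [← this]; exact hp.pi.proj
  have za : ∀ a ∈ F, a * z = a := fun a ha => by
    rw [hz.comm a (h1 a ha).1, ← (h1 a ha).2.2, ← mul_assoc, z1]
  have pa : ∀ a ∈ F, a * p = a := fun a ha => by
    have := hp.one ⟨a, ha⟩
    simp only [pstar (pp ⟨a, ha⟩), pidem (pp ⟨a, ha⟩)] at this
    have e : a * star a * a = a := (h1 a ha).2.1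
    calc a * p = a * (star a * a * p) := by rw [← mul_assoc, ← mul_assoc, e]
      _ = a := by rw [this, ← mul_assoc, e]
  have pz : p * z = p := hp.fixr fun i => by rw [mul_assoc, za _ i.2]
  have zp : z * p = p := by rw [← hz.comm p pM, pz]
  refine ⟨z, hz, z1, F, h1, ?_⟩
  suffices z = p by rwa [this]
  have := z2 (z - p) fun x hx => by
    obtain ⟨s, sM, hs, s1, -, s2, s3⟩ := exists_polar
      (mul_mem (mul_mem qM (star_mem hx)) (sub_mem hz.mem pM))
    have e1 : s * p = 0 := s3 _ (by rw [mul_assoc, sub_mul, zp, pidem p2, sub_self, mul_zero])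
    have := pa s (h3 s ⟨sM, hs, left_fix s2 (by rw [← mul_assoc, ← mul_assoc, pidem hq])⟩
      fun a ha => by rw [← pa a ha, star_mul, ps, ← mul_assoc, e1, zero_mul])
    rw [← this, e1, zero_mul, zero_mul] at s1
    simpa [pstar hq, ps, pstar hz.proj, mul_assoc] using congrArg star s1.symm
  rw [sub_mul, pidem hz.proj, pz, sub_eq_zero] at this
  exact this

end Vale.Agent.P082
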