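import Vale.Agent.P082.Top
import Vale.Agent.P082.Tools

open Finset Vale.Agent.P104
open scoped InnerProductSpace

set_option linter.unusedSectionVars false

namespace Vale.Agent.P082

universe u

section sign
variable {κ : Type*} [Fintype κ] [DecidableEq κ]

def sg (s : κ → Bool) (i : κ) : ℂ := if s i then 1 else -1

omit [Fintype κ] [DecidableEq κ] in
lemma sg_sq (s : κ → Bool) (i : κ) : sg s i * sg s i = 1 := by unfold sg; split_ifs <;> simp

omit [Fintype κ] [DecidableEq κ] in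
@[simp] lemma sg_conj (s : κ → Bool) (i : κ) : (starRingEnd ℂ) (sg s i) = sg s i := by
  unfold sg; split_ifs <;> simp

omit [Fintype κ] [DecidableEq κ] in
@[simp] lemma sg_star (s : κ → Bool) (i : κ) : star (sg s i) = sg s i := sg_conj s i

omit [Fintype κ] [DecidableEq κ] in
@[simp] lemma sg_norm (s : κ → Bool) (i : κ) : ‖sg s i‖ = 1 := by unfold sg; split_ifs <;> simp

lemma sg_flip (F : (κ → Bool) → ℂ) (t : κ)
    (h : ∀ s, F (Function.update s t (!s t)) = -F s) : ∑ s, F s = 0 := by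
  have inv : Function.Involutive fun s : κ → Bool => Function.update s t (!s t) := fun s => by
    simp
  have := Equiv.sum_comp inv.toPerm F
  simp only [Function.Involutive.coe_toPerm, h, sum_neg_distrib] at this
  linear_combination (-1 / 2 : ℂ) * this

omit [Fintype κ] in
lemma sg_upd (s : κ → Bool) (t i : κ) :
    sg (Function.update s t (!s t)) i = if i = t then -sg s i else sg s i := by
  split_ifs with h
  · subst h; unfold sg; cases hs : s i <;> simp
  · unfold sg; rw [Function.update_of_ne h]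

lemma sg_orth (i j : κ) :
    ∑ s, sg s i * sg s j = if i = j then (Fintype.card (κ → Bool) : ℂ) else 0 := by
  split_ifs with h
  · subst h; simp [sg_sq]
  · exact sg_flip _ i fun s => by simp [sg_upd, Ne.symm h]

lemma sg_sum {X : Type*} [AddCommGroup X] [Module ℂ X] (c : κ → κ → X) :
    ∑ s, ∑ i, ∑ j, (sg s i * sg s j) • c i j = (Fintype.card (κ → Bool) : ℂ) • ∑ i, c i i := by
  rw [sum_comm, smul_sum]
  refine sum_congr rfl fun i _ => ?_
  rw [sum_comm]
  simp only [← sum_smul, sg_orth, ite_smul, zero_smul, sum_ite_eq, mem_univ, if_true]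

end sign

variable {A H : Type u} [CStarAlgebra A] [NormedAddCommGroup H] [InnerProductSpace ℂ H]
  [CompleteSpace H] {R : VN A H}

noncomputable def kr {ι : Type} [Fintype ι] (c : ℂ) (a : ι → A) (S : W R) : W R :=
  ⟨c • ∑ i, (ContinuousLinearMap.mul ℂ A).flip (a i) ∘L S.f ∘L
    (ContinuousLinearMap.mul ℂ A).flip (star (a i))⟩

@[simp] lemma kr_apply {ι : Type} [Fintype ι] (c : ℂ) (a : ι → A) (S : W R) (x : A) :
    (kr c a S).f x = c • ∑ i, S.f (x * star (a i)) * a i := by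
  simp [kr]

def TK (R : VN A H) : Set (W R → W R) :=
  {t | ∃ (ι : Type) (_ : Fintype ι) (a : ι → A), ∑ i, star (a i) * a i = 1 ∧ t = kr 1 a}

def TU (R : VN A H) (Q : Set A) : Set (W R → W R) :=
  {t | ∃ (ι : Type) (_ : Fintype ι) (_ : Nonempty ι) (a : ι → A),
    (∀ i, a i ∈ unitary A ∧ a i ∈ Q) ∧ t = kr (Fintype.card ι : ℂ)⁻¹ a}

lemma avg_le {X ι : Type*} [SeminormedAddCommGroup X] [NormedSpace ℂ X] [Fintype ι] [Nonempty ι]
    {v : ι → X} {c : ℝ} (h : ∀ i, ‖v i‖ ≤ c) : ‖(Fintype.card ι : ℂ)⁻¹ • ∑ i, v i‖ ≤ c := by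
  have : (0 : ℝ) < Fintype.card ι := by exact_mod_cast Fintype.card_pos
  rw [norm_smul, norm_inv, Complex.norm_natCast, inv_mul_le_iff₀ this]
  exact (norm_sum_le_of_le _ fun i _ => h i).trans (by simp)

lemma avg_const {X ι : Type*} [AddCommGroup X] [Module ℂ X] [Fintype ι] [Nonempty ι] (v : X) :
    (Fintype.card ι : ℂ)⁻¹ • ∑ _i : ι, v = v := by
  have : (Fintype.card ι : ℂ) ≠ 0 := by exact_mod_cast Fintype.card_ne_zero
  rw [sum_const, card_univ, ← Nat.cast_smul_eq_nsmul ℂ, smul_smul, inv_mul_cancel₀ this, one_smul]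

lemma unit1 {u : A} (hu : u ∈ unitary A) : ‖u‖ ≤ 1 := by
  rcases subsingleton_or_nontrivial A with h | h
  · rw [Subsingleton.elim u 0]; simp
  · exact (CStarRing.norm_of_mem_unitary hu).le

lemma mul1 {a b : A} {c : ℝ} (ha : ‖a‖ ≤ c) (hb : ‖b‖ ≤ 1) : ‖a * b‖ ≤ c :=
  (norm_mul_le _ _).trans ((mul_le_of_le_one_right (norm_nonneg _) hb).trans ha)

lemma mul1' {a b : A} {c : ℝ} (ha : ‖a‖ ≤ 1) (hb : ‖b‖ ≤ c) : ‖a * b‖ ≤ c :=
  (norm_mul_le _ _).trans ((mul_le_of_le_one_left (norm_nonneg _) ha).trans hb)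

lemma TU.norm {Q : Set A} {t : W R → W R} (ht : t ∈ TU R Q) (S : W R) : ‖(t S).f‖ ≤ ‖S.f‖ := by
  obtain ⟨ι, _, _, a, ha, rfl⟩ := ht
  refine ContinuousLinearMap.opNorm_le_bound _ (norm_nonneg _) fun x => ?_
  rw [kr_apply]
  exact avg_le fun i => mul1 ((S.f.le_opNorm _).trans (by
    gcongr; exact mul1 le_rfl (unit1 (Unitary.star_mem (ha i).1)))) (unit1 (ha i).1)

def Mo (S : W R) (b : A) : Prop := ∀ x, S.f (x * b) = S.f x * b

lemma Mo.closed (b : A) : IsClosed {S : W R | Mo S b} := by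
  simp only [Mo, Set.ofPred_forall]
  exact isClosed_iInter fun x => (WC.ev continuous_id _).ceq ((WC.ev continuous_id _).mulr b)

lemma Mo.kr {ι : Type} [Fintype ι] (c : ℂ) {a : ι → A} {S : W R} {b : A} (h : Mo S b)
    (h1 : ∀ i, b * a i = a i * b) (h2 : ∀ i, b * star (a i) = star (a i) * b) :
    Mo (kr c a S) b := fun x => by
  simp only [kr_apply, smul_mul_assoc, sum_mul, mul_assoc, h2, ← h1]
  simp only [← mul_assoc, h _]

lemma Mo.mul {S : W R} {a b : A} (ha : Mo S a) (hb : Mo S b) : Mo S (a * b) := fun x => by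
  rw [← mul_assoc, hb, ha, mul_assoc]

lemma Mo.add {S : W R} {a b : A} (ha : Mo S a) (hb : Mo S b) : Mo S (a + b) := fun x => by
  rw [mul_add, map_add, hb, ha, mul_add]

lemma Mo.smul {S : W R} {a : A} (c : ℂ) (ha : Mo S a) : Mo S (c • a) := fun x => by
  rw [mul_smul_comm, map_smul, ha, mul_smul_comm]

lemma Mo.sum {S : W R} {ι : Type*} (s : Finset ι) {a : ι → A} (ha : ∀ i, Mo S (a i)) :
    Mo S (∑ i ∈ s, a i) := fun x => by
  simp only [mul_sum, map_sum, ha _ x]

lemma Mo.one (S : W R) : Mo S 1 := fun x => by simp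

lemma Mo.sub {S : W R} {a b : A} (ha : Mo S a) (hb : Mo S b) : Mo S (a - b) := fun x => by
  rw [mul_sub, map_sub, hb, ha, mul_sub]

lemma Mo.closed' (S : W R) (z : A) : IsClosed {b : A | Mo S (b * z)} := by
  simp only [Mo, Set.ofPred_forall]
  exact isClosed_iInter fun x => isClosed_eq (by fun_prop) (by fun_prop)

structure CP (z : A) : Prop where
  proj : IsStarProjection z
  comm : ∀ x, x * z = z * x

lemma CP.idem {z : A} (h : CP z) : z * z = z := h.proj.isIdempotentElem.eq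
lemma CP.st {z : A} (h : CP z) : star z = z := h.proj.isSelfAdjoint.star_eq
lemma CP.one_sub {z : A} (h : CP z) : CP (1 - z) :=
  ⟨h.proj.one_sub, fun x => by rw [mul_sub, sub_mul, h.comm, mul_one, one_mul]⟩

lemma VN.proj (R : VN A H) {p : A} : IsStarProjection (R.ρ p) ↔ IsStarProjection p :=
  ⟨fun h => ⟨R.inj (by rw [map_mul, pidem h]), R.inj (by rw [map_star, pstar h])⟩,
    fun h => ⟨by rw [IsIdempotentElem, ← map_mul, h.isIdempotentElem.eq],
      by rw [IsSelfAdjoint, ← map_star, h.isSelfAdjoint.star_eq]⟩⟩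

lemma VN.cen (R : VN A H) {z : A} : Cen R.M (R.ρ z) ↔ CP z :=
  ⟨fun h => ⟨R.proj.1 h.proj, fun x => R.inj (by rw [map_mul, map_mul, h.comm _ (R.mem x)])⟩,
    fun h => ⟨R.mem z, R.proj.2 h.proj, fun x hx => by
      obtain ⟨a, rfl⟩ := R.surj x hx
      rw [← map_mul, ← map_mul, h.comm]⟩⟩

lemma sign_kr {κ ι : Type} [Fintype κ] [DecidableEq κ] [Fintype ι] [Nonempty ι] (c : ι → κ → A)
    (h1 : ∀ s o o', o ≠ o' → star (c s o) * c s o' = 0)
    (h2 : ∀ s o o', o ≠ o' → c s o * star (c s o') = 0)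
    (h3 : ∀ s, ∑ o, star (c s o) * c s o = 1) (h4 : ∀ s, ∑ o, c s o * star (c s o) = 1) :
    ∃ t ∈ TU R Set.univ, ∀ S x, (t S).f x =
      (Fintype.card ι : ℂ)⁻¹ • ∑ s, ∑ o, S.f (x * star (c s o)) * c s o := by
  refine ⟨_, ⟨ι × (κ → Bool), inferInstance, inferInstance, fun p => ∑ o, sg p.2 o • c p.1 o,
    fun p => ⟨⟨?_, ?_⟩, trivial⟩, rfl⟩, fun S x => ?_⟩
  · simp only [star_sum, star_smul, sg_star, sum_mul, mul_sum, smul_mul_smul_comm]
    rw [← h3 p.1]
    refine sum_congr rfl fun o _ => ?_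
    rw [sum_eq_single o (fun o' _ h => by rw [h1 _ _ _ h, smul_zero]) (by simp), sg_sq, one_smul]
  · simp only [star_sum, star_smul, sg_star, sum_mul, mul_sum, smul_mul_smul_comm]
    rw [← h4 p.1]
    refine sum_congr rfl fun o _ => ?_
    rw [sum_eq_single o (fun o' _ h => by rw [h2 _ _ _ h, smul_zero]) (by simp), sg_sq, one_smul]
  · have : (Fintype.card (κ → Bool) : ℂ) ≠ 0 := by exact_mod_cast Fintype.card_ne_zero
    simp only [kr_apply, Fintype.sum_prod_type, star_sum, star_smul, sg_star, mul_sum,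
      mul_smul_comm, map_sum, map_smul, sum_mul, smul_mul_assoc, smul_sum (s := (univ : Finset κ)),
      smul_smul, sg_sum, Fintype.card_prod, Nat.cast_mul, mul_inv]
    simp only [← smul_sum, smul_smul, inv_mul_cancel_right₀ this]

lemma Min.cen {K : Set (W R)} (h : Min (TU R Set.univ) K) {p : A} (hp : CP p) :
    ∀ S ∈ K, Mo S p := by
  obtain ⟨t, ht, e⟩ := sign_kr (R := R) (fun (_ : Unit) (o : Bool) => if o then p else 1 - p)
    (by rintro _ (_ | _) (_ | _) <;> simp [hp.st, mul_sub, sub_mul, hp.idem])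
    (by rintro _ (_ | _) (_ | _) <;> simp [hp.st, mul_sub, sub_mul, hp.idem])
    (by simp [hp.st, mul_sub, sub_mul, hp.idem]) (by simp [hp.st, mul_sub, sub_mul, hp.idem])
  obtain ⟨S, hS⟩ := h.ne
  refine h.min _ (Mo.closed p) ?_ ⟨t S, h.inv t ht S hS, fun x => ?_⟩
  · rintro _ ⟨ι, _, _, a, -, rfl⟩ S - hS
    exact Mo.kr _ hS (fun i => (hp.comm _).symm) fun i => (hp.comm _).symm
  · simp [e, hp.st, add_mul, mul_assoc, sub_mul, mul_sub p, hp.idem]

structure MU {ι : Type} [Fintype ι] [DecidableEq ι] (E : ι → ι → A) (z : A) : Prop where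
  mul : ∀ a b c d, E a b * E c d = if b = c then E a d else 0
  st : ∀ a b, star (E a b) = E b a
  sum : ∑ a, E a a = z
  cp : CP z

section MU
variable {ι : Type} [Fintype ι] [DecidableEq ι] {E : ι → ι → A} {z : A}

lemma MU.zE (h : MU E z) (a b : ι) : z * E a b = E a b := by simp [← h.sum, sum_mul, h.mul]
lemma MU.Ez (h : MU E z) (a b : ι) : E a b * z = E a b := by rw [h.cp.comm, h.zE]

lemma Inv.modE [AddCommGroup ι] {K : Set (W R)} (hK : Inv (TU R Set.univ) K) (h : MU E z) :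
    ∃ S ∈ K, ∀ a b, Mo S (E a b) := by
  have e0 : ∀ s, ∑ i, E (i + s) (i + s) = z := fun s =>
    (Equiv.sum_comp (Equiv.addRight s) fun i => E i i).trans h.sum
  obtain ⟨t, ht, e⟩ := sign_kr (R := R)
    (fun (s : ι) (o : Option ι) => o.elim (1 - z) fun i => E i (i + s))
    (by rintro _ (_ | _) (_ | _) <;> simp +contextual [h.cp.st, mul_sub, sub_mul, h.st, h.zE, h.Ez, h.mul])
    (by rintro _ (_ | _) (_ | _) <;> simp +contextual [h.cp.st, mul_sub, sub_mul, h.st, h.zE, h.Ez, h.mul])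
    (by simp [h.cp.st, mul_sub, sub_mul, h.cp.idem, h.st, h.mul, e0])
    (by simp [h.cp.st, mul_sub, sub_mul, h.cp.idem, h.st, h.mul, h.sum])
  obtain ⟨S, hS⟩ := hK.ne
  refine ⟨t S, hK.inv t ht S hS, fun a b x => ?_⟩
  have e1 : ∀ y, ∑ s, ∑ i, S.f (y * E (i + s) i) * E i (i + s) =
      ∑ i, ∑ j, S.f (y * E j i) * E i j := fun y => by
    rw [sum_comm]
    exact sum_congr rfl fun i _ => Equiv.sum_comp (Equiv.addLeft i) fun j => S.f (y * E j i) * E i j
  simp only [e, Fintype.sum_option, Option.elim, sum_add_distrib, h.st, e1, smul_mul_assoc, add_mul,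
    sum_mul, star_sub, star_one, h.cp.st]
  simp [mul_assoc, h.mul, mul_sub (E _ _), sub_mul, h.Ez, h.zE, apply_ite]

end MU

lemma VN.bin (R : VN A H) (F : Set A) (hF : ∀ a ∈ F, star a ∈ F) (P : Set A) (hc : IsClosed P)
    (add : ∀ x ∈ P, ∀ y ∈ P, x + y ∈ P) (smul : ∀ c : ℂ, ∀ x ∈ P, c • x ∈ P)
    (hp : ∀ e, IsStarProjection e → (∀ y ∈ F, e * y = y * e) → e ∈ P) {b : A}
    (hb : ∀ y ∈ F, b * y = y * b) : b ∈ P := by
  have iso : Isometry R.ρ := AddMonoidHomClass.isometry_of_norm _ R.nrm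
  have one := hp 1 (IsStarProjection.one _) fun y _ => by simp
  have pos : ∀ b : A, (∀ y ∈ F, b * y = y * b) → IsSelfAdjoint b → b ∈ P := fun b hb hs => by
    have h0 : 0 ≤ R.ρ (b + (‖b‖ : ℂ) • 1) := by
      have := (hs.map R.ρ).neg_algebraMap_norm_le_self
      rw [R.nrm, Algebra.algebraMap_eq_smul_one, ← Complex.coe_smul] at this
      rw [map_add, map_smul, map_one]
      exact neg_le_iff_add_nonneg.1 this
    obtain ⟨c, hc, e⟩ := P082.bin h0 (R.ρ '' P) (iso.isClosedEmbedding.isClosedMap _ hc)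
      ⟨0, by simpa using smul 0 1 one, map_zero _⟩
      (by rintro _ ⟨x, hx, rfl⟩ _ ⟨y, hy, rfl⟩; exact ⟨_, add x hx y hy, map_add _ _ _⟩)
      (by rintro c - _ ⟨x, hx, rfl⟩; exact ⟨_, smul c x hx, map_smul _ _ _⟩) fun e he h => by
        obtain ⟨a, rfl⟩ := R.surj e (memM fun y hy => (h y (commM (R.mem _) hy)).symm)
        refine ⟨a, hp a (R.proj.1 he) fun y hy => R.inj ?_, rfl⟩
        rw [map_mul, map_mul]
        refine h _ ?_
        rw [← map_mul, ← map_mul, add_mul, mul_add, hb y hy]; simp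
    have := add _ hc _ (smul (-‖b‖) 1 one)
    rwa [R.inj e, add_assoc, ← add_smul, add_neg_cancel, zero_smul, add_zero] at this
  have hb' : ∀ y ∈ F, star b * y = y * star b := fun y hy => by
    simpa using congrArg star (hb _ (hF y hy)).symm
  have lin : ∀ α β : ℂ, ∀ y ∈ F, (α • b + β • star b) * y = y * (α • b + β • star b) :=
    fun α β y hy => by simp only [add_mul, mul_add, smul_mul_assoc, mul_smul_comm, hb y hy, hb' y hy]
  have := add _ (pos _ (lin (1 / 2) (1 / 2)) (by simp [IsSelfAdjoint, add_comm])) _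
    (smul Complex.I _ (pos _ (lin (-Complex.I / 2) (Complex.I / 2))
      (by simp [IsSelfAdjoint, add_comm])))
  convert this using 1
  have i1 : Complex.I * (-Complex.I / 2) = 1 / 2 := by
    rw [← mul_div_assoc, mul_neg, Complex.I_mul_I]; norm_num
  have i2 : Complex.I * (Complex.I / 2) = -1 / 2 := by rw [← mul_div_assoc, Complex.I_mul_I]
  rw [smul_add, smul_smul, smul_smul, i1, i2]; module

lemma VN.units (R : VN A H) {K : Type} [Fintype K] [DecidableEq K] {r : K → Op H} {e : Op H}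
    {z : A} (hz : CP z) (h : Hm R.M r e (R.ρ z)) {ι : Type} [Fintype ι] [DecidableEq ι]
    (σ : ι ≃ K) : ∃ E : ι → ι → A, MU E z ∧ ∀ a b, R.ρ (E a b) = r (σ a) * star (r (σ b)) := by
  choose E hE using fun a b => R.surj _ (mul_mem (h.rM (σ a)) (star_mem (h.rM (σ b))))
  refine ⟨E, ⟨fun a b c d => R.inj ?_, fun a b => R.inj ?_, R.inj ?_, hz⟩, hE⟩
  · rw [map_mul, hE, hE, mul_assoc, ← mul_assoc (star _), h.rel]
    by_cases hh : b = c <;> simp [hh, hE, h.er]
  · rw [map_star, hE, hE, star_mul, star_star]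
  · rw [map_sum, h.hQ]; simp only [hE]
    exact Equiv.sum_comp σ fun a => r a * star (r a)

lemma exists_grp (K : Type) [Fintype K] (h : 0 < Fintype.card K) : ∃ (ι : Type) (_ : Fintype ι)
    (_ : DecidableEq ι) (_ : AddCommGroup ι), Nonempty (ι ≃ K) := by
  have : NeZero (Fintype.card K) := ⟨h.ne'⟩
  exact ⟨ZMod (Fintype.card K), inferInstance, inferInstance, inferInstance,
    ⟨Fintype.equivOfCardEq (ZMod.card _)⟩⟩

def TG (R : VN A H) : Set (W R → W R) :=
  {t | ∃ (ι : Type) (_ : Fintype ι) (c : ℂ) (a : ι → A), c • ∑ i, star (a i) * a i = 1 ∧ t = kr c a}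

lemma TK_sub : TK R ⊆ TG R := by
  rintro _ ⟨ι, _, a, h, rfl⟩; exact ⟨ι, _, 1, a, by rw [h, one_smul], rfl⟩

lemma TU_sub {Q : Set A} : TU R Q ⊆ TG R := by
  rintro _ ⟨ι, _, _, a, h, rfl⟩
  exact ⟨ι, _, _, a, by simp only [fun i => (h i).1.1, avg_const], rfl⟩

def ZM (z : A) (S : W R) : Prop := ∀ x, S.f x * z = S.f 1 * x * z

lemma ZM.all {K : Set (W R)} {T : Set (W R → W R)} (h : Min T K) {z : A} (hz : CP z)
    (hT : T ⊆ TG R) (h0 : ∃ S ∈ K, ZM z S) : ∀ S ∈ K, ZM z S := by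
  refine h.min {S | ZM z S} ?_ (fun t ht S _ hS x => ?_) h0
  · simp only [ZM, Set.ofPred_forall]
    exact isClosed_iInter fun x => ((WC.ev continuous_id _).mulr z).ceq
      (((WC.ev continuous_id _).mulr x).mulr z)
  · obtain ⟨ι, _, c, a, h1, rfl⟩ := hT ht
    have e : ∀ y, (kr c a S).f y * z = S.f 1 * y * z := fun y => by
      have e : ∀ y b, S.f y * b * z = S.f 1 * y * b * z := fun y b => by
        rw [mul_assoc, hz.comm, ← mul_assoc, hS, mul_assoc _ z, ← hz.comm, ← mul_assoc]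
      have e2 := congrArg (S.f 1 * y * · * z) h1
      simp only [mul_one] at e2
      rw [← e2]
      simp only [kr_apply, smul_mul_assoc, sum_mul, e, mul_smul_comm, mul_sum]
      simp only [mul_assoc]
    rw [e, mul_assoc ((kr c a S).f 1), hz.comm x, ← mul_assoc _ z, e, mul_one, mul_assoc _ z,
      ← hz.comm x, mul_assoc]

theorem typeB {K : Set (W R)} (h : Min (TU R Set.univ) K) {z : A} (hz : CP z) (z0 : z ≠ 0)
    {κ : Type} [Fintype κ] [DecidableEq κ] {r : κ → Op H} {e : Op H} (hm : Hm R.M r e (R.ρ z))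
    (ab : Ab R.M e) : ∀ S ∈ K, ZM z S := by
  obtain ⟨ι, _, _, _, ⟨σ⟩⟩ := exists_grp κ (Fintype.card_pos_iff.2 (by
    by_contra hh
    rw [not_nonempty_iff] at hh
    exact z0 (R.inj (by rw [hm.hQ]; simp))))
  obtain ⟨E, hE, hρ⟩ := R.units hz hm σ
  obtain ⟨S, hS, h1⟩ := h.toInv.modE hE
  refine ZM.all h hz TU_sub ⟨S, hS, fun x => ?_⟩
  have k : ∀ b : A, (∀ y ∈ Set.range fun p : ι × ι => E p.1 p.2, b * y = y * b) → Mo S (b * z) :=
    fun b hb => R.bin _ (by rintro _ ⟨p, rfl⟩; exact ⟨p.swap, (hE.st _ _).symm⟩) _ (Mo.closed' S z)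
      (fun x hx y hy => by simpa only [Set.mem_ofPred_eq, add_mul] using Mo.add hx hy)
      (fun c x hx => by simpa only [Set.mem_ofPred_eq, smul_mul_assoc] using Mo.smul c hx)
      (fun p hp hc => h.cen (R.cen.1 (by
        rw [map_mul]
        refine hm.cen (R.cen.2 hz) ab (R.mem p) (R.proj.2 hp) fun a c => ?_
        obtain ⟨a, rfl⟩ := σ.surjective a
        obtain ⟨c, rfl⟩ := σ.surjective c
        rw [← hρ, ← map_mul, ← map_mul, hc _ ⟨(a, c), rfl⟩])) S hS) hb
  have e1 : x * z = ∑ a, ∑ b, (∑ k, E k a * x * E b k) * z * E a b := by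
    simp only [mul_assoc _ z, hE.zE, sum_mul, mul_assoc, hE.mul, mul_ite, mul_zero, sum_ite_eq',
      mem_univ, if_true, ← mul_sum, hE.sum]
    rw [← sum_mul, hE.sum, ← mul_assoc, ← hz.comm, mul_assoc, hz.idem]
  have e2 : Mo S (x * z) := e1 ▸ Mo.sum _ fun a => Mo.sum _ fun b => (k _ (by
    rintro _ ⟨p, rfl⟩
    simp [sum_mul, mul_sum, mul_assoc, hE.mul, ← mul_assoc (E _ _) (E _ _)])).mul (h1 a b)
  rw [← h.cen hz S hS, mul_assoc, ← e2, one_mul]

end Vale.Agent.P082
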