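import Vale.Agent.P082.Glue

open Finset Vale.Agent.P104 Filter Topology
open scoped InnerProductSpace

set_option linter.unusedSectionVars false

namespace Vale.Agent.P082

universe u

variable {A H : Type u} [CStarAlgebra A] [NormedAddCommGroup H] [InnerProductSpace ℂ H]
  [CompleteSpace H] {R : VN A H}

lemma nn_of_inner {κ G : Type*} [Fintype κ] [NormedAddCommGroup G] [InnerProductSpace ℂ G]
    {v : κ → G} {c : ℝ} (hc : 0 ≤ c) (h : ∀ η : κ → G, ‖∑ l, ⟪η l, v l⟫_ℂ‖ ≤ c * nn η) :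
    nn v ≤ c := by
  have := h v
  simp only [inner_self_eq_norm_sq_to_K] at this
  norm_cast at this
  rw [← nn_sq, abs_of_nonneg (sq_nonneg _)] at this
  rcases (nn_nonneg v).eq_or_lt with h0 | h0
  · rwa [← h0]
  · nlinarith

lemma nn_le_nn {κ κ' G G' : Type*} [Fintype κ] [NormedAddCommGroup G] [InnerProductSpace ℂ G]
    [Fintype κ'] [NormedAddCommGroup G'] [InnerProductSpace ℂ G'] {v : κ → G} {w : κ' → G'}
    (h : ∑ i, ‖v i‖ ^ 2 ≤ ∑ i, ‖w i‖ ^ 2) : nn v ≤ nn w :=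
  nn_le (nn_nonneg _) (by rwa [nn_sq])

lemma ite_apply (p : Prop) [Decidable p] (S T : Op H) (x : H) :
    (if p then S else T) x = if p then S x else T x := by split_ifs <;> rfl

section
variable {m k ι : Type} [Fintype m] [Fintype k] [Fintype ι]

noncomputable def ap (R : VN A H) (X : m → k → A) (ξ : k → H) (l : m) : H :=
  ∑ j, R.ρ (X l j) (ξ j)

def Con (R : VN A H) (X : m → k → A) : Prop := ∀ ξ, nn (ap R X ξ) ≤ nn ξ

def Col (R : VN A H) (a : ι → A) : Prop := ∀ ξ, nn (fun i => R.ρ (a i) ξ) ≤ ‖ξ‖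

lemma Col.row {a : ι → A} (h : Col R a) (η : ι → H) : ‖∑ i, R.ρ (star (a i)) (η i)‖ ≤ nn η :=
  norm_le_of_inner (nn_nonneg _) fun ξ => by
    simp only [inner_sum, map_star, inner_star_r]
    exact (nn_inner _ _).trans (by rw [mul_comm]; gcongr; exacts [nn_nonneg _, h ξ])

lemma Col.of {a : ι → A} (h : ‖∑ i, star (a i) * a i‖ ≤ 1) : Col R a := fun ξ =>
  nn_le (norm_nonneg _) (by
    have := qf_le (R.ρ (∑ i, star (a i) * a i)) ξ
    rw [R.nrm, map_sum, qf_sum] at this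
    simp only [normsq_eq, ← map_star, ← map_mul]
    exact this.trans (mul_le_of_le_one_left (by positivity) h))

lemma Con.mul {X : m → k → A} (hX : Con R X) {a : ι → A} (h : Col R a) :
    Con R fun l (p : k × ι) => X l p.1 * star (a p.2) := fun η => by
  have : ap R (fun l (p : k × ι) => X l p.1 * star (a p.2)) η =
      ap R X fun j => ∑ i, R.ρ (star (a i)) (η (j, i)) := by
    funext l; simp only [ap, Fintype.sum_prod_type, map_mul, map_sum, mul_apply_eq_comp]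
  rw [this]
  refine (hX _).trans (nn_le_nn ?_)
  rw [Fintype.sum_prod_type]
  exact sum_le_sum fun j _ => by
    rw [← nn_sq fun i => η (j, i)]; gcongr; exact h.row _

lemma Col.nn {a : ι → A} (h : Col R a) (ξ : k → H) :
    nn (fun p : k × ι => R.ρ (a p.2) (ξ p.1)) ≤ nn ξ := by
  refine nn_le_nn ?_
  rw [Fintype.sum_prod_type]
  exact sum_le_sum fun j _ => by
    rw [← nn_sq fun i => R.ρ (a i) (ξ j)]; gcongr; exacts [nn_nonneg _, h _]

lemma ap_kr (a : ι → A) (S : W R) (X : m → k → A) (ξ : k → H) :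
    ap R (fun l j => (kr 1 a S).f (X l j)) ξ =
      ap R (fun l (p : k × ι) => S.f (X l p.1 * star (a p.2))) fun p => R.ρ (a p.2) (ξ p.1) := by
  funext l
  simp only [ap, kr_apply, one_smul, map_sum, map_mul, _root_.sum_apply, mul_apply_eq_comp,
    Fintype.sum_prod_type]

lemma ap_closed (X : m → k → A) (ξ : k → H) {c : ℝ} (hc : 0 ≤ c) :
    IsClosed {S : W R | nn (ap R (fun l j => S.f (X l j)) ξ) ≤ c} := by
  have : {S : W R | nn (ap R (fun l j => S.f (X l j)) ξ) ≤ c} =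
      ⋂ η : m → H, {S | ‖∑ l, ⟪η l, ap R (fun l j => S.f (X l j)) ξ l⟫_ℂ‖ ≤ c * nn η} := by
    ext S; simp only [Set.mem_ofPred_eq, Set.mem_iInter]
    exact ⟨fun h η => (nn_inner _ _).trans (by rw [mul_comm]; gcongr; exact nn_nonneg _),
      nn_of_inner hc⟩
  rw [this]
  refine isClosed_iInter fun η => isClosed_le (Continuous.norm ?_) continuous_const
  simp only [ap, inner_sum]
  exact continuous_finsetSum _ fun l _ => continuous_finsetSum _ fun j _ =>
    WC.ev continuous_id _ _ _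

end

def BdL (L : ℕ) (z : A) (r : ℝ) (S : W R) : Prop :=
  ∀ (m k : Type) [Fintype m] [Fintype k], Fintype.card m ≤ L → Fintype.card k ≤ L →
    ∀ X : m → k → A, Con R X → ∀ ξ : k → H, (∀ j, R.ρ z (ξ j) = ξ j) →
      nn (ap R (fun l j => S.f (X l j)) ξ) ≤ r * nn ξ

def Bd (z : A) (r : ℝ) (S : W R) : Prop := ∀ L, BdL L z r S

lemma Bd.app {z : A} {r : ℝ} {S : W R} (h : Bd z r S) {m k : Type} [Fintype m] [Fintype k]
    {X : m → k → A} (hX : Con R X) (ξ : k → H) (hξ : ∀ j, R.ρ z (ξ j) = ξ j) :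
    nn (ap R (fun l j => S.f (X l j)) ξ) ≤ r * nn ξ :=
  h _ m k (le_max_left _ _) (le_max_right _ _) X hX ξ hξ

lemma BdL.closed (L : ℕ) (z : A) {r : ℝ} (hr : 0 ≤ r) : IsClosed {S : W R | BdL L z r S} := by
  simp only [BdL, Set.ofPred_forall]
  repeat' refine isClosed_iInter fun _ => ?_
  exact ap_closed _ _ (mul_nonneg hr (nn_nonneg _))

lemma Bd.closed (z : A) {r : ℝ} (hr : 0 ≤ r) : IsClosed {S : W R | Bd z r S} := by
  simp only [Bd, Set.ofPred_forall]
  exact isClosed_iInter fun L => BdL.closed L z hr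

lemma Bd.map {z : A} (hz : CP z) {r : ℝ} (hr : 0 ≤ r) {S : W R} (h : Bd z r S) {t : W R → W R}
    (ht : t ∈ TK R) : Bd z r (t S) := by
  obtain ⟨ι, _, a, ha, rfl⟩ := ht
  have hc : Col R a := Col.of (ha ▸ one1)
  intro L m k _ _ _ _ X hX ξ hξ
  rw [ap_kr]
  refine (h.app (hX.mul hc) _ fun p => ?_).trans (by gcongr; exact hc.nn ξ)
  rw [← mul_apply_eq_comp, ← map_mul, ← hz.comm, map_mul, mul_apply_eq_comp, hξ]

lemma nn_unit {G : Type*} [NormedAddCommGroup G] [InnerProductSpace ℂ G] (v : Unit → G) :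
    nn v = ‖v ()‖ := by
  rw [← sq_eq_sq₀ (nn_nonneg _) (norm_nonneg _), nn_sq]; simp

lemma Con.unit {x : A} (hx : ‖x‖ ≤ 1) : Con R fun (_ _ : Unit) => x := fun ξ => by
  simp only [nn_unit, ap, Fintype.sum_unique]
  exact app_le (by rwa [R.nrm]) _

lemma Bd.one {z : A} {r : ℝ} {S : W R} (h : Bd z r S) {x : A} (hx : ‖x‖ ≤ 1) {ξ : H}
    (hξ : R.ρ z ξ = ξ) : ‖R.ρ (S.f x) ξ‖ ≤ r * ‖ξ‖ := by
  simpa only [nn_unit, ap, Fintype.sum_unique] using h.app (Con.unit hx) (fun _ => ξ) fun _ => hξ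

lemma Bd.norm {r : ℝ} (hr : 0 ≤ r) {S : W R} (h : Bd 1 r S) : ‖S.f‖ ≤ r :=
  ContinuousLinearMap.opNorm_le_of_unit_norm hr fun x hx => by
    rw [← R.nrm]
    exact ContinuousLinearMap.opNorm_le_bound _ hr fun ξ => h.one hx.le (by simp)

lemma stack {z q x : A} (hq : IsStarProjection q) (zq : z * q = q) (hx : ‖x‖ ≤ 1) (xq : x * q = 0)
    {S : W R} {r δ : ℝ} (δ0 : 0 ≤ δ) (hδ : ∀ ξ, R.ρ q ξ = ξ → δ * ‖ξ‖ ≤ ‖R.ρ (S.f x) ξ‖)
    (hr : δ ≤ r) (h : Bd z r S) {m k : Type} [Fintype m] [Fintype k] {X : m → k → A}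
    (hX : Con R X) (Xq : ∀ l j, X l j * q = X l j) (ξ : k → H) (hξ : ∀ j, R.ρ q (ξ j) = ξ j) :
    nn (ap R (fun l j => S.f (X l j)) ξ) ≤ √(r ^ 2 - δ ^ 2) * nn ξ := by
  classical
  have hp := R.proj.2 hq
  have e : ∀ (T : A →L[ℂ] A) (η : k → H), nn (ap R (fun (l : m ⊕ k) j =>
      T (Sum.elim X (fun i j => if i = j then x else 0) l j)) η) ^ 2 =
      nn (ap R (fun l j => T (X l j)) η) ^ 2 + ∑ j, ‖R.ρ (T x) (η j)‖ ^ 2 := fun T η => by
    simp [nn_sq, ap, apply_ite T, apply_ite R.ρ, ite_apply]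
  have h1 := h.app (X := Sum.elim X fun i j => if i = j then x else 0) (fun η => by
    have e1 := e (ContinuousLinearMap.id ℂ A) η
    simp only [ContinuousLinearMap.id_apply] at e1
    have e2 : ap R X η = ap R X fun j => R.ρ q (η j) := by
      funext l; simp only [ap, ← mul_apply_eq_comp, ← map_mul, Xq]
    have e3 := pow_le_pow_left₀ (nn_nonneg _) (hX fun j => R.ρ q (η j)) 2
    rw [← pow_le_pow_iff_left₀ (nn_nonneg _) (nn_nonneg _) two_ne_zero, e1, e2]
    refine (add_le_add_left e3 _).trans ?_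
    rw [nn_sq, nn_sq, ← sum_add_distrib]
    refine sum_le_sum fun j _ => ?_
    have g := normsq_add hp hp.mul_one_sub_self (η j) (η j)
    rw [← add_apply, add_sub_cancel, one_apply_eq_self] at g
    have : R.ρ x (η j) = R.ρ x ((1 - R.ρ q) (η j)) := by
      rw [← mul_apply_eq_comp, mul_sub, ← map_mul, xq]; simp
    rw [g, this]
    gcongr
    exact app_le (by rwa [R.nrm]) _) ξ fun j => by
      rw [← hξ, ← mul_apply_eq_comp, ← map_mul, zq]
  have h2 := pow_le_pow_left₀ (nn_nonneg _) h1 2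
  rw [e] at h2
  have h3 : δ ^ 2 * nn ξ ^ 2 ≤ ∑ j, ‖R.ρ (S.f x) (ξ j)‖ ^ 2 := by
    rw [nn_sq, mul_sum]
    exact sum_le_sum fun j _ => by rw [← mul_pow]; gcongr; exact hδ _ (hξ j)
  rw [← pow_le_pow_iff_left₀ (nn_nonneg _) (mul_nonneg (Real.sqrt_nonneg _) (nn_nonneg _))
    two_ne_zero, mul_pow, Real.sq_sqrt (by nlinarith)]
  nlinarith

lemma cb_step {K : Set (W R)} (hK : Min (TK R) K) {C : ℝ} {S : W R} (hS : S ∈ K)
    (hC : Bd 1 C S) {z q : A} (hz : CP z) {F : Set (Op H)}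
    (hF : ∀ a ∈ F, a ∈ R.M ∧ PI a ∧ R.ρ q * a = a) (hq : IsStarProjection q)
    (hs : SumOf (fun a : F => star a.1 * a.1) (R.ρ z)) {r : ℝ} (r0 : 0 ≤ r)
    (h : ∀ (m k : Type) [Fintype m] [Fintype k] (X : m → k → A), Con R X →
      (∀ l j, X l j * q = X l j) → ∀ ξ : k → H, (∀ j, R.ρ q (ξ j) = ξ j) →
      nn (ap R (fun l j => S.f (X l j)) ξ) ≤ r * nn ξ) : ∀ S ∈ K, Bd z r S := by
  choose a ha using fun i : F => R.surj i.1 (hF _ i.2).1
  have qa : ∀ i, q * a i = a i := fun i => R.inj (by rw [map_mul, ha, (hF _ i.2).2.2])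
  have aq : ∀ i, star (a i) * q = star (a i) := fun i => by
    simpa [hq.isSelfAdjoint.star_eq] using congrArg star (qa i)
  let p : Finset F → A := fun s => ∑ i ∈ s, star (a i) * a i
  have pρ : ∀ s, R.ρ (p s) = ∑ i ∈ s, star i.1 * i.1 := fun s => by
    simp only [p, map_sum, map_mul, map_star, ha]
  have pp : ∀ s, IsStarProjection (p s) := fun s => R.proj.1 (by
    rw [pρ]
    refine ⟨?_, by simp [IsSelfAdjoint, star_sum]⟩
    rw [IsIdempotentElem, sum_mul]
    refine sum_congr rfl fun i hi => ?_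
    rw [mul_sum, sum_eq_single i (fun j _ hj => by simpa using hs.ort.o1 i j hj.symm)
      (fun h => (h hi).elim), pidem (hF _ i.2).2.1.proj])
  let b : (s : Finset F) → Fin s.card → A := fun s i => a (s.equivFin.symm i)
  have bp : ∀ s, ∑ i, star (b s i) * b s i = p s := fun s =>
    (Equiv.sum_comp s.equivFin.symm fun i : s => star (a i) * a i).trans
      (sum_coe_sort s fun i => star (a i) * a i)
  let T : Finset F → W R := fun s => kr 1 (fun o : Option (Fin s.card) => o.elim (1 - p s) (b s)) S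
  have p1 : ∀ s, star (1 - p s) * (1 - p s) = 1 - p s := fun s => by
    rw [(pp s).one_sub.isSelfAdjoint.star_eq, (pp s).one_sub.isIdempotentElem.eq]
  have TK' : ∀ s, T s ∈ K := fun s => hK.inv _ ⟨_, _, _, by
    simp only [Fintype.sum_option, Option.elim, bp, p1, sub_add_cancel], rfl⟩ S hS
  obtain ⟨S', hS', cl⟩ := hK.cpt.exists_mapClusterPt (f := atTop) (u := T)
    (le_principal_iff.2 (mem_map.2 (Eventually.of_forall TK')))
  refine hK.min _ (Bd.closed z r0) (fun t ht S _ hS => Bd.map hz r0 hS ht)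
    ⟨S', hS', fun L m k _ _ _ _ X hX ξ hξ => le_of_forall_pos_le_add fun ε hε => ?_⟩
  refine (ap_closed X ξ (by have := nn_nonneg ξ; positivity)).mem_of_mapClusterPt cl ?_
  have t1 : Tendsto (fun s => C * nn fun j : k × Unit => R.ρ (1 - p s) (ξ j.1)) atTop (𝓝 0) := by
    have : Tendsto (fun s => fun j : k × Unit => R.ρ (1 - p s) (ξ j.1)) atTop (𝓝 0) :=
      tendsto_pi_nhds.2 fun j => by
        have := (tendsto_const_nhds (x := ξ j.1)).sub (hs.hs (ξ j.1))
        simpa [hξ, pρ] using this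
    have h2 : Continuous fun v : k × Unit → H => C * nn v := by unfold nn; fun_prop
    have h3 := (h2.tendsto 0).comp this
    rwa [show nn (0 : k × Unit → H) = 0 by simp [nn], mul_zero] at h3
  filter_upwards [t1.eventually (ge_mem_nhds hε)] with s hs
  have c1 : Col R (b s) := Col.of (bp s ▸ (pp s).norm_le)
  have c2 : Col R fun _ : Unit => 1 - p s := Col.of (by
    rw [Fintype.sum_unique, p1]; exact (pp s).one_sub.norm_le)
  have e : ap R (fun l j => (T s).f (X l j)) ξ = fun l =>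
      ap R (fun l (t : k × Fin s.card) => S.f (X l t.1 * star (b s t.2)))
        (fun t => R.ρ (b s t.2) (ξ t.1)) l +
      ap R (fun l (t : k × Unit) => S.f (X l t.1 * star (1 - p s)))
        (fun t => R.ρ (1 - p s) (ξ t.1)) l := by
    funext l
    simp only [T, ap_kr]
    simp only [ap, Fintype.sum_prod_type, Fintype.sum_option, Option.elim, sum_add_distrib,
      Fintype.sum_unique]
    exact add_comm _ _
  rw [e]
  refine (nn_add _ _).trans (add_le_add ((h _ _ _ (hX.mul c1) (fun l j => ?_) _ fun j => ?_).trans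
    (by gcongr; exact c1.nn ξ)) ((hC.app (hX.mul c2) _ (by simp)).trans hs))
  · rw [mul_assoc, aq]
  · rw [← mul_apply_eq_comp, ← map_mul, qa]

lemma cb_cut {K : Set (W R)} (hK : Min (TK R) K) {C : ℝ} (C0 : 0 ≤ C) (hC : ∀ S ∈ K, Bd 1 C S)
    {S : W R} (hS : S ∈ K) {q0 x : A} (hq0 : IsStarProjection q0) (hx : ‖x‖ ≤ 1)
    (xq : x * q0 = 0) : S.f x * q0 = 0 := by
  by_contra t0
  set t := S.f x * q0 with ht
  have δ0 : 0 < ‖t‖ / 2 := half_pos (norm_pos_iff.2 t0)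
  set δ := ‖t‖ / 2 with hδ
  have hsa : IsSelfAdjoint (star (R.ρ t) * R.ρ t - ((δ ^ 2 : ℝ) : ℂ) • (1 : Op H)) := by
    simp [IsSelfAdjoint]
  obtain ⟨e, he, e1, e2, e3⟩ := exists_spec hsa
  have e4 : ∀ y, star (R.ρ t) * R.ρ t * y = y * (star (R.ρ t) * R.ρ t) → e * y = y * e :=
    fun y hy => e1 y (by simp [sub_mul, mul_sub, hy])
  obtain ⟨q, rfl⟩ := R.surj e (memM fun y hy =>
    (e4 y (commM (mul_mem (star_mem (R.mem t)) (R.mem t)) hy)).symm)
  have hq := R.proj.1 he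
  have qf1 : ∀ ξ, qf (star (R.ρ t) * R.ρ t - ((δ ^ 2 : ℝ) : ℂ) • (1 : Op H)) ξ =
      ‖R.ρ t ξ‖ ^ 2 - (δ * ‖ξ‖) ^ 2 := fun ξ => by
    rw [normsq_eq, mul_pow, ← qf_one]
    simp [qf, ← Complex.ofReal_pow]
  have l1 : ∀ ξ, R.ρ q ξ = ξ → δ * ‖ξ‖ ≤ ‖R.ρ t ξ‖ := fun ξ h => by
    have := qf_nonneg e2 ξ
    rw [qf, mul_apply_eq_comp, h, ← qf, qf1, sub_nonneg] at this
    exact (pow_le_pow_iff_left₀ (by positivity) (norm_nonneg _) two_ne_zero).1 this
  have tq : t * q0 = t := by rw [ht, mul_assoc, hq0.isIdempotentElem.eq]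
  have hp0 := R.proj.2 hq0
  have c0 := e4 (R.ρ q0) (by
    have : R.ρ t * R.ρ q0 = R.ρ t := by rw [← map_mul, tq]
    rw [mul_assoc, this, ← mul_assoc, (star_fix hp0).2 this])
  have q0q : q0 * q = q := R.inj (by
    ext ξ
    have := l1 (R.ρ q ((1 - R.ρ q0) ξ)) congr($(pidem he) _)
    have h2 : R.ρ q ((1 - R.ρ q0) ξ) = (1 - R.ρ q0) (R.ρ q ξ) := by
      rw [← mul_apply_eq_comp, ← mul_apply_eq_comp, mul_sub, sub_mul, c0]; simp
    rw [h2, ← mul_apply_eq_comp (R.ρ t), mul_sub, ← map_mul, tq, mul_one, sub_self,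
      zero_apply, norm_zero] at this
    have h3 := norm_le_zero_iff.1 (nonpos_of_mul_nonpos_right this δ0)
    rw [sub_apply, sub_eq_zero] at h3
    rw [map_mul]; exact h3.symm)
  have l2 : ∀ ξ, R.ρ q ξ = ξ → δ * ‖ξ‖ ≤ ‖R.ρ (S.f x) ξ‖ := fun ξ h => by
    have := l1 ξ h
    rwa [ht, map_mul, mul_apply_eq_comp, ← h, ← mul_apply_eq_comp (R.ρ q0), ← map_mul, q0q,
      h] at this
  obtain ⟨ξ, hξ, ξ0⟩ : ∃ ξ, R.ρ q ξ = ξ ∧ ξ ≠ 0 := by
    by_contra! hh
    have h0 : R.ρ q = 0 := by ext ξ; exact hh _ congr($(pidem he) ξ)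
    have : ‖t‖ ≤ δ := by
      rw [← R.nrm]
      refine ContinuousLinearMap.opNorm_le_bound _ δ0.le fun ξ => ?_
      have := qf_nonneg e3 ξ
      rw [h0, sub_zero, mul_one, qf, neg_apply, inner_neg_right, Complex.neg_re, ← qf, qf1] at this
      exact (pow_le_pow_iff_left₀ (norm_nonneg _) (by positivity) two_ne_zero).1 (by linarith)
    linarith
  obtain ⟨z, hz, z1, F, hF, hs⟩ := exists_cover he (R.mem q)
  obtain ⟨z, rfl⟩ := R.surj z hz.mem
  have hz' := R.cen.1 hz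
  have low : ∀ r, Bd z r S → δ ≤ r := fun r h => le_of_mul_le_mul_right ((l2 ξ hξ).trans
    (h.one hx (by rw [← hξ, ← mul_apply_eq_comp, z1]))) (norm_pos_iff.2 ξ0)
  have : ∀ n : ℕ, ∃ r, 0 ≤ r ∧ r ^ 2 = C ^ 2 - n * δ ^ 2 ∧ ∀ S ∈ K, Bd z r S := by
    intro n
    induction n with
    | zero => exact ⟨C, C0, by simp, fun S hS L m k _ _ _ _ X hX ξ _ =>
        (hC S hS).app hX ξ (by simp)⟩
    | succ n ih =>
      obtain ⟨r, r0, r1, r2⟩ := ih
      have := low r (r2 S hS)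
      refine ⟨√(r ^ 2 - δ ^ 2), Real.sqrt_nonneg _, by
        rw [Real.sq_sqrt (by nlinarith), r1]; push_cast; ring,
        cb_step hK hS (hC S hS) hz' hF hq hs (Real.sqrt_nonneg _) fun m k _ _ X hX =>
          stack hq (R.inj (by rw [map_mul, z1])) hx (by rw [← q0q, ← mul_assoc, xq, zero_mul])
            δ0.le l2 this (r2 S hS) hX⟩
  obtain ⟨n, hn⟩ := exists_nat_gt (C ^ 2 / δ ^ 2)
  obtain ⟨r, -, r1, -⟩ := this n
  rw [div_lt_iff₀ (by positivity)] at hn
  nlinarith [sq_nonneg r]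

theorem cb_thm {K : Set (W R)} (hK : Min (TK R) K) {C : ℝ} (C0 : 0 ≤ C) (hC : ∀ S ∈ K, Bd 1 C S)
    (z : A) : ∀ S ∈ K, ZM z S := fun S hS x => by
  have h1 : ∀ q, IsStarProjection q → ∀ x, S.f (x * (1 - q)) * q = 0 := fun q hq x => by
    have := cb_cut hK C0 hC hS hq (x := ((‖x‖ + 1 : ℝ) : ℂ)⁻¹ • (x * (1 - q))) (by
      rw [norm_smul, norm_inv, Complex.norm_real, Real.norm_of_nonneg (by positivity),
        inv_mul_le_iff₀ (by positivity), mul_one]
      exact mul1 (by linarith) hq.one_sub.norm_le)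
      (by rw [smul_mul_assoc, mul_assoc, hq.one_sub_mul_self]; simp)
    rw [map_smul, smul_mul_assoc] at this
    exact (smul_eq_zero.1 this).resolve_left (inv_ne_zero (by exact_mod_cast (by positivity)))
  have := R.bin ∅ (by simp) _ (Mo.closed' S 1)
    (fun x hx y hy => by simpa only [Set.mem_ofPred_eq, add_mul] using Mo.add hx hy)
    (fun c x hx => by simpa only [Set.mem_ofPred_eq, smul_mul_assoc] using Mo.smul c hx)
    (fun q hq _ x => by
      have a1 := h1 q hq x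
      have a2 := h1 _ hq.one_sub x
      rw [mul_sub, mul_one, map_sub, sub_mul, sub_eq_zero] at a1
      rw [sub_sub_cancel, mul_sub, mul_one, sub_eq_zero] at a2
      rw [mul_one, a1, ← a2]) (b := x) (by simp) 1
  rw [mul_one, one_mul] at this
  rw [this]

end Vale.Agent.P082
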