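import Mathlib

open Finset

set_option linter.unusedSectionVars false

namespace Vale.Agent.P082

universe u

section alg
variable {A : Type*} [Mul A] {X : Type*} [AddCommGroup X] [Module ℂ X] {n : ℕ}

def sn (a : Fin n → A) (x : A) : Fin (n + 1) → A := Fin.snoc (α := fun _ => A) a x

def ct (j : Fin n) (a : Fin (n + 1) → A) : Fin n → A := Fin.contractNth j.castSucc (· * ·) a

def mid (f : (Fin n → A) → X) (a : Fin (n + 1) → A) : X :=
  ∑ j : Fin n, (-1 : ℂ) ^ (j.val + 1) • f (ct j a)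

def dd (l : A → X → X) (r : X → A → X) (f : (Fin n → A) → X) (a : Fin (n + 1) → A) : X :=
  l (a 0) (f (Fin.tail a)) + mid f a + (-1 : ℂ) ^ (n + 1) • r (f (Fin.init a)) (a (Fin.last n))

omit [Mul A] in
@[simp] lemma sn_last (a : Fin n → A) (x : A) : sn a x (Fin.last n) = x := by simp [sn]
omit [Mul A] in
@[simp] lemma sn_cast (a : Fin n → A) (x : A) (j : Fin n) : sn a x j.castSucc = a j := by simp [sn]
omit [Mul A] in
@[simp] lemma init_sn (a : Fin n → A) (x : A) : Fin.init (sn a x) = a := by simp [sn]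
omit [Mul A] in
lemma sn_init (a : Fin (n + 1) → A) : sn (Fin.init a) (a (Fin.last n)) = a := by simp [sn]
omit [Mul A] in
@[simp] lemma sn_zero (a : Fin (n + 1) → A) (x : A) : sn a x 0 = a 0 := sn_cast a x 0
omit [Mul A] in
lemma tail_sn (a : Fin (n + 1) → A) (x : A) : Fin.tail (sn a x) = sn (Fin.tail a) x := by
  funext j
  refine Fin.lastCases ?_ (fun j => ?_) j
  · rw [Fin.tail, Fin.succ_last, sn_last, sn_last]
  · rw [Fin.tail, Fin.succ_castSucc, sn_cast, sn_cast]; rfl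

lemma ct_sn (a : Fin (n + 1) → A) (x : A) (j : Fin n) :
    ct j.castSucc (sn a x) = sn (ct j a) x := by
  funext k
  refine Fin.lastCases ?_ (fun k => ?_) k
  · rw [ct, Fin.contractNth_apply_of_gt _ _ _ _ (by simp), Fin.succ_last, sn_last, sn_last]
  · simp only [ct, Fin.contractNth, sn_cast, Fin.succ_castSucc, Fin.val_castSucc]

lemma ct_last (a : Fin (n + 1) → A) (x : A) :
    ct (Fin.last n) (sn a x) = sn (Fin.init a) (a (Fin.last n) * x) := by
  funext k
  refine Fin.lastCases ?_ (fun k => ?_) k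
  · rw [ct, Fin.contractNth_apply_of_eq _ _ _ _ (by simp), Fin.succ_last, sn_last, sn_last, sn_cast]
  · rw [ct, Fin.contractNth_apply_of_lt _ _ _ _ (by simp), sn_cast, sn_cast]; rfl

lemma mid_sn (f : (Fin (n + 1) → A) → X) (a : Fin (n + 1) → A) (x : A) :
    mid f (sn a x) = mid (fun b => f (sn b x)) a +
      (-1 : ℂ) ^ (n + 1) • f (sn (Fin.init a) (a (Fin.last n) * x)) := by
  simp only [mid, Fin.sum_univ_castSucc, ct_sn, ct_last, Fin.val_castSucc, Fin.val_last]

lemma dd_sn (l : A → X → X) (r : X → A → X) (f : (Fin (n + 1) → A) → X) (a : Fin (n + 1) → A)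
    (x : A) : dd l r f (sn a x) = l (a 0) (f (sn (Fin.tail a) x)) + mid (fun b => f (sn b x)) a +
      (-1 : ℂ) ^ (n + 1) • (f (sn (Fin.init a) (a (Fin.last n) * x)) - r (f a) x) := by
  rw [dd, mid_sn, sn_zero, tail_sn, init_sn, sn_last, pow_succ _ (n + 1), smul_sub, mul_neg_one,
    neg_smul]
  abel

lemma mid_map {Y : Type*} [AddCommGroup Y] [Module ℂ Y] (T : X →ₗ[ℂ] Y) (f : (Fin n → A) → X)
    (a : Fin (n + 1) → A) : T (mid f a) = mid (fun b => T (f b)) a := by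
  simp only [mid, map_sum, map_smul]

lemma mid_add (f g : (Fin n → A) → X) (a : Fin (n + 1) → A) :
    mid (fun b => f b + g b) a = mid f a + mid g a := by
  simp only [mid, smul_add, sum_add_distrib]

lemma mid_smul (c : ℂ) (f : (Fin n → A) → X) (a : Fin (n + 1) → A) :
    mid (fun b => c • f b) a = c • mid f a := by
  simp only [mid, smul_sum, smul_comm c]

lemma mid_sum {ι : Type*} (s : Finset ι) (f : ι → (Fin n → A) → X) (a : Fin (n + 1) → A) :
    mid (fun b => ∑ i ∈ s, f i b) a = ∑ i ∈ s, mid (f i) a := by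
  simp only [mid, smul_sum]; exact sum_comm

lemma ct_comp {B : Type*} [Mul B] (γ : A → B) (hγ : ∀ a b, γ (a * b) = γ a * γ b) (j : Fin n)
    (a : Fin (n + 1) → A) : ct j (fun i => γ (a i)) = fun i => γ (ct j a i) := by
  funext k
  simp only [ct, Fin.contractNth]
  split_ifs <;> simp [hγ]

lemma mid_comp {B : Type*} [Mul B] (γ : A → B) (hγ : ∀ a b, γ (a * b) = γ a * γ b)
    (f : (Fin n → B) → X) (a : Fin (n + 1) → A) :
    mid f (fun i => γ (a i)) = mid (fun b => f fun i => γ (b i)) a := by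
  simp only [mid, ct_comp γ hγ]

omit [Mul A] in
lemma sn_comp {B : Type*} (γ : A → B) (a : Fin n → A) (x : A) :
    (fun i => γ (sn a x i)) = sn (fun i => γ (a i)) (γ x) := by
  funext k
  refine Fin.lastCases ?_ (fun k => ?_) k <;> simp

end alg

variable {A : Type u} [NormedRing A] [NormedAlgebra ℂ A]

abbrev CM (A : Type u) [NormedRing A] [NormedAlgebra ℂ A] (n : ℕ) (X : Type u)
    [NormedAddCommGroup X] [NormedSpace ℂ X] := ContinuousMultilinearMap ℂ (fun _ : Fin n => A) X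

section
variable {X : Type u} [NormedAddCommGroup X] [NormedSpace ℂ X] {n : ℕ}

noncomputable def cur (f : CM A (n + 1) X) : CM A n (A →L[ℂ] X) :=
  continuousMultilinearCurryRightEquiv' ℂ n A X f

noncomputable def unc (f : CM A n (A →L[ℂ] X)) : CM A (n + 1) X :=
  (continuousMultilinearCurryRightEquiv' ℂ n A X).symm f

@[simp] lemma cur_apply (f : CM A (n + 1) X) (a : Fin n → A) (x : A) : cur f a x = f (sn a x) := rfl
@[simp] lemma unc_apply (f : CM A n (A →L[ℂ] X)) (a : Fin n → A) (x : A) :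
    unc f (sn a x) = f a x := by
  rw [unc, continuousMultilinearCurryRightEquiv_symm_apply', init_sn, sn_last]
lemma norm_cur (f : CM A (n + 1) X) : ‖cur f‖ = ‖f‖ := LinearIsometryEquiv.norm_map _ _
lemma norm_unc (f : CM A n (A →L[ℂ] X)) : ‖unc f‖ = ‖f‖ := LinearIsometryEquiv.norm_map _ _

noncomputable def pull (γ : A →L[ℂ] A) (f : CM A n X) : CM A n X :=
  f.compContinuousLinearMap fun _ => γ

@[simp] lemma pull_apply (γ : A →L[ℂ] A) (f : CM A n X) (a : Fin n → A) :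
    pull γ f a = f fun i => γ (a i) := rfl

lemma norm_pull {γ : A →L[ℂ] A} (h : ‖γ‖ ≤ 1) (f : CM A n X) : ‖pull γ f‖ ≤ ‖f‖ :=
  (f.norm_compContinuousLinearMap_le _).trans (mul_le_of_le_one_right (norm_nonneg _)
    (prod_le_one (fun _ _ => norm_nonneg _) fun _ _ => h))

noncomputable def post {Y : Type u} [NormedAddCommGroup Y] [NormedSpace ℂ Y] (T : X →L[ℂ] Y)
    (f : CM A n X) : CM A n Y := T.compContinuousMultilinearMap f

@[simp] lemma post_apply {Y : Type u} [NormedAddCommGroup Y] [NormedSpace ℂ Y] (T : X →L[ℂ] Y)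
    (f : CM A n X) (a : Fin n → A) : post T f a = T (f a) := rfl

lemma norm_post {Y : Type u} [NormedAddCommGroup Y] [NormedSpace ℂ Y] {T : X →L[ℂ] Y}
    (h : ‖T‖ ≤ 1) (f : CM A n X) : ‖post T f‖ ≤ ‖f‖ :=
  (T.norm_compContinuousMultilinearMap_le f).trans (mul_le_of_le_one_left (norm_nonneg _) h)

noncomputable def shl (l : A →L[ℂ] X →L[ℂ] X) : A →L[ℂ] (A →L[ℂ] X) →L[ℂ] (A →L[ℂ] X) :=
  ContinuousLinearMap.compL ℂ A X X ∘L l

noncomputable def shr (r : X →L[ℂ] A →L[ℂ] X) : (A →L[ℂ] X) →L[ℂ] A →L[ℂ] (A →L[ℂ] X) :=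
  ((ContinuousLinearMap.compL ℂ A A X).flip ∘L ContinuousLinearMap.mul ℂ A).flip -
    ContinuousLinearMap.compL ℂ A X (A →L[ℂ] X) r

@[simp] lemma shl_apply (l : A →L[ℂ] X →L[ℂ] X) (a : A) (T : A →L[ℂ] X) (x : A) :
    shl l a T x = l a (T x) := rfl
@[simp] lemma shr_apply (r : X →L[ℂ] A →L[ℂ] X) (a : A) (T : A →L[ℂ] X) (x : A) :
    shr r T a x = T (a * x) - r (T a) x := rfl

lemma dd_shift (l : A →L[ℂ] X →L[ℂ] X) (r : X →L[ℂ] A →L[ℂ] X) (γ : A → A)
    (f : CM A n (A →L[ℂ] X)) (a : Fin (n + 1) → A) (x : A) :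
    dd (fun a => shl l (γ a)) (fun T => shr r T) f a x =
      dd (fun a => l (γ a)) (fun T => r T) (unc f) (sn a x) := by
  rw [dd_sn, dd]
  have := mid_map (ContinuousLinearMap.apply ℂ X x : (A →L[ℂ] X) →ₗ[ℂ] X) f a
  simp only [ContinuousLinearMap.coe_coe, ContinuousLinearMap.apply_apply] at this
  have h2 : unc f a = f (Fin.init a) (a (Fin.last n)) := by rw [← unc_apply, sn_init]
  simp only [add_apply, smul_apply, this, shl_apply,
    shr_apply, unc_apply, h2]

lemma homot_step {γ : A →L[ℂ] A} (hγ : ∀ a b, γ (a * b) = γ a * γ b) (γ1 : ‖γ‖ ≤ 1) {V : A}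
    (V1 : ‖V‖ ≤ 1) (hV : ∀ a, γ a * V = V * a) (l : A →L[ℂ] X →L[ℂ] X) (r : X →L[ℂ] A →L[ℂ] X)
    (φ : CM A (n + 1) X) (hφ : ∀ a, dd (fun a => l a) (fun T => r T) φ a = 0)
    (h1 : CM A n X) (hh : ∀ a x, dd (fun a => l (γ a)) (fun T => r T) h1 (sn a x) =
      shr r (cur φ fun i => γ (a i)) V x - shl l V (cur φ a) x) :
    ∃ h : CM A n X, ‖h‖ ≤ ‖h1‖ + ‖φ‖ ∧ ∀ a, dd (fun a => l (γ a)) (fun T => r T) h a =
      r (φ fun i => γ (a i)) V - l V (φ a) := by
  let h0 : CM A n X := post (ContinuousLinearMap.apply ℂ X V) (pull γ (cur φ))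
  have n0 : ‖h0‖ ≤ ‖φ‖ := (norm_post (ContinuousLinearMap.opNorm_le_bound _ zero_le_one fun T =>
    by rw [one_mul]; exact (T.le_opNorm V).trans (mul_le_of_le_one_right (norm_nonneg _) V1))
      _).trans ((norm_pull γ1 _).trans (norm_cur φ).le)
  refine ⟨h1 + (-1 : ℂ) ^ (n + 1) • h0, (norm_add_le _ _).trans (by
    rw [norm_smul, norm_pow, norm_neg, norm_one, one_pow, one_mul]; gcongr), fun a => ?_⟩
  have e1 := hh (Fin.init a) (a (Fin.last n))
  have e2 := hφ (sn (fun i => γ (a i)) V)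
  rw [dd_sn, mid_comp γ hγ, hV] at e2
  rw [sn_init] at e1
  simp only [shr_apply, shl_apply, cur_apply, sn_init] at e1
  have e3 : mid (⇑(h1 + (-1 : ℂ) ^ (n + 1) • h0)) a = mid h1 a + (-1 : ℂ) ^ (n + 1) •
      mid (fun b => φ (sn (fun i => γ (b i)) V)) a := by
    rw [← mid_smul, ← mid_add]; rfl
  have e4 : ∀ b, (h1 + (-1 : ℂ) ^ (n + 1) • h0) b =
      h1 b + (-1 : ℂ) ^ (n + 1) • φ (sn (fun i => γ (b i)) V) := fun b => rfl
  have e5 : (-1 : ℂ) ^ (n + 1) * (-1 : ℂ) ^ (n + 1) = 1 := by rw [← mul_pow]; simp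
  rw [dd] at e1
  rw [dd, e3, e4, e4]
  simp only [map_add, map_smul, add_apply, smul_apply]
  have e6 : Fin.tail (fun i => γ (a i)) = fun i => γ (Fin.tail a i) := rfl
  have e7 : Fin.init (fun i => γ (a i)) = fun i => γ (Fin.init a i) := rfl
  rw [e6, e7] at e2
  have e8 := congrArg ((-1 : ℂ) ^ (n + 1) • ·) e2
  simp only [smul_add, smul_smul, e5, one_smul, smul_zero] at e8 ⊢
  linear_combination (norm := module) e1 + e8

end

theorem homot {γ : A →L[ℂ] A} (hγ : ∀ a b, γ (a * b) = γ a * γ b) (γ1 : ‖γ‖ ≤ 1) {V : A}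
    (V1 : ‖V‖ ≤ 1) (hV : ∀ a, γ a * V = V * a) (n : ℕ) : ∀ (X : Type u) [NormedAddCommGroup X]
    [NormedSpace ℂ X] (l : A →L[ℂ] X →L[ℂ] X) (r : X →L[ℂ] A →L[ℂ] X)
    (φ : CM A (n + 1) X), (∀ a, dd (fun a => l a) (fun T => r T) φ a = 0) →
    ∃ h : CM A n X, ‖h‖ ≤ (n + 1) * ‖φ‖ ∧ ∀ a, dd (fun a => l (γ a)) (fun T => r T) h a =
      r (φ fun i => γ (a i)) V - l V (φ a) := by
  have key : ∀ n (X : Type u) [NormedAddCommGroup X]
      [NormedSpace ℂ X] (l : A →L[ℂ] X →L[ℂ] X) (r : X →L[ℂ] A →L[ℂ] X)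
      (φ : CM A (n + 1) X), (∀ a, dd (fun a => l a) (fun T => r T) φ a = 0) →
      ∀ a, dd (fun a => shl l a) (fun T => shr r T) (cur φ) a = 0 := by
    intro n X _ _ l r φ hφ a
    ext x
    have := dd_shift l r id (cur φ) a x
    rw [unc, cur, LinearIsometryEquiv.symm_apply_apply] at this
    exact this.trans (hφ _)
  induction n with
  | zero =>
    intro X _ _ l r φ hφ
    obtain ⟨h, h1, h2⟩ := homot_step hγ γ1 V1 hV l r φ hφ 0 fun a x => by
      have := congr($(key 0 X l r φ hφ fun _ => V) x)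
      rw [dd] at this ⊢
      simp only [mid, univ_eq_empty, sum_empty] at this ⊢
      rw [Subsingleton.elim (fun i => γ (a i)) a]
      rw [Subsingleton.elim (Fin.tail _) a, Subsingleton.elim (Fin.init _) a] at this
      simp only [add_apply, smul_apply] at this
      simp at this ⊢
      linear_combination (norm := module) this
    exact ⟨h, by simpa using h1, h2⟩
  | succ n ih =>
    intro X _ _ l r φ hφ
    obtain ⟨h, h1, h2⟩ := ih _ (shl l) (shr r) (cur φ) (key _ X l r φ hφ)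
    obtain ⟨h', h3, h4⟩ := homot_step hγ γ1 V1 hV l r φ hφ (unc h) fun a x => by
      rw [← dd_shift, h2]; rfl
    refine ⟨h', h3.trans ?_, h4⟩
    rw [norm_unc]; rw [norm_cur] at h1; push_cast; linarith

end Vale.Agent.P082
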