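import Vale.Agent.P082.TypeA
import Vale.Agent.P104.Col

open Finset Vale.Agent.P104
open scoped InnerProductSpace

set_option linter.unusedSectionVars false

namespace Vale.Agent.P082

universe u

section
variable {κ G : Type*} [Fintype κ] [DecidableEq κ] [NormedAddCommGroup G] [InnerProductSpace ℂ G]

lemma inner_self_re (x : G) : (⟪x, x⟫_ℂ).re = ‖x‖ ^ 2 := by
  rw [inner_self_eq_norm_sq_to_K]; norm_cast

lemma sg_nn (η : κ → G) :
    nn (fun s => ∑ i, sg s i • η i) = √(Fintype.card (κ → Bool)) * nn η := by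
  rw [← sq_eq_sq₀ (nn_nonneg _) (mul_nonneg (Real.sqrt_nonneg _) (nn_nonneg _)), mul_pow,
    Real.sq_sqrt (by positivity), nn_sq, nn_sq]
  have := congrArg Complex.re (sg_sum fun i j => ⟪η i, η j⟫_ℂ)
  simp only [smul_eq_mul, Complex.mul_re, Complex.natCast_re, Complex.natCast_im, zero_mul,
    sub_zero] at this
  simp only [← inner_self_re, ← Complex.re_sum, ← this, sum_inner]
  simp only [inner_sum, inner_smul_left, inner_smul_right, sg_conj, mul_left_comm, mul_assoc]

lemma bessel (v : (κ → Bool) → G) {r : ℝ} (hr : 0 ≤ r)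
    (h : nn v ≤ √(Fintype.card (κ → Bool)) * r) :
    nn (fun i => (Fintype.card (κ → Bool) : ℂ)⁻¹ • ∑ s, sg s i • v s) ≤ r := by
  refine nn_of_inner hr fun η => ?_
  have N0 : (0 : ℝ) < Fintype.card (κ → Bool) := by exact_mod_cast Fintype.card_pos
  have := nn_inner (fun s => ∑ i, sg s i • η i) v
  rw [sg_nn] at this
  simp only [sum_inner, inner_smul_left, sg_conj] at this
  simp only [inner_smul_right, inner_sum, ← mul_sum]
  rw [sum_comm, norm_mul, norm_inv, Complex.norm_natCast, inv_mul_le_iff₀ N0]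
  refine this.trans ?_
  calc _ ≤ √(Fintype.card (κ → Bool)) * nn η * (√(Fintype.card (κ → Bool)) * r) := by
        gcongr; exact mul_nonneg (Real.sqrt_nonneg _) (nn_nonneg _)
    _ = √(Fintype.card (κ → Bool)) * √(Fintype.card (κ → Bool)) * (r * nn η) := by ring
    _ = _ := by rw [Real.mul_self_sqrt N0.le]

lemma sg4 (i j k l : κ) : ∑ s, sg s i * sg s j * (sg s k * sg s l) =
    (Fintype.card (κ → Bool) : ℂ) * ((if i = j then if k = l then 1 else 0 else 0) +
      (if i = k then if j = l then 1 else 0 else 0) + (if i = l then if j = k then 1 else 0 else 0) -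
      2 * if i = j then if i = k then if i = l then 1 else 0 else 0 else 0) := by
  by_cases h1 : i = j
  · subst h1
    simp only [sg_sq, one_mul, sg_orth]
    by_cases h2 : i = k <;> by_cases h3 : i = l <;> simp_all [eq_comm]
    · ring
  by_cases h2 : i = k
  · subst h2
    simp only [mul_mul_mul_comm (sg _ i) (sg _ j), sg_sq, one_mul, sg_orth]
    by_cases h3 : j = l <;> simp_all
  by_cases h3 : i = l
  · subst h3
    have : ∀ s, sg s i * sg s j * (sg s k * sg s i) = sg s j * sg s k := fun s => by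
      linear_combination sg s j * sg s k * sg_sq s i
    simp only [this, sg_orth]
    simp [h1, h2]
  · simp only [h1, h2, h3, if_false]
    rw [sg_flip _ i fun s => by simp [sg_upd, Ne.symm h1, Ne.symm h2, Ne.symm h3]]
    simp

lemma sg_nn4 (v : κ → κ → G) {r : ℝ} (h1 : ‖∑ i, v i i‖ ≤ r)
    (h2 : nn (fun p : κ × κ => v p.1 p.2) ≤ r) :
    nn (fun s => ∑ i, ∑ j, (sg s i * sg s j) • v i j) ≤ √(Fintype.card (κ → Bool)) * (2 * r) := by
  have r0 := (norm_nonneg _).trans h1
  refine nn_le (by positivity) ?_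
  have e : ∑ s, ⟪∑ i, ∑ j, (sg s i * sg s j) • v i j, ∑ i, ∑ j, (sg s i * sg s j) • v i j⟫_ℂ =
      (Fintype.card (κ → Bool) : ℂ) * (⟪∑ i, v i i, ∑ i, v i i⟫_ℂ +
        ∑ p : κ × κ, ⟪v p.1 p.2, v p.1 p.2⟫_ℂ + ∑ p : κ × κ, ⟪v p.1 p.2, v p.2 p.1⟫_ℂ -
        2 * ∑ i, ⟪v i i, v i i⟫_ℂ) := by
    calc _ = ∑ p : κ × κ, ∑ q : κ × κ, (∑ s, sg s p.1 * sg s p.2 * (sg s q.1 * sg s q.2)) *
          ⟪v p.1 p.2, v q.1 q.2⟫_ℂ := by
          have h : ∀ s, ∑ i, ∑ j, (sg s i * sg s j) • v i j =
              ∑ p : κ × κ, (sg s p.1 * sg s p.2) • v p.1 p.2 := fun s => by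
            rw [Fintype.sum_prod_type]
          simp only [h, sum_inner]
          simp only [inner_sum, inner_smul_left, inner_smul_right, map_mul, sg_conj, sum_mul]
          rw [sum_comm]
          refine sum_congr rfl fun _ _ => ?_
          rw [sum_comm]
          exact sum_congr rfl fun _ _ => sum_congr rfl fun _ _ => by ring
      _ = _ := by
          simp only [sg4]
          simp only [mul_assoc, ← mul_sum, add_mul, sub_mul, sum_add_distrib, sum_sub_distrib,
            ite_mul, one_mul, zero_mul, Fintype.sum_prod_type, sum_inner]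
          simp [inner_sum]
  have e2 := congrArg Complex.re e
  have b := (Complex.re_le_norm _).trans (nn_inner (fun p : κ × κ => v p.1 p.2)
    fun p : κ × κ => v p.2 p.1)
  have b2 : nn (fun p : κ × κ => v p.2 p.1) ≤ r := le_trans (nn_le_nn (by
    rw [Fintype.sum_prod_type, Fintype.sum_prod_type, sum_comm])) h2
  have b3 := mul_le_mul h2 b2 (nn_nonneg _) r0
  have b4 := pow_le_pow_left₀ (norm_nonneg _) h1 2
  have b5 := pow_le_pow_left₀ (nn_nonneg _) h2 2
  have b6 : 0 ≤ ∑ i, ‖v i i‖ ^ 2 := by positivity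
  simp only [Complex.re_sum, inner_self_re, Complex.mul_re, Complex.natCast_re, Complex.natCast_im,
    zero_mul, sub_zero, Complex.sub_re, Complex.add_re, Complex.re_ofNat, Complex.im_ofNat,
    ← nn_sq fun p : κ × κ => v p.1 p.2] at e2 b
  rw [e2, mul_pow, Real.sq_sqrt (by positivity)]
  gcongr
  nlinarith

end

variable {A H : Type u} [CStarAlgebra A] [NormedAddCommGroup H] [InnerProductSpace ℂ H]
  [CompleteSpace H] {R : VN A H} {G : Type*} [NormedAddCommGroup G] [InnerProductSpace ℂ G]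

def Cm (F : Set A) (q : A) : Prop := ∀ y ∈ F, q * y = y * q

lemma Cm.add {F : Set A} {a b : A} (ha : Cm F a) (hb : Cm F b) : Cm F (a + b) := fun y hy => by
  rw [add_mul, mul_add, ha y hy, hb y hy]
lemma Cm.sub {F : Set A} {a b : A} (ha : Cm F a) (hb : Cm F b) : Cm F (a - b) := fun y hy => by
  rw [sub_mul, mul_sub, ha y hy, hb y hy]
lemma Cm.mul {F : Set A} {a b : A} (ha : Cm F a) (hb : Cm F b) : Cm F (a * b) := fun y hy => by
  rw [mul_assoc, hb y hy, ← mul_assoc, ha y hy, mul_assoc]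
lemma Cm.smul {F : Set A} {a : A} (c : ℂ) (ha : Cm F a) : Cm F (c • a) := fun y hy => by
  rw [smul_mul_assoc, mul_smul_comm, ha y hy]
lemma Cm.sum {F : Set A} {ι : Type*} (s : Finset ι) {a : ι → A} (ha : ∀ i, Cm F (a i)) :
    Cm F (∑ i ∈ s, a i) := fun y hy => by simp only [sum_mul, mul_sum, ha _ y hy]
lemma Cm.st {F : Set A} (hF : ∀ a ∈ F, star a ∈ F) {a : A} (ha : Cm F a) : Cm F (star a) :=
  fun y hy => by simpa using congrArg star (ha _ (hF y hy)).symm

lemma trunc {F : Set A} {X : A} (hX : IsSelfAdjoint X) (hc : Cm F X) : ∃ Y g : A,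
    Cm F Y ∧ IsSelfAdjoint Y ∧ ‖Y‖ ≤ 1 ∧ ‖g‖ ≤ 1 / 4 ∧ X - Y = g * (X * X) := by
  have c1 : Continuous fun x : ℝ => x / (1 + x ^ 2 / 4) :=
    continuous_id.div (by fun_prop) fun x => by positivity
  refine ⟨cfc (fun x : ℝ => x / (1 + x ^ 2 / 4)) X, cfc (fun x : ℝ => x / (1 + x ^ 2 / 4) / 4) X,
    fun y hy => (Commute.cfc_real (hc y hy) _).eq, cfc_predicate _ _, ?_, ?_, ?_⟩
  · refine norm_cfc_le zero_le_one fun x _ => ?_
    rw [Real.norm_eq_abs, abs_div, div_le_one (by positivity), abs_of_pos (a := 1 + _) (by positivity)]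
    nlinarith [sq_nonneg (|x| - 2), sq_abs x]
  · refine norm_cfc_le (by norm_num) fun x _ => ?_
    rw [Real.norm_eq_abs, abs_div, abs_div, abs_of_pos (a := 1 + _) (by positivity),
      abs_of_pos (a := 4) (by norm_num)]
    gcongr
    rw [div_le_one (by positivity)]
    nlinarith [sq_nonneg (|x| - 2), sq_abs x]
  · nth_rewrite 1 4 5 [← cfc_id' ℝ X]
    rw [← cfc_sub _ _ X (hg := c1.continuousOn), ← cfc_mul _ _ X,
      ← cfc_mul _ _ X (hf := (c1.div_const 4).continuousOn)]
    refine cfc_congr fun x _ => ?_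
    field_simp
    ring

lemma gt_sa {F : Set A} (T : A →L[ℂ] G) {ε : ℝ} (ε0 : 0 ≤ ε) (hT : ∀ q, Cm F q → ‖T q‖ ≤ ε * ‖q‖)
    {κ : Type} [Fintype κ] (q : κ → A) (h1 : ∀ i, Cm F (q i)) (h2 : ∀ i, IsSelfAdjoint (q i))
    (h3 : Col R q) : nn (fun i => T (q i)) ≤ 2 * ε := by
  classical
  have := halving (a := nn fun i => T (q i)) (b := 1) (c := ε)
    (F0 := √(Fintype.card κ) * ε) (fun c => ∀ q : κ → A, (∀ i, Cm F (q i)) →
    (∀ i, IsSelfAdjoint (q i)) → Col R q → nn (fun i => T (q i)) ≤ c) (fun q h1 _ h3 => by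
      refine nn_le (by positivity) ?_
      rw [mul_pow, Real.sq_sqrt (by positivity)]
      refine (sum_le_card_nsmul _ _ (ε ^ 2) fun i _ => ?_).trans (by simp)
      gcongr
      refine (hT _ (h1 i)).trans (mul_le_of_le_one_right ε0 ?_)
      rw [← R.nrm]
      refine ContinuousLinearMap.opNorm_le_bound _ zero_le_one fun ξ => le_trans ?_
        ((h3 ξ).trans_eq (one_mul _).symm)
      rw [← pow_le_pow_iff_left₀ (norm_nonneg _) (nn_nonneg _) two_ne_zero, nn_sq]
      exact single_le_sum (f := fun i => ‖R.ρ (q i) ξ‖ ^ 2) (fun _ _ => by positivity) (mem_univ i))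
    (by positivity) ε0 ?_ (fun c c' h H q h1 h2 h3 => (H q h1 h2 h3).trans h)
    fun c H => by rw [mul_one]; exact H q h1 h2 h3
  · rwa [mul_one] at this
  intro c c0 ih q h1 h2 h3
  let X : (κ → Bool) → A := fun s => ∑ i, sg s i • q i
  choose Y g Y1 Y2 Y3 g1 g2 using fun s => trunc (F := F) (X := X s)
    (by simp [X, IsSelfAdjoint, star_sum, fun i => (h2 i).star_eq]) (Cm.sum _ fun i => (h1 i).smul _)
  let z : κ → A := fun i => (Fintype.card (κ → Bool) : ℂ)⁻¹ • ∑ s, sg s i • (X s - Y s)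
  have N0 : (Fintype.card (κ → Bool) : ℂ) ≠ 0 := by exact_mod_cast Fintype.card_ne_zero
  have e : ∀ i, T (q i) = (Fintype.card (κ → Bool) : ℂ)⁻¹ • ∑ s, sg s i • T (Y s) +
      (1 / 2 : ℂ) • T ((2 : ℂ) • z i) := fun i => by
    have : (Fintype.card (κ → Bool) : ℂ)⁻¹ • ∑ s, sg s i • X s = q i := by
      simp only [X, smul_sum (r := sg _ _), smul_smul]
      rw [sum_comm]
      simp [← sum_smul, sg_orth, smul_smul, -Fintype.card_pi, N0]
    rw [← this]
    simp only [z, map_smul, map_sum, map_sub, smul_sub, sum_sub_distrib, smul_smul]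
    module
  simp only [e]
  refine (nn_add _ _).trans (add_le_add (bessel _ ε0 (nn_le (by positivity) ?_)) ?_)
  · rw [mul_pow, Real.sq_sqrt (by positivity)]
    refine (sum_le_card_nsmul _ _ (ε ^ 2) fun s _ => ?_).trans (by simp)
    gcongr
    exact (hT _ (Y1 s)).trans (mul_le_of_le_one_right ε0 (Y3 s))
  · refine (nn_mono (c := 1 / 2) (y := fun i => T ((2 : ℂ) • z i)) (by norm_num)
      fun i => by rw [norm_smul]; norm_num).trans ?_
    have := ih (fun i => (2 : ℂ) • z i) (fun i => ((Cm.sum _ fun s => ((Cm.sum _ fun i =>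
      (h1 i).smul _).sub (Y1 s)).smul _).smul _).smul _) (fun i => by
        simp [z, X, IsSelfAdjoint, star_sum, fun i => (h2 i).star_eq, fun s => (Y2 s).star_eq])
      fun ξ => by
        have b1 := sg_nn4 (fun i j => R.ρ (q i) (R.ρ (q j) ξ)) (r := ‖ξ‖) (by
          simpa only [fun i => (h2 i).star_eq] using (h3.row _).trans (h3 ξ)) (by
          refine le_trans (nn_le_nn ?_) ((h3.nn fun j => R.ρ (q j) ξ).trans (h3 ξ))
          rw [Fintype.sum_prod_type, Fintype.sum_prod_type, sum_comm])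
        have b2 := bessel (fun s => (2 : ℂ) • R.ρ (X s - Y s) ξ) (norm_nonneg ξ)
          ((nn_mono (c := 1 / 2) (by norm_num) fun s => ?_).trans
            ((mul_le_mul_of_nonneg_left b1 (by norm_num)).trans_eq (by ring)))
        · simpa only [z, map_smul, map_sum, smul_apply, _root_.sum_apply, smul_comm _ (2 : ℂ),
            ← smul_sum] using b2
        · have : ∑ i, ∑ j, (sg s i * sg s j) • R.ρ (q i) (R.ρ (q j) ξ) = R.ρ (X s * X s) ξ := by
            simp only [X, sum_mul]
            simp only [mul_sum, smul_mul_smul_comm, map_sum, map_smul, map_mul, _root_.sum_apply,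
              smul_apply, mul_apply_eq_comp]
          rw [this, g2, map_mul, mul_apply_eq_comp, norm_smul]
          have := (R.ρ (g s)).le_of_opNorm_le (R.nrm _ ▸ g1 s) (R.ρ (X s * X s) ξ)
          simp only [Complex.norm_ofNat]
          linarith
    linarith

theorem gt {F : Set A} (hF : ∀ a ∈ F, star a ∈ F) (T : A →L[ℂ] G) {ε : ℝ} (ε0 : 0 ≤ ε)
    (hT : ∀ q, Cm F q → ‖T q‖ ≤ ε * ‖q‖) {κ : Type} [Fintype κ] (q : κ → A) (h1 : ∀ i, Cm F (q i))
    (h2 : Col R q) (h3 : Col R fun i => star (q i)) : nn (fun i => T (q i)) ≤ 4 * ε := by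
  have k : ∀ c : ℂ, ‖c‖ ≤ 1 / 2 → nn (fun i => T (c • q i + star c • star (q i))) ≤ 2 * ε :=
    fun c hc => gt_sa (R := R) T ε0 hT _ (fun i => ((h1 i).smul _).add (((h1 i).st hF).smul _))
      (fun i => by simp [IsSelfAdjoint, add_comm]) fun ξ => by
        simp only [map_add, map_smul, add_apply, smul_apply]
        have a1 := nn_mono (x := fun i => c • R.ρ (q i) ξ) (y := fun i => R.ρ (q i) ξ) (c := 1 / 2)
          (by norm_num) fun i => by rw [norm_smul]; gcongr
        have a2 := nn_mono (x := fun i => star c • R.ρ (star (q i)) ξ)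
          (y := fun i => R.ρ (star (q i)) ξ) (c := 1 / 2)
          (by norm_num) fun i => by rw [norm_smul, norm_star]; gcongr
        linarith [nn_add (fun i => c • R.ρ (q i) ξ) fun i => star c • R.ρ (star (q i)) ξ, h2 ξ, h3 ξ]
  have a1 := k (1 / 2) (by simp)
  have a2 := k (-Complex.I / 2) (by simp)
  have a3 := nn_mono (x := fun i => Complex.I • T ((-Complex.I / 2) • q i +
    star (-Complex.I / 2) • star (q i))) (y := fun i => T ((-Complex.I / 2) • q i +
    star (-Complex.I / 2) • star (q i))) zero_le_one fun i => by rw [norm_smul]; simp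
  have e : ∀ i, T (q i) = T ((1 / 2 : ℂ) • q i + star (1 / 2 : ℂ) • star (q i)) +
      Complex.I • T ((-Complex.I / 2) • q i + star (-Complex.I / 2) • star (q i)) := fun i => by
    have i1 : Complex.I * (-Complex.I / 2) = 1 / 2 := by
      rw [← mul_div_assoc, mul_neg, Complex.I_mul_I]; norm_num
    have i2 : Complex.I * star (-Complex.I / 2) = -1 / 2 := by
      simp [← mul_div_assoc]
    have i3 : star (1 / 2 : ℂ) = 1 / 2 := by simp
    simp only [map_add, map_smul, smul_add, smul_smul, i1, i2, i3]; module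
  simp only [e]
  linarith [nn_add (fun i => T ((1 / 2 : ℂ) • q i + star (1 / 2 : ℂ) • star (q i)))
    fun i => Complex.I • T ((-Complex.I / 2) • q i + star (-Complex.I / 2) • star (q i))]

end Vale.Agent.P082
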