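import Vale.Agent.P082.Act

open Finset Vale.Agent.P104
open scoped InnerProductSpace

set_option linter.unusedSectionVars false

namespace Vale.Agent.P082

universe u

variable {A H : Type u} [CStarAlgebra A] [NormedAddCommGroup H] [InnerProductSpace ℂ H]
  [CompleteSpace H] {R : VN A H} {n : ℕ}

structure ML (C : ℝ) (Ψ : (Fin n → A) → W R) : Prop where
  add : ∀ a i x y t, (Ψ (Function.update a i (x + y))).f t =
    (Ψ (Function.update a i x)).f t + (Ψ (Function.update a i y)).f t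
  smul : ∀ a i (c : ℂ) x t, (Ψ (Function.update a i (c • x))).f t =
    c • (Ψ (Function.update a i x)).f t
  bd : ∀ a, ‖(Ψ a).f‖ ≤ C * ∏ i, ‖a i‖

def Coc (φ : (Fin (n + 1) → A) → A) (Ψ : (Fin n → A) → W R) : Prop :=
  ∀ a x, a 0 * (Ψ (Fin.tail a)).f x + mid (fun b => (Ψ b).f x) a +
    (-1 : ℂ) ^ (n + 1) • (Ψ (Fin.init a)).f (a (Fin.last n) * x) = (-1 : ℂ) ^ (n + 1) • (φ a * x)

noncomputable abbrev dA (θ : (Fin n → A) → A) : (Fin (n + 1) → A) → A := dd (· * ·) (· * ·) θ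

def Good (φ : (Fin (n + 1) → A) → A) (C : ℝ) (z : A) : Prop :=
  ∃ θ : CM A n A, ‖θ‖ ≤ C ∧ ∀ a, z * dA θ a = (-1 : ℂ) ^ (n + 1) • (z * φ a)

lemma wev (a : Fin n → A) (x : A) : WC R fun Ψ : (Fin n → A) → W R => (Ψ a).f x :=
  WC.ev (continuous_apply a) x

lemma wmid (a : Fin (n + 1) → A) (x : A) :
    WC R fun Ψ : (Fin n → A) → W R => mid (fun b => (Ψ b).f x) a :=
  WC.sum _ fun _ => (wev _ x).smul _

lemma ML.cpt {C : ℝ} (hC : 0 ≤ C) : IsCompact {Ψ : (Fin n → A) → W R | ML C Ψ} := by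
  have h1 := isCompact_univ_pi fun a : Fin n → A => ball_cpt (R := R) (C := C * ∏ i, ‖a i‖)
    (by positivity)
  have h2 : IsClosed {Ψ : (Fin n → A) → W R | (∀ a i x y t, (Ψ (Function.update a i (x + y))).f t =
      (Ψ (Function.update a i x)).f t + (Ψ (Function.update a i y)).f t) ∧
      ∀ a i (c : ℂ) x t, (Ψ (Function.update a i (c • x))).f t =
      c • (Ψ (Function.update a i x)).f t} := by
    simp only [Set.ofPred_and, Set.ofPred_forall]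
    refine .inter ?_ ?_ <;> repeat' refine isClosed_iInter fun _ => ?_
    · exact (wev _ _).ceq ((wev _ _).add (wev _ _))
    · exact (wev _ _).ceq ((wev _ _).smul _)
  convert h1.inter_right h2 using 1
  ext Ψ
  exact ⟨fun h => ⟨fun a _ => h.bd a, h.add, h.smul⟩, fun h => ⟨h.2.1, h.2.2, fun a => h.1 a trivial⟩⟩

lemma Coc.closed (φ : (Fin (n + 1) → A) → A) : IsClosed {Ψ : (Fin n → A) → W R | Coc φ Ψ} := by
  simp only [Coc, Set.ofPred_forall]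
  exact isClosed_iInter fun a => isClosed_iInter fun x =>
    ((((wev _ _).mull _).add (wmid _ _)).add ((wev _ _).smul _)).ceq (WC.const _)

lemma ML.of {C : ℝ} (F : CM A n (A →L[ℂ] A)) (h : ‖F‖ ≤ C) : ML (R := R) C fun a => ⟨F a⟩ :=
  ⟨fun a i x y t => by rw [F.map_update_add]; rfl, fun a i c x t => by rw [F.map_update_smul]; rfl,
    fun a => F.le_of_opNorm_le h a⟩

lemma one1 : ‖(1 : A)‖ ≤ 1 := unit1 (one_mem _)

lemma ML.ex {C : ℝ} (hC : 0 ≤ C) {Ψ : (Fin n → A) → W R} (h : ML C Ψ) :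
    ∃ θ : CM A n A, ‖θ‖ ≤ C ∧ ∀ a, θ a = (Ψ a).f 1 := by
  let l : MultilinearMap ℂ (fun _ : Fin n => A) A := MultilinearMap.mk' (fun a => (Ψ a).f 1)
    (fun a i x y => h.add a i x y 1) fun a i c x => h.smul a i c x 1
  have hl : ∀ a, ‖l a‖ ≤ C * ∏ i, ‖a i‖ := fun a => (((Ψ a).f.le_opNorm 1).trans
    (mul_le_of_le_one_right (norm_nonneg _) one1)).trans (h.bd a)
  exact ⟨l.mkContinuous C hl, l.mkContinuous_norm_le hC hl, fun a => rfl⟩

lemma ML.map {C : ℝ} {Ψ : (Fin n → A) → W R} (h : ML C Ψ) {t : W R → W R} (ht : t ∈ TG R)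
    (hb : ∀ a, ‖(t (Ψ a)).f‖ ≤ C * ∏ i, ‖a i‖) : ML C fun a => t (Ψ a) := by
  obtain ⟨ι, _, c, a, -, rfl⟩ := ht
  refine ⟨fun a i x y t => ?_, fun a i c x t => ?_, hb⟩
  · simp only [kr_apply, h.add, add_mul, sum_add_distrib, smul_add]
  · simp only [kr_apply, h.smul, smul_mul_assoc, ← smul_sum, smul_comm c]

lemma mid_mul (f : (Fin n → A) → A) (a : Fin (n + 1) → A) (b c : A) :
    mid (fun x => b * f x * c) a = b * mid f a * c := by
  simp only [mid, mul_sum, sum_mul, mul_smul_comm, smul_mul_assoc]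

lemma Coc.map {φ : (Fin (n + 1) → A) → A} {Ψ : (Fin n → A) → W R} (h : Coc φ Ψ) {t : W R → W R}
    (ht : t ∈ TG R) : Coc φ fun a => t (Ψ a) := by
  obtain ⟨ι, _, c, b, h1, rfl⟩ := ht
  intro a x
  have e := congrArg (φ a * x * ·) h1
  have e2 := fun f => mid_mul f a 1
  simp only [mul_one, one_mul] at e e2
  rw [← e]
  simp only [kr_apply, mid_smul, mid_sum, e2, mul_smul_comm, mul_sum, smul_comm _ c, ← smul_add,
    smul_sum (r := (-1 : ℂ) ^ (n + 1)), ← sum_add_distrib]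
  refine congrArg _ (sum_congr rfl fun i _ => ?_)
  have := congrArg (· * b i) (h a (x * star (b i)))
  simpa only [add_mul, smul_mul_assoc, mul_assoc] using this

lemma good_of {φ φ' : (Fin (n + 1) → A) → A} {C : ℝ} (hC : 0 ≤ C) {z : A} (hz : CP z)
    (hφ : ∀ a, z * φ' a = z * φ a) {T : Set (W R → W R)} {K : Set ((Fin n → A) → W R)}
    (hK : Inv ((fun t Ψ i => t (Ψ i)) '' T) K) (h1 : ∀ Ψ ∈ K, ML C Ψ ∧ Coc φ' Ψ)
    (h2 : ∀ a K', Min T K' → (∀ S ∈ K', ∃ Ψ ∈ K, S = Ψ a) → ∀ S ∈ K', ZM z S) : Good φ C z := by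
  obtain ⟨K', h3, h4⟩ := hK.exists_min
  obtain ⟨Ψ, hΨ⟩ := h4.ne
  obtain ⟨θ, h5, h6⟩ := (h1 Ψ (h3 hΨ)).1.ex hC
  refine ⟨θ, h5, fun a => ?_⟩
  have e1 := congrArg (z * ·) ((h1 Ψ (h3 hΨ)).2 a 1)
  have e2 := h2 (Fin.init a) _ (h4.ev _) (by rintro _ ⟨Φ, h, rfl⟩; exact ⟨Φ, h3 h, rfl⟩) _
    ⟨Ψ, hΨ, rfl⟩ (a (Fin.last n))
  rw [hz.comm, hz.comm] at e2
  simp only [mul_one, mul_add, mul_smul_comm, hφ, e2, ← h6] at e1
  simpa only [dA, dd, mul_add, mul_smul_comm] using e1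

lemma coc_cur {φ : CM A (n + 1) A} (hφ : ∀ a, dA φ a = 0) :
    Coc (R := R) φ fun a => ⟨cur φ a⟩ := fun a x => by
  have := hφ (sn a x)
  rw [dA, dd_sn, smul_sub, ← add_sub_assoc, sub_eq_zero] at this
  exact this

lemma goodU {φ : CM A (n + 1) A} (hφ : ∀ a, dA φ a = 0) {z : A} (hz : CP z)
    (h : ∀ K C, Min (TU R Set.univ) K → (∀ S ∈ K, ‖S.f‖ ≤ C) → ∀ S ∈ K, ZM z S) :
    Good φ ‖φ‖ z := by
  refine good_of (norm_nonneg _) hz (fun _ => rfl) (T := TU R Set.univ)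
    (K := {Ψ | ML ‖φ‖ Ψ} ∩ {Ψ | Coc φ Ψ}) ⟨⟨_, ML.of (cur φ) (norm_cur φ).le, coc_cur hφ⟩,
      (ML.cpt (norm_nonneg _)).inter_right (Coc.closed _), ?_⟩ (fun Ψ h => h) fun a K hK h1 =>
      h K (‖φ‖ * ∏ i, ‖a i‖) hK fun S hS => ?_
  · rintro _ ⟨t, ht, rfl⟩ Ψ ⟨h1, h2⟩
    exact ⟨ML.map h1 (TU_sub ht) fun a => (TU.norm ht _).trans (h1.bd a), Coc.map h2 (TU_sub ht)⟩
  · obtain ⟨Ψ, h2, rfl⟩ := h1 S hS
    exact h2.1.bd a

lemma CP.norm (R : VN A H) {z a b : A} (hz : CP z) {c : ℝ} (ha : ‖a‖ ≤ c) (hb : ‖b‖ ≤ c) :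
    ‖z * a + (1 - z) * b‖ ≤ c := by
  have c0 := (norm_nonneg a).trans ha
  have hp := R.proj.2 hz.proj
  rw [← R.nrm]
  refine ContinuousLinearMap.opNorm_le_bound _ c0 fun x => ?_
  have g1 : ∀ {z a : A}, CP z → ‖a‖ ≤ c → ‖R.ρ z (R.ρ a x)‖ ^ 2 ≤ c ^ 2 * ‖R.ρ z x‖ ^ 2 :=
    fun {z a} hz ha => by
      rw [← mul_apply_eq_comp, ← map_mul, ← hz.comm, map_mul, mul_apply_eq_comp, ← mul_pow]
      gcongr
      exact ((R.ρ a).le_opNorm _).trans (by rw [R.nrm]; gcongr)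
  have o : R.ρ z * R.ρ (1 - z) = 0 := by rw [← map_mul, mul_sub, hz.idem]; simp
  have g2 := normsq_add hp o x x
  rw [← add_apply, ← map_add, add_sub_cancel, map_one, one_apply_eq_self] at g2
  rw [← pow_le_pow_iff_left₀ (norm_nonneg _) (by positivity) two_ne_zero, map_add, map_mul, map_mul,
    add_apply, mul_apply_eq_comp, mul_apply_eq_comp, normsq_add hp o, mul_pow, g2, mul_add]
  exact add_le_add (g1 hz ha) (g1 hz.one_sub hb)

lemma Good.fin (R : VN A H) {φ : (Fin (n + 1) → A) → A} {C : ℝ} (hC : 0 ≤ C)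
    (s : Finset {z // CP z ∧ Good φ C z}) : ∃ θ : CM A n A, ‖θ‖ ≤ C ∧ ∀ z ∈ s, ∀ a, z.1 * dA θ a =
      (-1 : ℂ) ^ (n + 1) • (z.1 * φ a) := by
  classical
  induction s using Finset.induction_on with
  | empty => exact ⟨0, by simpa using hC, by simp⟩
  | insert z s _ ih =>
    obtain ⟨θ, h1, h2⟩ := ih
    obtain ⟨z, hz, θ', h3, h4⟩ := z
    obtain ⟨η, hη⟩ : ∃ η : CM A n A, ∀ b, η b = z * θ' b * 1 + (1 - z) * θ b * 1 :=
      ⟨post (ContinuousLinearMap.mul ℂ A z) θ' + post (ContinuousLinearMap.mul ℂ A (1 - z)) θ,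
        fun b => by simp [sub_mul]⟩
    refine ⟨η, ContinuousMultilinearMap.opNorm_le_bound hC fun a => ?_, ?_⟩
    · rw [hη, mul_one, mul_one]
      exact hz.norm R (θ'.le_of_opNorm_le h3 a) (θ.le_of_opNorm_le h1 a)
    have e : ∀ a, dA η a = z * dA θ' a + (1 - z) * dA θ a := fun a => by
      rw [show (η : _ → A) = _ from funext hη]
      simp only [dA, dd, mid_add, mid_mul]
      simp only [mul_one, mul_add, add_mul, mul_smul_comm, smul_add,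
        ← mul_assoc, hz.comm (a 0), hz.one_sub.comm (a 0)]
      abel
    intro y hy a
    rw [e, h4, mul_add]
    rcases mem_insert.1 hy with rfl | hy
    · simp [← mul_assoc, mul_sub z, hz.idem]
    · rw [← mul_assoc _ (1 - z), hz.one_sub.comm, mul_assoc, h2 y hy]
      simp only [mul_smul_comm, ← smul_add, ← mul_assoc, hz.comm, ← add_mul, add_sub_cancel,
        one_mul]

lemma wdA (a : Fin (n + 1) → A) :
    WC R fun Ψ : (Fin n → A) → W R => dA (fun b => (Ψ b).f 1) a :=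
  (((wev _ _).mull _).add (wmid _ _)).add (((wev _ _).mulr _).smul _)

def GS (R : VN A H) (φ : (Fin (n + 1) → A) → A) (z : A) : Set ((Fin n → A) → W R) :=
  {Ψ | ∀ a, z * dA (fun b => (Ψ b).f 1) a = (-1 : ℂ) ^ (n + 1) • (z * φ a)}

lemma GS.closed (φ : (Fin (n + 1) → A) → A) (z : A) : IsClosed (GS R φ z) := by
  have := isClosed_iInter fun a => ((wdA (R := R) a).mull z).ceq
    (WC.const ((-1 : ℂ) ^ (n + 1) • (z * φ a)))
  rwa [← Set.ofPred_forall] at this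

lemma GS.fin (R : VN A H) (φ : (Fin (n + 1) → A) → A) {C : ℝ} (hC : 0 ≤ C)
    (s : Finset {z // CP z ∧ Good φ C z}) :
    ({Ψ : (Fin n → A) → W R | ML C Ψ} ∩ ⋂ i ∈ s, GS R φ i.1).Nonempty := by
  obtain ⟨θ, h1, h2⟩ := Good.fin R hC s
  obtain ⟨F, h3, h4⟩ : ∃ F : CM A n (A →L[ℂ] A), ‖F‖ ≤ C ∧ ∀ b, F b 1 = θ b :=
    ⟨post (ContinuousLinearMap.mul ℂ A) θ,
      (norm_post (ContinuousLinearMap.opNorm_mul_le ℂ A) θ).trans h1, fun b => by simp⟩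
  refine ⟨fun a => ⟨F a⟩, ML.of F h3, Set.mem_iInter₂.2 fun z hz a => ?_⟩
  simp only [h4]
  exact h2 z hz a

lemma glue0 (R : VN A H) (φ : (Fin (n + 1) → A) → A) {C : ℝ} (hC : 0 ≤ C) :
    ∃ θ : CM A n A, ∀ z, CP z → Good φ C z → ∀ a, z * dA θ a = (-1 : ℂ) ^ (n + 1) • (z * φ a) := by
  obtain ⟨Ψ, h1, h2⟩ := (ML.cpt (R := R) (n := n) hC).inter_iInter_nonempty _
    (fun z : {z // CP z ∧ Good φ C z} => GS.closed φ z.1) (GS.fin R φ hC)
  obtain ⟨θ, -, h3⟩ := ML.ex hC h1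
  refine ⟨θ, fun z hz h a => ?_⟩
  rw [show (θ : _ → A) = fun b => (Ψ b).f 1 from funext h3]
  exact Set.mem_iInter.1 h2 ⟨z, hz, h⟩ a

theorem glue (R : VN A H) {φ : (Fin (n + 1) → A) → A} {C : ℝ} (hC : 0 ≤ C)
    (h : ∀ z0, CP z0 → z0 ≠ 0 → ∃ z, CP z ∧ z ≠ 0 ∧ z0 * z = z ∧ Good φ C z) :
    ∃ θ : CM A n A, ∀ a, dA θ a = (-1 : ℂ) ^ (n + 1) • φ a := by
  obtain ⟨θ, h2⟩ := glue0 R φ hC
  refine ⟨θ, fun a => ?_⟩
  obtain ⟨z0, hz0, a1, a2⟩ := exists_cs (R.mem (dA θ a - (-1 : ℂ) ^ (n + 1) • φ a))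
  obtain ⟨z0, rfl⟩ := R.surj z0 hz0.mem
  rw [← sub_eq_zero]
  by_contra h0
  obtain ⟨z, hz, b1, b2, b3⟩ := h z0 (R.cen.1 hz0) fun h => h0 (R.inj (by rw [← a1, h]; simp))
  have := h2 z hz b3 a
  refine b1 (R.inj ?_)
  rw [← b2, hz.comm, map_mul, map_zero]
  refine a2 _ fun x hx => ?_
  rw [← (R.cen.2 hz).comm x hx, mul_assoc, ← map_mul, mul_sub, mul_smul_comm, this]; simp

end Vale.Agent.P082
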