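import Vale.Agent.P082.TypeC

open Finset Vale.Agent.P104
open scoped InnerProductSpace

namespace Vale.Agent.P082

universe u

variable {A H : Type u} [CStarAlgebra A] [NormedAddCommGroup H] [InnerProductSpace ℂ H]
  [CompleteSpace H] {n : ℕ}

lemma Good.mono {φ : (Fin (n + 1) → A) → A} {C C' : ℝ} {z : A} (h : Good φ C z) (hC : C ≤ C') :
    Good φ C' z := by
  obtain ⟨θ, h1, h2⟩ := h
  exact ⟨θ, h1.trans hC, h2⟩

theorem main_abs (R : VN A H) (φ : CM A (n + 1) A) (hφ : ∀ a, dA φ a = 0) :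
    ∃ θ : CM A n A, ∀ a, dA θ a = φ a := by
  have le : ‖φ‖ ≤ (n + 2) * ‖φ‖ :=
    le_mul_of_one_le_left (norm_nonneg _) (by linarith [Nat.cast_nonneg (α := ℝ) n])
  obtain ⟨θ, h⟩ := glue R (φ := φ) (C := (n + 2) * ‖φ‖) (by positivity) fun z0 hz0 h0 => by
    obtain ⟨z, hz, z1, z2, h⟩ := types (R.cen.2 hz0) fun h => h0 (R.inj (by rw [h, map_zero]))
    obtain ⟨z, rfl⟩ := R.surj z hz.mem
    have cz := R.cen.1 hz
    have z0 : z ≠ 0 := fun h => z1 (by rw [h, map_zero])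
    refine ⟨z, cz, z0, R.inj (by rw [map_mul, z2]), ?_⟩
    rcases h with ⟨V1, V2, h⟩ | ⟨κ, _, _, r, e, hm, ab⟩ | ⟨hU, κ, _, ζ, h⟩
    · obtain ⟨V1, rfl⟩ := R.surj V1 h.m1
      obtain ⟨V2, rfl⟩ := R.surj V2 h.m2
      exact typeA R hφ cz (R.inj (by rw [map_mul, map_star, h.h1]))
        (R.inj (by rw [map_mul, map_star, h.h2])) (R.inj (by rw [map_mul, map_star, h.h0, map_zero]))
    · exact (goodU (R := R) hφ cz fun K C hK _ => typeB hK cz z0 hm ab).mono le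
    · obtain ⟨G, _, _, _, ⟨τ⟩⟩ := exists_TR cz h
      refine (goodU (R := R) hφ cz fun K C hK hC => typeC0 τ cz hK hC fun k => ?_).mono le
      obtain ⟨κ, _, _, r, e, hk, hm⟩ := hU k
      obtain ⟨ι, _, _, _, ⟨σ⟩⟩ := exists_grp κ (by omega)
      obtain ⟨E, hE, -⟩ := R.units cz hm σ
      exact ⟨ι, _, _, ‹_›, E, hE, by rw [Fintype.card_congr σ]; exact hk.le⟩
  refine ⟨(-1 : ℂ) ^ (n + 1) • θ, fun a => ?_⟩
  have e : dA ((-1 : ℂ) ^ (n + 1) • θ : CM A n A) a = (-1 : ℂ) ^ (n + 1) • dA θ a := by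
    simp only [dA, dd, smul_add, ← mid_smul, smul_apply, mul_smul_comm,
      smul_mul_assoc]
    rfl
  rw [e, h, smul_smul, ← mul_pow]; simp

theorem main_vn (M : VonNeumannAlgebra H)
    (f : ContinuousMultilinearMap ℂ (fun _ : Fin (n + 1) => M.toStarSubalgebra) M.toStarSubalgebra)
    (hf : ∀ a, dd (· * ·) (· * ·) f a = 0) :
    ∃ g : ContinuousMultilinearMap ℂ (fun _ : Fin n => M.toStarSubalgebra) M.toStarSubalgebra,
      ∀ a, dd (· * ·) (· * ·) g a = f a := by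
  have : IsClosed (M.toStarSubalgebra : Set (Op H)) := by
    have := Set.isClosed_centralizer (Set.centralizer (M : Set (Op H)))
    rwa [M.centralizer_centralizer] at this
  exact main_abs (A := M.toStarSubalgebra) ⟨M.toStarSubalgebra.subtype, M, fun _ => rfl,
    fun a => a.2, fun x hx => ⟨⟨x, hx⟩, rfl⟩⟩ f hf

end Vale.Agent.P082
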