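import Vale.Agent.P082.Tree

open Finset Vale.Agent.P104
open scoped InnerProductSpace

set_option linter.unusedSectionVars false

namespace Vale.Agent.P082

universe u

variable {A H : Type u} [CStarAlgebra A] [NormedAddCommGroup H] [InnerProductSpace ℂ H]
  [CompleteSpace H] {G : Type*} [NormedAddCommGroup G] [InnerProductSpace ℂ G] [CompleteSpace G]
  {R : VN A H} {z : A}

structure Tr (P : A → Prop) (F : A → ℝ) (Δ : ℝ) (d : ℕ) {I K : Type} [Fintype I] [DecidableEq I]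
    [Fintype K] (g : I → A) (h : K → A) (α : I → K → ℝ) (s : I → ℝ) : Prop where
  cI : Fintype.card I < 2 ^ d
  cK : Fintype.card K = 2 ^ d
  pg : ∀ i, P (g i)
  ph : ∀ j, P (h j)
  orth : ∀ i i', ∑ j, α i j * α i' j = if i = i' then 1 else 0
  zero : ∀ i, ∑ j, α i j = 0
  sq : ∑ i, s i ^ 2 = d * 2 ^ d
  big : d * 2 ^ d * Δ ≤ 2 * ∑ i, ∑ j, α i j * s i * F (h j * star (g i))

lemma tree {P : A → Prop} (P1 : P 1) (Pm : ∀ a b, P a → P b → P (a * b))
    (Pu : ∀ a, P a → a * star a = 1) (F : A → ℝ) (Δ : ℝ)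
    (hF : ∀ (K : Type) [Fintype K] [Nonempty K] (h : K → A), (∀ j, P (h j)) →
      ∃ g, P g ∧ Fintype.card K * Δ ≤ |∑ j, F (h j * g) - ∑ j, F (h j)|) (d : ℕ) :
    ∃ (I K : Type) (_ : Fintype I) (_ : DecidableEq I) (_ : Fintype K) (_ : DecidableEq K)
      (g : I → A) (h : K → A) (α : I → K → ℝ) (s : I → ℝ), Tr P F Δ d g h α s := by
  induction d with
  | zero =>
    exact ⟨Empty, Unit, inferInstance, inferInstance, inferInstance, inferInstance, fun _ => 1,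
      fun _ => 1, 0, 0, by simp, by simp, fun _ => P1, fun _ => P1, by simp, by simp, by simp,
      by simp⟩
  | succ d ih =>
    obtain ⟨I, K, _, _, _, _, g, h, α, s, t⟩ := ih
    have : Nonempty K := Fintype.card_pos_iff.1 (by rw [t.cK]; positivity)
    obtain ⟨g0, p0, h0⟩ := hF K h t.ph
    obtain ⟨c, c1, c2⟩ : ∃ c : ℝ, c * c = 1 ∧
        2 ^ d * Δ ≤ c * (∑ j, F (h j * g0) - ∑ j, F (h j)) := by
      rw [t.cK, Nat.cast_pow, Nat.cast_ofNat] at h0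
      rcases le_abs.1 h0 with h1 | h1
      · exact ⟨1, by simp, by rwa [one_mul]⟩
      · exact ⟨-1, by simp, by rwa [neg_one_mul]⟩
    have r0 : (0 : ℝ) < √(2 ^ (d + 1)) := by positivity
    have r2 : √(2 ^ (d + 1) : ℝ) ^ 2 = 2 ^ (d + 1) := Real.sq_sqrt (by positivity)
    set r := √(2 ^ (d + 1) : ℝ)
    let u : Bool → A := fun b => if b then g0 else 1
    have pu : ∀ b, P (u b) := by rintro (_ | _) <;> simpa [u]
    have cK : (Fintype.card K : ℝ) = 2 ^ d := by exact_mod_cast t.cK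
    refine ⟨Option (I × Bool), K × Bool, inferInstance, inferInstance, inferInstance,
      inferInstance, fun o => o.elim 1 fun p => g p.1 * u p.2, fun p => h p.1 * u p.2,
      fun o q => o.elim ((if q.2 then c else -c) / r) fun p => if p.2 = q.2 then α p.1 q.1 else 0,
      fun o => o.elim r fun p => s p.1, ?_, ?_, ?_, fun p => Pm _ _ (t.ph _) (pu _), ?_, ?_, ?_, ?_⟩
    · have := t.cI
      simp only [Fintype.card_option, Fintype.card_prod, Fintype.card_bool, pow_succ]; omega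
    · simp [t.cK, pow_succ]
    · rintro (_ | p)
      exacts [P1, Pm _ _ (t.pg _) (pu _)]
    · rintro (_ | ⟨i, _ | _⟩) (_ | ⟨i', _ | _⟩) <;>
        simp [Fintype.sum_prod_type, ← mul_sum, ← sum_mul, t.zero, t.orth]
      rw [cK]; field_simp; rw [r2, sq c, c1]; ring
    · rintro (_ | ⟨i, _ | _⟩) <;> simp [Fintype.sum_prod_type, t.zero, neg_div]
    · simp [Fintype.sum_prod_type, ← mul_sum, t.sq, r2]; ring
    · have e : ∀ i j b, h j * u b * star (g i * u b) = h j * star (g i) := fun i j b => by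
        rw [star_mul, mul_assoc, ← mul_assoc (u b), Pu _ (pu b), one_mul]
      have := t.big
      simp only [Fintype.sum_option, Option.elim, Fintype.sum_prod_type, ite_mul, zero_mul,
        sum_ite_eq, mem_univ, if_true, e, star_one, mul_one, div_mul_cancel₀ _ r0.ne']
      simp [u, sum_add_distrib, ← mul_sum] at this ⊢
      rw [pow_succ]
      linarith

lemma four {F : Set A} (hF : ∀ a ∈ F, star a ∈ F) {X : Type*} [NormedAddCommGroup X]
    [NormedSpace ℂ X] (T : A →L[ℂ] X) {ε : ℝ} (h : ∀ u ∈ unitary A, Cm F u → ‖T u‖ ≤ ε) {q : A}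
    (hq : Cm F q) : ‖T q‖ ≤ 2 * ε * ‖q‖ := by
  let Q := StarSubalgebra.centralizer ℂ F
  have hQ : ∀ x, x ∈ Q ↔ Cm F x := fun x => (StarSubalgebra.mem_centralizer_iff ℂ).trans
    ⟨fun h y hy => (h y hy).1.symm, fun h y hy => ⟨(h y hy).symm, (h _ (hF y hy)).symm⟩⟩
  have : IsClosed (Q : Set A) := Set.isClosed_centralizer _
  obtain ⟨u, c, e, hc⟩ := CStarAlgebra.exists_sum_four_unitary (⟨q, (hQ q).2 hq⟩ : Q)
  have e' : q = ∑ i, c i • ((u i : Q) : A) := by simpa using congrArg Subtype.val e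
  nth_rewrite 1 [e']
  rw [map_sum]
  refine (norm_sum_le_of_le (n := fun _ => ‖q‖ / 2 * ε) _ fun i _ => ?_).trans_eq (by simp; ring)
  rw [map_smul, norm_smul]
  exact mul_le_mul (hc i) (h _ ⟨congrArg Subtype.val (u i).2.1, congrArg Subtype.val (u i).2.2⟩
    ((hQ _).1 (u i).1.2)) (norm_nonneg _) (by positivity)

noncomputable def TR.β (τ : TR R G z) (S : W R) (y a b : A) : ℝ :=
  (⟪τ.J y, τ.J (S.f a * b)⟫_ℂ).re

lemma TR.β_cont (τ : TR R G z) (y a b : A) : Continuous fun S => τ.β S y a b := by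
  simp only [TR.β, τ.J_mul]; exact Complex.continuous_re.comp (τ.wc _ _ _)

lemma TR.β_kr (τ : TR R G z) (S : W R) (y a b : A) {ι : Type} [Fintype ι] (u : ι → A) :
    τ.β (kr (Fintype.card ι : ℂ)⁻¹ u S) y a b =
      (Fintype.card ι : ℝ)⁻¹ * ∑ i, τ.β S y (a * star (u i)) (u i * b) := by
  simp only [TR.β, kr_apply, smul_mul_assoc, sum_mul, map_smul, map_sum, inner_smul_right,
    inner_sum, mul_assoc, ← Complex.re_sum]
  rw [← Complex.re_ofReal_mul]; simp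

lemma TR.β_neg (τ : TR R G z) (S : W R) (y a b : A) : τ.β S (-y) a b = -τ.β S y a b := by
  simp [TR.β]

lemma avg_re {ι : Type} [Fintype ι] [Nonempty ι] {f : ι → ℝ} {c : ℝ} (h : ∀ i, f i ≤ c) :
    (Fintype.card ι : ℝ)⁻¹ * ∑ i, f i ≤ c := by
  have : (0 : ℝ) < Fintype.card ι := by exact_mod_cast Fintype.card_pos
  rw [inv_mul_le_iff₀ this]
  exact (sum_le_sum fun i _ => h i).trans (by simp)

lemma TR.sq_le (τ : TR R G z) {c : A} {M t : ℝ} (hM : 0 < M) (hc : ‖c‖ ≤ M)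
    (h : ∀ y, ‖y‖ ≤ 1 → (⟪τ.J y, τ.J c⟫_ℂ).re ≤ t) : ‖τ.J c‖ ^ 2 ≤ M * t := by
  have := h ((M⁻¹ : ℝ) • c) (by
    rw [norm_smul, norm_inv, Real.norm_of_nonneg hM.le]; exact inv_mul_le_one_of_le₀ hc hM.le)
  rw [← Complex.coe_smul, map_smul, inner_smul_left, Complex.conj_ofReal, Complex.re_ofReal_mul,
    inner_self_re] at this
  rwa [← inv_mul_le_iff₀ hM]

lemma TU.mem {Q : Set A} {κ : Type} [Fintype κ] [Nonempty κ] {u : κ → A}
    (hu : ∀ i, u i ∈ unitary A ∧ u i ∈ Q) : kr (Fintype.card κ : ℂ)⁻¹ u ∈ TU R Q :=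
  ⟨κ, _, ‹_›, u, hu, rfl⟩

variable {ι : Type} [Fintype ι] [DecidableEq ι] {E : ι → ι → A}

lemma gap [AddCommGroup ι] (τ : TR R G z) (hE : MU E z) {K : Set (W R)}
    (hK : Min (TU R {q | Cm (EE E) q}) K) {C : ℝ}
    (hC : ∀ S ∈ K, ‖S.f‖ ≤ C ∧ ∀ a b, Mo S (E a b)) {e : ℕ} (hD : 2 ^ e ^ 2 ≤ Fintype.card ι)
    {Δ : ℝ} (hΔ : 32 * C < Δ * e) {S : W R} (hS : S ∈ K) {a y g : A} (ha : ‖a‖ ≤ 1) (hy : ‖y‖ ≤ 1)
    (hg : g ∈ unitary A ∧ Cm (EE E) g) :
    τ.β S y (a * star g) g - τ.β S y a 1 ≤ 2 * Δ := by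
  have mn : ∀ y c, ∀ S1 ∈ K, (∀ g, g ∈ unitary A ∧ Cm (EE E) g → τ.β S1 y (a * star g) g ≤ c) →
      ∀ g, g ∈ unitary A ∧ Cm (EE E) g → τ.β S y (a * star g) g ≤ c := fun y c S1 h1 h2 =>
    hK.min {S | ∀ g, g ∈ unitary A ∧ Cm (EE E) g → τ.β S y (a * star g) g ≤ c} (by
      simp only [Set.ofPred_forall]
      exact isClosed_iInter fun g => isClosed_iInter fun _ =>
        isClosed_le (τ.β_cont _ _ _) continuous_const) (by
      rintro _ ⟨κ, _, _, u, hu, rfl⟩ S - hS g hg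
      rw [τ.β_kr]
      refine avg_re fun i => ?_
      rw [mul_assoc, ← star_mul]
      exact hS _ ⟨mul_mem (hu i).1 hg.1, (hu i).2.mul hg.2⟩) ⟨S1, h1, h2⟩ hS
  have P1 : (1 : A) ∈ unitary A ∧ Cm (EE E) 1 := ⟨one_mem _, fun _ _ => by simp⟩
  by_contra hc
  obtain ⟨I, κ, _, _, _, _, g', h, α, s, t⟩ := tree (P := fun u => u ∈ unitary A ∧ Cm (EE E) u)
    P1 (fun a b ha hb => ⟨mul_mem ha.1 hb.1, ha.2.mul hb.2⟩) (fun a ha => ha.1.2)
    (fun u => τ.β S y (a * star u) u) Δ (fun κ _ _ h hh => by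
      by_contra hn
      have k0 : (0 : ℝ) < Fintype.card κ := by exact_mod_cast Fintype.card_pos
      have h1 := hK.inv _ (TU.mem hh) S hS
      have hn' : ∀ g, g ∈ unitary A ∧ Cm (EE E) g →
          |τ.β (kr (Fintype.card κ : ℂ)⁻¹ h S) y (a * star g) g -
            (Fintype.card κ : ℝ)⁻¹ * ∑ j, τ.β S y (a * star (h j)) (h j)| ≤ Δ := fun g hg => by
        by_contra h2
        refine hn ⟨g, hg, ?_⟩
        simpa only [τ.β_kr, mul_assoc, ← star_mul, ← mul_sub, abs_mul, abs_inv, Nat.abs_cast,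
          le_inv_mul_iff₀ k0] using (not_le.1 h2).le
      have a1 := mn y _ _ h1 (fun g hg => sub_le_iff_le_add.1 (abs_le.1 (hn' g hg)).2) g hg
      have a2 := mn (-y) (Δ - (Fintype.card κ : ℝ)⁻¹ * ∑ j, τ.β S y (a * star (h j)) (h j)) _ h1
        (fun g hg => by rw [τ.β_neg]; linarith [(abs_le.1 (hn' g hg)).1]) 1 P1
      rw [τ.β_neg, star_one, mul_one] at a2
      exact hc (by linarith)) (e ^ 2)
  have b1 := (Complex.re_le_norm _).trans (schur τ hE (hC S hS).2 (t.cI.le.trans hD)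
    (t.cK.le.trans hD) t.pg t.ph α s t.orth ha hy)
  have b2 := t.big
  have C0 := (norm_nonneg _).trans (hC S hS).1
  simp only [Complex.re_sum, ← Complex.ofReal_mul, Complex.re_ofReal_mul] at b1
  rw [t.sq, t.cK, mul_assoc, ← Real.sqrt_mul (by positivity), show ((2 ^ e ^ 2 : ℕ) : ℝ) *
    ((e ^ 2 : ℕ) * 2 ^ e ^ 2) = (e * 2 ^ e ^ 2) ^ 2 by push_cast; ring,
    Real.sqrt_sq (by positivity)] at b1
  have e0 : (0 : ℝ) < e := by
    rcases Nat.eq_zero_or_pos e with rfl | h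
    · simp at hΔ; linarith
    · exact_mod_cast h
  have b3 := mul_lt_mul_of_pos_right hΔ (by positivity : (0 : ℝ) < e * 2 ^ e ^ 2)
  have b4 := mul_le_mul_of_nonneg_right (hC S hS).1 (by positivity : (0 : ℝ) ≤ e * 2 ^ e ^ 2)
  simp only [TR.β] at b2
  push_cast at b2
  nlinarith

def AM (τ : TR R G z) (E : ι → ι → A) (S : W R) (ε : ℝ) : Prop :=
  ∀ x, ‖x‖ ≤ 1 → ∀ q, Cm (EE E) q → ‖τ.J (S.f (x * q) - S.f x * q)‖ ≤ ε * ‖q‖

noncomputable def TR.df (τ : TR R G z) (S : W R) (x : A) : A →L[ℂ] G :=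
  τ.J ∘L (S.f ∘L ContinuousLinearMap.mul ℂ A x - ContinuousLinearMap.mul ℂ A (S.f x))

lemma TR.df_apply (τ : TR R G z) (S : W R) (x q : A) :
    τ.df S x q = τ.J (S.f (x * q) - S.f x * q) := rfl

theorem stepA (τ : TR R G z) {K : Set (W R)} (hK : Inv (TU R Set.univ) K) {C : ℝ}
    (hC : ∀ S ∈ K, ‖S.f‖ ≤ C) {ε : ℝ} (hε : 0 < ε) : ∃ D : ℕ, ∀ (ι : Type) [Fintype ι]
    [DecidableEq ι] [AddCommGroup ι] (E : ι → ι → A), MU E z → D ≤ Fintype.card ι →
      ∃ S ∈ K, (∀ a b, Mo S (E a b)) ∧ AM τ E S ε := by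
  obtain ⟨S0, h0⟩ := hK.ne
  have C0 := (norm_nonneg _).trans (hC S0 h0)
  obtain ⟨e, he⟩ := exists_nat_gt (32 * C / (ε ^ 2 / (8 * (2 * C + 1))))
  rw [div_lt_iff₀' (by positivity)] at he
  refine ⟨2 ^ e ^ 2, fun ι _ _ _ E hE hD => ?_⟩
  obtain ⟨K', h1, h2⟩ := Inv.exists_min (T := TU R {q | Cm (EE E) q})
    (K := K ∩ ⋂ a, ⋂ b, {S | Mo S (E a b)}) ⟨by
      obtain ⟨S, hS, h⟩ := hK.modE hE
      exact ⟨S, hS, by simpa using h⟩,
    hK.cpt.inter_right (isClosed_iInter fun a => isClosed_iInter fun b => Mo.closed _), by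
      rintro _ ⟨κ, _, _, u, hu, rfl⟩ S ⟨hS, h⟩
      simp only [Set.mem_iInter, Set.mem_ofPred_eq] at h
      exact ⟨hK.inv _ (TU.mem fun i => ⟨(hu i).1, trivial⟩) S hS, by
        simpa using fun a b => Mo.kr _ (h a b) (fun i => ((hu i).2.ee a b).symm)
          fun i => (((hu i).2.st hE.EE_star).ee a b).symm⟩⟩
  have h3 : ∀ S ∈ K', ‖S.f‖ ≤ C ∧ ∀ a b, Mo S (E a b) := fun S hS =>
    ⟨hC S (h1 hS).1, by simpa using (h1 hS).2⟩
  obtain ⟨S, hS⟩ := h2.ne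
  refine ⟨S, (h1 hS).1, (h3 S hS).2, fun x hx q hq => ?_⟩
  refine (four hE.EE_star (τ.df S x) (ε := ε / 2) (fun g hg hc => ?_) hq).trans_eq (by ring)
  have s1 : ∀ a, ‖a‖ ≤ 1 → ‖S.f a‖ ≤ C := fun a ha =>
    (S.f.le_of_opNorm_le (h3 S hS).1 a).trans (mul_le_of_le_one_right C0 ha)
  have := τ.sq_le (c := S.f x * g - S.f (x * g)) (M := 2 * C + 1) (by positivity)
    ((norm_sub_le _ _).trans (by
      linarith [mul1 (s1 x hx) (unit1 hg), s1 _ (mul1 hx (unit1 hg))])) fun y hy => by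
    have := gap τ hE h2 h3 hD he hS (mul1 hx (unit1 hg)) hy ⟨hg, hc⟩
    simp only [TR.β, mul_assoc, hg.2, mul_one] at this
    simpa only [map_sub, inner_sub_right, Complex.sub_re] using this
  rw [τ.df_apply, map_sub, norm_sub_rev, ← map_sub]
  exact le_of_sq_le_sq (this.trans_eq (by field_simp; ring)) (by positivity)

end Vale.Agent.P082
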