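import Vale.Agent.P082.StepA

open Finset Vale.Agent.P104
open scoped InnerProductSpace

set_option linter.unusedSectionVars false

namespace Vale.Agent.P082

universe u

variable {A H : Type u} [CStarAlgebra A] [NormedAddCommGroup H] [InnerProductSpace ℂ H]
  [CompleteSpace H] {G : Type*} [NormedAddCommGroup G] [InnerProductSpace ℂ G] [CompleteSpace G]
  {R : VN A H} {z : A} {ι : Type} [Fintype ι] [DecidableEq ι] {E : ι → ι → A}

lemma gt' (R : VN A H) {F : Set A} (hF : ∀ a ∈ F, star a ∈ F) (T : A →L[ℂ] G) {ε : ℝ} (ε0 : 0 ≤ ε)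
    (hT : ∀ q, Cm F q → ‖T q‖ ≤ ε * ‖q‖) {κ : Type} [Fintype κ] (q : κ → A) (h1 : ∀ i, Cm F (q i))
    {r : ℝ} (hr : 0 < r) (h2 : ‖∑ i, star (q i) * q i‖ ≤ r ^ 2)
    (h3 : ‖∑ i, q i * star (q i)‖ ≤ r ^ 2) : nn (fun i => T (q i)) ≤ r * (4 * ε) := by
  have k : ∀ y : A, ‖y‖ ≤ r ^ 2 → ‖((r⁻¹ : ℝ) * (r⁻¹ : ℝ) : ℂ) • y‖ ≤ 1 := fun y hy => by
    rw [norm_smul, norm_mul, Complex.norm_real, Real.norm_of_nonneg (by positivity), ← mul_inv,
      ← sq]
    exact inv_mul_le_one_of_le₀ hy (by positivity)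
  have := gt (R := R) hF T ε0 hT (fun i => ((r⁻¹ : ℝ) : ℂ) • q i) (fun i => (h1 i).smul _)
    (Col.of (by
      simpa only [star_smul, smul_mul_smul_comm, ← smul_sum, Complex.star_def,
        Complex.conj_ofReal] using k _ h2))
    (Col.of (by
      simpa only [star_smul, smul_mul_smul_comm, ← smul_sum, Complex.star_def,
        Complex.conj_ofReal, star_star] using k _ h3))
  refine (nn_mono hr.le fun i => le_of_eq ?_).trans (mul_le_mul_of_nonneg_left this hr.le)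
  rw [map_smul, norm_smul, Complex.norm_real, Real.norm_of_nonneg (by positivity),
    mul_inv_cancel_left₀ hr.ne']

noncomputable def tA (E : ι → ι → A) (Y : A) : A := ∑ a, ∑ b, E a b * Y * E b a

noncomputable def en (E : ι → ι → A) (U : A) (i q : ι) : A := ∑ k, E k i * U * E q k

lemma MU.tA_norm (R : VN A H) (hE : MU E z) {Y : A} (hY : ‖Y‖ ≤ 1) :
    ‖tA E Y‖ ≤ Fintype.card ι := by
  rw [tA, sum_comm]
  refine (norm_sum_le_of_le (n := fun _ => 1) _ fun b _ => ?_).trans (by simp)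
  have := Iso.amp R (U := fun a => E a b) (z := E b b) (fun i j => by rw [hE.st, hE.mul])
    (hE.proj b) Y
  simp only [hE.st] at this
  exact this.trans hY

lemma MU.tA_one (hE : MU E z) : tA E 1 = (Fintype.card ι : ℂ) • z := by
  simp [tA, hE.mul, ← hE.sum, Nat.cast_smul_eq_nsmul, mul_sum]

lemma MU.en_cm (hE : MU E z) (U : A) (i q : ι) : Cm (EE E) (en E U i q) := by
  rintro _ ⟨p, rfl⟩
  simp [en, sum_mul, mul_sum, mul_assoc, hE.mul, ← mul_assoc (E _ _) (E _ _)]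

lemma MU.en_star (hE : MU E z) (U : A) (i q : ι) : star (en E U i q) = en E (star U) q i := by
  simp [en, star_sum, hE.st, mul_assoc]

lemma MU.en_mul (hE : MU E z) (U U' : A) :
    ∑ i, ∑ q, en E U i q * en E U' q i = tA E (U * U') := by
  have k : ∀ i q, en E U i q * en E U' q i = ∑ k, E k i * U * E q q * U' * E i k := fun i q => by
    simp [en, sum_mul, mul_sum, mul_assoc, hE.mul, ← mul_assoc (E _ _) (E _ _)]
  simp only [k]
  rw [tA, sum_comm (s := univ) (f := fun a b => E a b * (U * U') * E b a)]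
  refine sum_congr rfl fun i _ => ?_
  rw [sum_comm]
  refine sum_congr rfl fun k _ => ?_
  rw [← sum_mul, ← sum_mul, ← mul_sum, hE.sum, mul_assoc _ U z, hE.cp.comm, ← mul_assoc, hE.Ez,
    mul_assoc _ U]

lemma M1 [Nonempty ι] (τ : TR R G z) (hE : MU E z) {S : W R} (hS : ∀ a b, Mo S (E a b)) {ε : ℝ}
    (ε0 : 0 ≤ ε) (hε : AM τ E S ε) {x U U' : A} (hx : ‖x‖ ≤ 1) (hU : ‖U‖ ≤ 1) (hU' : ‖U'‖ ≤ 1) :
    ‖τ.J (∑ p : ι × ι, S.f (x * E p.2 p.1 * U) * (U' * E p.1 p.2) - S.f x * tA E (U * U'))‖ ≤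
      16 * ε * Fintype.card ι := by
  have D0 : (0 : ℝ) < Fintype.card ι := by exact_mod_cast Fintype.card_pos
  have e1 : ∀ i j, S.f (x * E j i * U) = ∑ q, S.f (x * en E U i q) * E j q := fun i j => by
    simp only [← hS _ _ _, ← map_sum, mul_assoc, ← mul_sum]
    simp only [en, sum_mul, mul_assoc, hE.mul, mul_ite, mul_zero, sum_ite_eq', mem_univ, if_true,
      ← mul_sum, hE.sum]
    rw [hE.cp.comm U, ← mul_assoc (E _ _), hE.Ez]
  have e2 : ∑ p : ι × ι, S.f (x * E p.2 p.1 * U) * (U' * E p.1 p.2) - S.f x * tA E (U * U') =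
      ∑ p : ι × ι, (S.f (x * en E U p.1 p.2) - S.f x * en E U p.1 p.2) * en E U' p.2 p.1 := by
    simp only [Fintype.sum_prod_type, sub_mul, sum_sub_distrib, mul_assoc (S.f x), ← mul_sum,
      hE.en_mul, e1, sum_mul]
    congr 1
    refine sum_congr rfl fun i _ => sum_comm.trans (sum_congr rfl fun q _ => ?_)
    rw [en.eq_1 E U', mul_sum]
    simp only [mul_assoc]
  have s1 : ∀ {U : A}, ‖U‖ ≤ 1 → ‖star U‖ ≤ 1 := fun h => by rwa [norm_star]
  have r2 := Real.sq_sqrt D0.le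
  rw [e2]
  refine (τ.J_sum _ (r := √(Fintype.card ι)) (by positivity) ?_).trans ?_
  · simp only [Fintype.sum_prod_type, hE.en_star, hE.en_mul, r2]
    exact hE.tA_norm R (mul1 (s1 hU') hU')
  · have := gt' R hE.EE_star (τ.df S x) ε0 (hε x hx) (fun p : ι × ι => en E U p.1 p.2)
      (fun p => hE.en_cm _ _ _) (r := √(Fintype.card ι)) (by positivity) (by
        simp only [Fintype.sum_prod_type, hE.en_star, r2]
        rw [sum_comm, hE.en_mul]
        exact hE.tA_norm R (mul1 (s1 hU) hU)) (by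
        simp only [Fintype.sum_prod_type, hE.en_star, hE.en_mul, r2]
        exact hE.tA_norm R (mul1 hU (s1 hU)))
    refine (mul_le_mul_of_nonneg_left this (by positivity)).trans_eq ?_
    linear_combination 16 * ε * r2

lemma TR.bd (τ : TR R G z) {y b c : A} (t : A) {C : ℝ} (hy : ‖y‖ ≤ 1) (hb : ‖b‖ ≤ 1)
    (hc : ‖c‖ ≤ C) : ‖⟪τ.J y, τ.J (c * t * b)⟫_ℂ‖ ≤ 4 * C * ‖τ.J t‖ := by
  refine (norm_inner_le_norm _ _).trans ((mul_le_of_le_one_left (norm_nonneg _)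
    ((τ.J_le y).trans hy)).trans ((τ.J_right _ _).trans ?_))
  have := τ.J_left c t
  have C0 := (norm_nonneg _).trans hc
  calc _ ≤ 4 * 1 * (C * ‖τ.J t‖) := by gcongr; exact this.trans (by gcongr)
    _ = _ := by ring

noncomputable def sh (T : A →L[ℂ] A) : A →L[ℂ] A :=
  LinearMap.mkContinuous ⟨⟨fun x => star (T (star x)), fun x y => by simp⟩, fun c x => by simp⟩
    ‖T‖ fun x => by simpa using T.le_opNorm (star x)

lemma TR.sh_inner (τ : TR R G z) (T : A →L[ℂ] A) (u y c : A) :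
    ⟪τ.J (sh T u * y), τ.J c⟫_ℂ = ⟪τ.J y, τ.J (T (star u) * c)⟫_ℂ := (τ.J_inner _ _ _).symm

lemma pow1 {w : A} (hw : w ∈ unitary A) (k : ℕ) : ‖w ^ k‖ ≤ 1 := unit1 (pow_mem hw k)

lemma stB_pt [Nonempty ι] (τ : TR R G z) (hE : MU E z) {S : W R} (hS : ∀ a b, Mo S (E a b))
    {ε C : ℝ} (ε0 : 0 ≤ ε) (hε : AM τ E S ε) (hC : ‖S.f‖ ≤ C) {w y a b : A} (hw : w ∈ unitary A)
    (hy : ‖y‖ ≤ 1) (ha : ‖a‖ ≤ 1) (hb : ‖b‖ ≤ 1) (l : ℕ) :
    |Fintype.card ι * τ.β S y (a * star (w ^ (l + 1))) (w ^ (l + 1) * b) -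
      Fintype.card ι * τ.β S y a b -
      (∑ p : ι × ι, ⟪τ.J (sh S.f (w ^ (l + 1) * star a) * y), τ.J ((∑ k ∈ range (l + 1),
          w ^ (l + 1 - 1 - k) * (w * E p.2 p.1) * w ^ k) * E p.1 p.2 * b)⟫_ℂ -
        ∑ p : ι × ι, ⟪τ.J (sh S.f ((∑ k ∈ range (l + 1), w ^ (l + 1 - 1 - k) * (w * E p.1 p.2) *
          w ^ k) * star a) * y), τ.J (w ^ (l + 1) * E p.1 p.2 * b)⟫_ℂ).re| ≤
      ∑ k ∈ range l, 8 * C * ‖τ.J (tA E (w ^ (k + 1)))‖ +
        (l + 1) * (64 * ε * Fintype.card ι) := by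
  have C0 := (norm_nonneg _).trans hC
  have s1 : ∀ a, ‖a‖ ≤ 1 → ‖S.f a‖ ≤ C := fun a ha =>
    (S.f.le_of_opNorm_le hC a).trans (mul_le_of_le_one_right C0 ha)
  have w1 : ∀ k, ‖star (w ^ k)‖ ≤ 1 := fun k => by rw [norm_star]; exact pow1 hw k
  have e1 : ∑ p : ι × ι, ⟪τ.J (sh S.f (w ^ (l + 1) * star a) * y), τ.J ((∑ k ∈ range (l + 1),
      w ^ (l + 1 - 1 - k) * (w * E p.2 p.1) * w ^ k) * E p.1 p.2 * b)⟫_ℂ =
      ∑ k ∈ range (l + 1), ⟪τ.J y, τ.J (S.f (a * star (w ^ (l + 1))) * w ^ (l - k + 1) *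
        tA E (w ^ k) * b)⟫_ℂ := by
    simp only [τ.sh_inner, star_mul, star_star, sum_mul, mul_sum, map_sum, inner_sum, tA]
    rw [sum_comm]
    refine sum_congr rfl fun k _ => ?_
    rw [Fintype.sum_prod_type, sum_comm]
    simp only [pow_succ, mul_assoc, Nat.add_sub_cancel]
  have e2 : ∑ p : ι × ι, ⟪τ.J (sh S.f ((∑ k ∈ range (l + 1), w ^ (l + 1 - 1 - k) *
      (w * E p.1 p.2) * w ^ k) * star a) * y), τ.J (w ^ (l + 1) * E p.1 p.2 * b)⟫_ℂ =
      ∑ k ∈ range (l + 1), (⟪τ.J y, τ.J (1 * (∑ p : ι × ι, S.f (a * star (w ^ k) * E p.2 p.1 *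
        star (w ^ (l - k + 1))) * (w ^ (l + 1) * E p.1 p.2) - S.f (a * star (w ^ k)) *
        tA E (star (w ^ (l - k + 1)) * w ^ (l + 1))) * b)⟫_ℂ +
        ⟪τ.J y, τ.J (S.f (a * star (w ^ k)) * tA E (w ^ k) * b)⟫_ℂ) := by
    simp only [sum_mul, map_sum, sum_inner, τ.sh_inner, star_mul, star_star, hE.st]
    rw [sum_comm]
    refine sum_congr rfl fun k hk => ?_
    have : star (w ^ (l - k + 1)) * w ^ (l + 1) = w ^ k := by
      rw [show l + 1 = l - k + 1 + k by have := mem_range.1 hk; omega, pow_add _ _ k, ← mul_assoc,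
        (pow_mem hw _).1, one_mul]
    rw [this, one_mul, sub_mul, map_sub, inner_sub_right, sub_add_cancel]
    simp only [sum_mul, map_sum, inner_sum, pow_succ w (l - k), star_mul, mul_assoc,
      Nat.add_sub_cancel]
  rw [e1, e2, sum_add_distrib, sum_range_succ', sum_range_succ' (fun k => ⟪τ.J y,
    τ.J (S.f (a * star (w ^ k)) * tA E (w ^ k) * b)⟫_ℂ)]
  have b1 := norm_sum_le_of_le (range l) fun k _ => τ.bd (tA E (w ^ (k + 1))) hy hb
    (mul1 (s1 _ (mul1 ha (w1 (l + 1)))) (pow1 hw (l - (k + 1) + 1)))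
  have b2 := norm_sum_le_of_le (range l) fun k _ => τ.bd (tA E (w ^ (k + 1))) hy hb
    (s1 _ (mul1 ha (w1 (k + 1))))
  have b3 := norm_sum_le_of_le (range (l + 1)) fun k _ => (τ.bd _ hy hb one1).trans
    (mul_le_mul_of_nonneg_left (M1 τ hE hS ε0 hε (mul1 ha (w1 k)) (w1 (l - k + 1))
      (pow1 hw (l + 1))) (by positivity))
  have r1 := abs_le.1 ((Complex.abs_re_le_norm _).trans b1)
  have r2 := abs_le.1 ((Complex.abs_re_le_norm _).trans b2)
  have r3 := abs_le.1 ((Complex.abs_re_le_norm _).trans b3)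
  simp only [sum_const, card_range, nsmul_eq_mul, ← mul_sum, Nat.cast_add, Nat.cast_one] at r1 r2 r3
  simp only [pow_zero, hE.tA_one, mul_smul_comm, smul_mul_assoc, map_smul, inner_smul_right,
    τ.J_z hE.cp, star_one, mul_one, Complex.sub_re, Complex.add_re, Complex.mul_re,
    Complex.natCast_re, Complex.natCast_im, zero_mul, sub_zero, TR.β, Nat.sub_zero, ← mul_sum,
    mul_assoc (S.f _) (w ^ (l + 1)) b]
  rw [abs_le]
  constructor <;> linarith [r1.1, r1.2, r2.1, r2.2, r3.1, r3.2]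

end Vale.Agent.P082
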