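import Vale.Agent.P082.StepB
import Vale.Agent.P104.MomA

open Finset Vale.Agent.P104
open scoped InnerProductSpace

set_option linter.unusedSectionVars false

namespace Vale.Agent.P082

universe u

variable {A H : Type u} [CStarAlgebra A] [NormedAddCommGroup H] [InnerProductSpace ℂ H]
  [CompleteSpace H] {G : Type*} [NormedAddCommGroup G] [InnerProductSpace ℂ G] [CompleteSpace G]
  {R : VN A H} {z : A} {ι : Type} [Fintype ι] [DecidableEq ι] {E : ι → ι → A}

structure SU (F : Type) [CStarAlgebra F] (E : ι → ι → A) (z : A) where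
  L : F →L[ℂ] A
  e : ι → ι → F
  mu : IsMU e
  span : ∀ a, a ∈ Submodule.span ℂ (Set.range fun p : ι × ι => e p.1 p.2)
  mul : ∀ a b, L (a * b) = L a * L b
  one : L 1 = z
  st : ∀ a, L (star a) = star (L a)
  hE : ∀ i j, L (e i j) = E i j

open scoped Matrix.Norms.L2Operator in
lemma MU.su (hE : MU E z) : ∃ (F : Type) (_ : CStarAlgebra F) (_ : FiniteDimensional ℂ F),
    Nonempty (SU F E z) := by
  let L0 : Matrix ι ι ℂ →ₗ[ℂ] A :=
    { toFun := fun a => ∑ x, ∑ y, a x y • E x y
      map_add' := fun a b => by simp [add_smul, sum_add_distrib]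
      map_smul' := fun c a => by simp [smul_sum, smul_smul] }
  have hL : ∀ a, L0 a = ∑ x, ∑ y, a x y • E x y := fun a => rfl
  refine ⟨Matrix ι ι ℂ, inferInstance, inferInstance, ⟨{
    L := LinearMap.toContinuousLinearMap L0
    mul := fun a b => ?_
    one := ?_
    st := fun a => ?_
    e := fun x y => Matrix.single x y 1
    mu := ⟨fun a b c d => ?_, fun a b => ?_, ?_⟩
    span := fun a => ?_
    hE := fun x y => ?_ }⟩⟩
  · split_ifs with h
    · subst h; simp
    · exact Matrix.single_mul_single_of_ne _ _ _ _ h _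
  · simp [Matrix.star_eq_conjTranspose]
  · ext x y; simp [Matrix.sum_apply, Matrix.single_apply, Matrix.one_apply, ite_and]
  · rw [Matrix.matrix_eq_sum_single a]
    refine sum_mem fun x _ => sum_mem fun y _ => ?_
    rw [show Matrix.single x y (a x y) = a x y • Matrix.single x y (1:ℂ) by simp]
    exact Submodule.smul_mem _ _ (Submodule.subset_span ⟨(x, y), rfl⟩)
  · simp only [LinearMap.coe_toContinuousLinearMap', hL, sum_mul, Matrix.mul_apply, sum_smul]
    refine sum_congr rfl fun x _ => ?_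
    rw [sum_comm]
    refine sum_congr rfl fun y _ => ?_
    simp only [mul_sum, smul_mul_smul_comm, hE.mul, smul_ite, smul_zero]
    rw [sum_comm]; simp
  · simp [hL, Matrix.one_apply, hE.sum, ite_smul]
  · simp only [LinearMap.coe_toContinuousLinearMap', hL, star_sum, star_smul, hE.st,
      Matrix.star_apply]
    exact sum_comm
  · simp [hL, Matrix.single_apply, ite_and, ite_smul]

variable {F : Type} [CStarAlgebra F]

namespace SU
variable (V : SU F E z)

noncomputable def U (v : F) : A := V.L v + (1 - z)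

lemma zL (v : F) : z * V.L v = V.L v := by simpa [V.one] using (V.mul 1 v).symm
lemma Lz (v : F) : V.L v * z = V.L v := by simpa [V.one] using (V.mul v 1).symm

lemma U_star (hz : CP z) (v : F) : V.U (star v) = star (V.U v) := by simp [U, V.st, hz.st]

lemma U_mul (hz : CP z) (v w : F) : V.U (v * w) = V.U v * V.U w := by
  simp [U, V.mul, mul_add, add_mul, mul_sub, sub_mul, V.zL, V.Lz, hz.idem]

lemma unit (hz : CP z) (v : unitary F) : V.U v ∈ unitary A := by
  rw [Unitary.mem_iff, ← V.U_star hz, ← V.U_mul hz, ← V.U_mul hz, v.2.1, v.2.2]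
  simp [U, V.one]

lemma mo {S : W R} (hS : ∀ a b, Mo S (E a b)) (hz : Mo S (1 - z)) (v : F) : Mo S (V.U v) := by
  refine Mo.add ?_ hz
  induction V.span v using Submodule.span_induction with
  | mem x hx => obtain ⟨q, rfl⟩ := hx; rw [V.hE]; exact hS _ _
  | zero => intro x; simp
  | add x y _ _ hx hy => rw [map_add]; exact hx.add hy
  | smul c x _ hx => rw [map_smul]; exact hx.smul c

lemma hd (X : A) (v : F) (i j : ι) (n : ℕ) :
    HD (fun s : ℂ => (X * V.U (v + s • (v * V.e i j))) ^ n) ((X * V.U v) ^ n)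
      (∑ k ∈ range n, (X * V.U v) ^ (n - 1 - k) * (X * V.U v * E i j) * (X * V.U v) ^ k) := by
  have h := (HD.line v (v * V.e i j)).clm V.L
  have e : X * V.U v * E i j = X * V.L (v * V.e i j) := by
    rw [mul_assoc, U, add_mul, sub_mul, ← V.hE, V.zL, V.mul, one_mul, sub_self, add_zero]
  rw [e]
  exact (HD.cmul ⟨h.1.add_const (1 - z), by simp [U]⟩ X).pow n

noncomputable def setup (τ : TR R G z) : Setup F G ι where
  L := τ.πL ∘L V.L
  mul a b := by simp [V.mul]
  one := by simp [V.one, τ.πz]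
  star a := by simp [V.st, map_star]
  e := V.e
  mu := V.mu
  span := V.span

lemma J_tA (τ : TR R G z) (X : A) (v : F) (k : ℕ) : τ.J (tA E ((X * V.U v) ^ (k + 1))) =
    tt (V.setup τ).E ((τ.π X * (V.setup τ).L v) ^ k * τ.π X * (V.setup τ).L v)
      (((1 * (V.setup τ).L v * 1) ^ 0 : Op G) τ.ζ) := by
  have e : τ.π (V.U v) = (V.setup τ).L v := by simp [U, setup, τ.πz]
  have e2 : ∀ i j, (V.setup τ).E i j = τ.π (E i j) := fun i j => congrArg τ.π (V.hE i j)
  simp only [τ.J_apply, tA, tt_apply, e2, map_sum, map_mul, map_pow, e, pow_zero, pow_succ,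
    one_apply_eq_self, mul_assoc]

variable [FiniteDimensional ℂ F]

lemma Ex_abs {f g : unitary F → ℝ} (hf : Continuous f) (hg : Continuous g) (h : ∀ v, |f v| ≤ g v) :
    |Ex f| ≤ Ex g :=
  MeasureTheory.abs_integral_le_integral_abs.trans (Ex_mono hf.abs hg h)

lemma Ex_sub {f g : unitary F → ℝ} (hf : Continuous f) (hg : Continuous g) :
    Ex (fun v => f v - g v) = Ex f - Ex g := MeasureTheory.integral_sub (integ hf) (integ hg)

lemma βc (τ : TR R G z) (S : W R) (y : A) {f g : unitary F → A} (hf : Continuous f)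
    (hg : Continuous g) : Continuous fun v => τ.β S y (f v) (g v) := by
  unfold TR.β; fun_prop

lemma Uc : Continuous fun v : unitary F => V.U v := by unfold U; fun_prop

lemma stepB [Nonempty ι] (τ : TR R G z) (hE : MU E z) {S : W R} (hS : ∀ a b, Mo S (E a b))
    {ε C : ℝ} (ε0 : 0 ≤ ε) (hε : AM τ E S ε) (hC : ‖S.f‖ ≤ C) {X y a b : A} (hX : X ∈ unitary A)
    (hy : ‖y‖ ≤ 1) (ha : ‖a‖ ≤ 1) (hb : ‖b‖ ≤ 1) {m n : ℕ} (hn : n ≤ m) {δ : ℝ} (hδ : 0 < δ)
    (hD : (6 * m + 2) * (m ^ 2 + 1) ^ m ≤ δ ^ 2 * √(Fintype.card ι)) :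
    |Ex (fun v : unitary F => τ.β S y (a * star ((X * V.U v) ^ n)) ((X * V.U v) ^ n * b)) -
      τ.β S y a b| ≤ m * (8 * C * δ + 64 * ε) := by
  have C0 := (norm_nonneg _).trans hC
  rcases n with _ | l
  · simp only [pow_zero, star_one, mul_one, one_mul, Ex_const, sub_self, abs_zero]
    positivity
  obtain ⟨Φ, hΦc, hΦ0, hΦ⟩ := sd_right (F := F) (κ := ι × ι)
    (fun p v => τ.J ((X * V.U v) ^ (l + 1) * E p.1 p.2 * b))
    (fun p v => τ.J (sh S.f ((X * V.U v) ^ (l + 1) * star a) * y))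
    (fun p => by unfold U; fun_prop) (fun p => by unfold U; fun_prop) (fun p => V.e p.2 p.1) _ _
    (fun p v => ((((V.hd X v p.2 p.1 (l + 1)).mulc (E p.1 p.2)).mulc b).clm τ.J).1)
    (fun p v => by
      rw [V.mu.star]
      exact (((((V.hd X v p.1 p.2 (l + 1)).mulc (star a)).clm (sh S.f)).mulc y).clm τ.J).1)
  have D0 : (0 : ℝ) < Fintype.card ι := by exact_mod_cast Fintype.card_pos
  have uc := V.Uc
  have c1 : ∀ k, Continuous fun v : unitary F => 8 * C * ‖τ.J (tA E ((X * V.U v) ^ (k + 1)))‖ :=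
    fun k => by unfold tA; fun_prop
  have c2 : Continuous fun v : unitary F => τ.β S y (a * star ((X * V.U v) ^ (l + 1)))
    ((X * V.U v) ^ (l + 1) * b) := βc τ S y (by fun_prop) (by fun_prop)
  have key := Ex_abs (F := F) (by fun_prop) (by fun_prop) fun v => (hΦ v).symm ▸
    stB_pt τ hE hS ε0 hε hC (mul_mem hX (V.unit hE.cp v)) hy ha hb l
  rw [Ex_sub (by fun_prop) hΦc, Ex_sub (by fun_prop) (by fun_prop), hΦ0, Ex_mul, Ex_const, sub_zero,
    ← mul_sub, abs_mul, abs_of_pos D0, Ex_add (by fun_prop) (by fun_prop), Ex_const,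
    Ex_sum _ c1] at key
  have b1 := sum_le_card_nsmul (range l) _ (8 * C * (δ * Fintype.card ι)) fun k hk =>
    show Ex (fun v : unitary F => 8 * C * ‖τ.J (tA E ((X * V.U v) ^ (k + 1)))‖) ≤ _ by
      have n1 : ‖(1 : Op G)‖ ≤ 1 := ContinuousLinearMap.norm_id_le
      have x1 := (τ.πle X).trans (unit1 hX)
      rw [Ex_mul]
      simp only [V.J_tA]
      exact mul_le_mul_of_nonneg_left ((V.setup τ).momA x1 x1 n1 n1 τ.ζ1 (Nat.zero_le m)
        (by have := mem_range.1 hk; omega) hδ hD) (by positivity)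
  have hl : (l + 1 : ℝ) ≤ m := by exact_mod_cast hn
  rw [card_range, nsmul_eq_mul] at b1
  refine le_of_mul_le_mul_left (key.trans ?_) D0
  calc _ ≤ m * (8 * C * (δ * Fintype.card ι)) + m * (64 * ε * Fintype.card ι) :=
        add_le_add (b1.trans (by gcongr; linarith)) (by gcongr)
    _ = _ := by ring

end SU

end Vale.Agent.P082
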