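import Vale.Agent.P082.StepC

open Finset Vale.Agent.P104
open scoped InnerProductSpace

set_option linter.unusedSectionVars false

namespace Vale.Agent.P082

universe u

lemma poly1 {t : ℂ} (ht : ‖t‖ = 1) {N : ℕ} (hN : 0 < N) :
    ‖(N : ℂ)⁻¹ * ∑ n ∈ range N, (t ^ (n + 1) - star (t ^ (n + 1)))‖ ≤
      30 * (2 * N * ‖1 - t‖ / (1 + 2 * N * ‖1 - t‖) - N * ‖1 - t‖ / (1 + N * ‖1 - t‖)) := by
  have N0 : (0 : ℝ) < N := by exact_mod_cast hN
  have a1 : ∀ j : ℕ, ‖1 - t ^ j‖ ≤ j * ‖1 - t‖ := fun j => by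
    rw [← geom_sum_mul_neg, norm_mul]
    gcongr
    exact (norm_sum_le_of_le (n := fun _ => 1) _ fun i _ => by rw [norm_pow, ht, one_pow]).trans
      (by simp)
  have a2 : ‖∑ n ∈ range N, (t ^ (n + 1) - star (t ^ (n + 1)))‖ ≤ N * (2 * (N * ‖1 - t‖)) := by
    refine (norm_sum_le_of_le (n := fun _ => 2 * (N * ‖1 - t‖)) _ fun n hn => ?_).trans (by simp)
    have h1 : ‖1 - t ^ (n + 1)‖ ≤ N * ‖1 - t‖ :=
      (a1 _).trans (by gcongr; exact mem_range.1 hn)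
    have h2 : ‖1 - star (t ^ (n + 1))‖ = ‖1 - t ^ (n + 1)‖ := by
      rw [← norm_star, star_sub, star_one, star_star]
    have := norm_sub_le (1 - star (t ^ (n + 1))) (1 - t ^ (n + 1))
    rw [sub_sub_sub_cancel_left] at this
    linarith
  have a3 : ‖∑ n ∈ range N, (t ^ (n + 1) - star (t ^ (n + 1)))‖ * ‖1 - t‖ ≤ 4 := by
    have h1 : ‖∑ n ∈ range N, t ^ (n + 1)‖ * ‖1 - t‖ ≤ 2 := by
      simp only [pow_succ', ← mul_sum]
      rw [← norm_mul, mul_assoc, geom_sum_mul_neg, norm_mul, ht, one_mul]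
      exact (norm_sub_le _ _).trans (by rw [norm_pow, ht]; norm_num)
    rw [sum_sub_distrib, ← star_sum]
    have := norm_sub_le (∑ n ∈ range N, t ^ (n + 1)) (star (∑ n ∈ range N, t ^ (n + 1)))
    rw [norm_star] at this
    nlinarith [norm_nonneg (1 - t)]
  rw [norm_mul, norm_inv, Complex.norm_natCast]
  have T0 := norm_nonneg (∑ n ∈ range N, (t ^ (n + 1) - star (t ^ (n + 1))))
  rw [← inv_mul_le_iff₀ N0] at a2
  have x0 : 0 ≤ N * ‖1 - t‖ := by positivity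
  have a4 : (N : ℝ)⁻¹ * ‖∑ n ∈ range N, (t ^ (n + 1) - star (t ^ (n + 1)))‖ * (N * ‖1 - t‖) ≤ 4 :=
    le_of_eq_of_le (by field_simp) a3
  have T1 : 0 ≤ (N : ℝ)⁻¹ * ‖∑ n ∈ range N, (t ^ (n + 1) - star (t ^ (n + 1)))‖ := by positivity
  rw [mul_assoc 2]
  generalize (N : ℝ)⁻¹ * ‖∑ n ∈ range N, (t ^ (n + 1) - star (t ^ (n + 1)))‖ = T at *
  generalize N * ‖1 - t‖ = x at *
  rw [div_sub_div _ _ (by positivity) (by positivity), ← mul_div_assoc, le_div_iff₀ (by positivity)]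
  rcases le_total x 2 with h | h
  · nlinarith [mul_le_mul_of_nonneg_right a2 (by positivity : 0 ≤ (1 + 2 * x) * (1 + x)),
      mul_nonneg x0 (sub_nonneg.2 h), mul_nonneg x0 (mul_nonneg x0 (sub_nonneg.2 h))]
  · nlinarith [mul_le_mul_of_nonneg_right a4 x0, mul_nonneg T1 (sub_nonneg.2 h)]

lemma poly2 {t : ℂ} (ht : ‖t‖ = 1) (d : ℕ) :
    ‖∑ j ∈ range d, ((2 ^ j : ℕ) : ℂ)⁻¹ *
      ∑ n ∈ range (2 ^ j), (t ^ (n + 1) - star (t ^ (n + 1)))‖ ≤ 30 := by
  refine (norm_sum_le_of_le _ fun j _ => poly1 ht (by positivity)).trans ?_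
  have := sum_range_sub (fun j : ℕ => (2 ^ j : ℕ) * ‖1 - t‖ / (1 + (2 ^ j : ℕ) * ‖1 - t‖)) d
  simp only [pow_succ', Nat.cast_mul, Nat.cast_ofNat] at this
  rw [← mul_sum, this]
  have h1 : (2 ^ d : ℕ) * ‖1 - t‖ / (1 + (2 ^ d : ℕ) * ‖1 - t‖) ≤ 1 :=
    div_le_one_of_le₀ (by linarith) (by positivity)
  have h2 : 0 ≤ (2 ^ 0 : ℕ) * ‖1 - t‖ / (1 + (2 ^ 0 : ℕ) * ‖1 - t‖) := by positivity
  linarith

variable {A H : Type u} [CStarAlgebra A] [NormedAddCommGroup H] [InnerProductSpace ℂ H]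
  [CompleteSpace H] {G : Type*} [NormedAddCommGroup G] [InnerProductSpace ℂ G] [CompleteSpace G]
  {R : VN A H} {z : A}

lemma poly3 {w : A} (hw : w ∈ unitary A) (d : ℕ) :
    ‖∑ j ∈ range d, ((2 ^ j : ℕ) : ℂ)⁻¹ •
      ∑ n ∈ range (2 ^ j), (w ^ (n + 1) - star (w ^ (n + 1)))‖ ≤ 30 := by
  have : IsStarNormal w := ⟨hw.1.trans hw.2.symm⟩
  have e : ∀ n, w ^ n - star (w ^ n) = cfc (fun t : ℂ => t ^ n - star (t ^ n)) w := fun n => by
    rw [cfc_sub .., cfc_star, cfc_pow_id w]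
  simp only [e]
  have e2 : ∀ j, ((2 ^ j : ℕ) : ℂ)⁻¹ • ∑ n ∈ range (2 ^ j),
      cfc (fun t : ℂ => t ^ (n + 1) - star (t ^ (n + 1))) w = cfc (fun t : ℂ => ((2 ^ j : ℕ) : ℂ)⁻¹ *
        ∑ n ∈ range (2 ^ j), (t ^ (n + 1) - star (t ^ (n + 1)))) w := fun j => by
    rw [cfc_const_mul .., ← cfc_sum ..]
    congr; ext; simp
  simp only [e2]
  rw [← cfc_sum ..]
  exact norm_cfc_le (by norm_num) fun t ht => by
    simpa only [Finset.sum_apply] using poly2 (spectrum.norm_eq_one_of_unitary hw ht) d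

lemma dirich {w : A} (hw : w ∈ unitary A) {N : ℕ} (hN : 0 < N) : ∃ t : Fin N → ℂ,
    (∀ r, star (t r) * t r = 1) ∧ ∑ r, star (∑ j ∈ range N, (t r • w) ^ j) *
      ∑ j ∈ range N, (t r • w) ^ j = ((N : ℂ) * N) • 1 := by
  have hω := Complex.isPrimitiveRoot_exp N hN.ne'
  set ω := Complex.exp (2 * Real.pi * Complex.I / N)
  have n1 := hω.norm'_eq_one hN.ne'
  have c1 : ∀ j, star (ω ^ j) * ω ^ j = 1 := fun j => by
    rw [Complex.star_def, Complex.conj_mul', norm_pow, n1]; simp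
  have orth : ∀ j ∈ range N, ∀ k ∈ range N,
      ∑ θ ∈ range N, (star (ω ^ j) * ω ^ k) ^ θ = if j = k then (N : ℂ) else 0 := by
    intro j hj k hk
    split_ifs with h
    · subst h; simp only [c1]; simp
    · have : star (ω ^ j) * ω ^ k ≠ 1 := fun h' => h (hω.pow_inj (mem_range.1 hj)
        (mem_range.1 hk) (by
          have := congrArg (ω ^ j * ·) h'
          rw [← mul_assoc, mul_comm (ω ^ j), c1, one_mul, mul_one] at this
          exact this.symm))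
      rw [geom_sum_eq this, mul_pow, ← star_pow, ← pow_mul, ← pow_mul, mul_comm j, mul_comm k,
        pow_mul, pow_mul, hω.pow_eq_one]
      simp
  refine ⟨fun r => ω ^ (r : ℕ), fun r => c1 _, ?_⟩
  rw [Fin.sum_univ_eq_sum_range fun r => star (∑ j ∈ range N, (ω ^ r • w) ^ j) *
    ∑ j ∈ range N, (ω ^ r • w) ^ j]
  simp only [star_sum, sum_mul, mul_sum, smul_pow, star_smul, smul_mul_smul_comm]
  rw [sum_comm]
  refine (sum_congr rfl fun k hk => ?_).trans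
    (show ∑ _k ∈ range N, (N : ℂ) • (1 : A) = _ by rw [← sum_smul]; simp)
  rw [sum_comm, sum_congr rfl fun j hj => show _ = (if j = k then (N : ℂ) else 0) •
    (star (w ^ j) * w ^ k) from ?_]
  · simp [hk, -star_pow, (pow_mem hw k).1]
  · rw [← orth j hj k hk, sum_smul]
    simp only [mul_pow, ← star_pow, ← pow_mul, mul_comm]

lemma TR.ins (τ : TR R G z) {κ : Type*} [Fintype κ] (D e : κ → A) {X : κ → A} {y : A} {Q N : ℝ}
    (hy : ‖y‖ ≤ 1) (Q0 : 0 ≤ Q) (hX : ∀ r, ‖X r‖ ≤ Q) (N0 : 0 ≤ N)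
    (hD : ‖∑ r, star (D r) * D r‖ ≤ N ^ 2) :
    ‖∑ r, ⟪τ.J y, τ.J (X r * star (D r) * e r)⟫_ℂ‖ ≤ 4 * Q * N * nn fun r => τ.J (e r) := by
  simp only [τ.J_inner, star_star, mul_assoc]
  refine (nn_inner _ _).trans ?_
  have h1 := nn_mono (x := fun r => τ.J (D r * (star (X r) * y))) (y := fun r => τ.π (D r) τ.ζ)
    (c := 4 * Q) (by positivity) fun r => (τ.J_right _ _).trans (by
      rw [τ.J_apply]; gcongr; exact mul1 (by rw [norm_star]; exact hX r) hy)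
  have h2 := (τ.col N0 hD τ.ζ).trans (mul_le_of_le_one_right N0 τ.ζ1)
  have := nn_nonneg fun r => τ.J (e r)
  calc _ ≤ 4 * Q * N * nn fun r => τ.J (e r) := by gcongr; exact h1.trans (by gcongr)
    _ = _ := by ring

lemma geo_le {u : A} (hu : u ∈ unitary A) (N n : ℕ) :
    ‖(∑ j ∈ range N, u ^ j) * u ^ n - ∑ j ∈ range N, u ^ j‖ ≤ 2 * n := by
  induction n with
  | zero => simp
  | succ n ih =>
    have e : (∑ j ∈ range N, u ^ j) * u ^ (n + 1) - ∑ j ∈ range N, u ^ j =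
        (u ^ N - 1) * u ^ n + ((∑ j ∈ range N, u ^ j) * u ^ n - ∑ j ∈ range N, u ^ j) := by
      rw [← geom_sum_mul, pow_succ']; noncomm_ring
    have := mul1 ((norm_sub_le _ _).trans (add_le_add (pow1 hu N) one1)) (pow1 hu n)
    rw [e]
    refine (norm_add_le _ _).trans ?_
    push_cast; linarith

lemma TR.bz (τ : TR R G z) (S : W R) {C P : ℝ} (hC : ‖S.f‖ ≤ C) {κ : Type*} (s : Finset κ)
    (c : κ → ℂ) (n : κ → ℕ)
    (hP : ∀ u ∈ unitary A, ‖∑ k ∈ s, c k • (u ^ n k - star (u ^ n k))‖ ≤ P) {w y a b : A}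
    (hw : w ∈ unitary A) (hy : ‖y‖ ≤ 1) (ha : ‖a‖ ≤ 1) (hb : ‖b‖ ≤ 1) :
    ‖∑ k ∈ s, c k * (⟪τ.J y, τ.J (S.f (a * star (w ^ n k)) * (w ^ n k * b))⟫_ℂ -
      ⟪τ.J y, τ.J (S.f (a * w ^ n k) * (star (w ^ n k) * b))⟫_ℂ)‖ ≤ 4 * (C * P) := by
  have C0 := (norm_nonneg _).trans hC
  have P0 := (norm_nonneg _).trans (hP w hw)
  have s1 : ∀ a, ‖a‖ ≤ 1 → ‖S.f a‖ ≤ C := fun a ha =>
    (S.f.le_of_opNorm_le hC a).trans (mul_le_of_le_one_right C0 ha)
  refine le_of_forall_pos_le_add fun η hη => ?_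
  obtain ⟨M, hM⟩ := exists_nat_gt ((∑ k ∈ s, ‖c k‖ * (16 * C * n k)) / η)
  have M0 : (0 : ℝ) < M := lt_of_le_of_lt (by positivity) hM
  rw [div_lt_iff₀ hη] at hM
  obtain ⟨t, ht, hD⟩ := dirich hw (N := M ^ 2) (pow_pos (by exact_mod_cast M0) 2)
  have hu : ∀ r, t r • w ∈ unitary A := fun r => by
    rw [Unitary.mem_iff, star_smul, smul_mul_smul_comm, smul_mul_smul_comm, hw.1, hw.2,
      mul_comm (t r), ht, one_smul]
    exact ⟨rfl, rfl⟩
  obtain ⟨u, hu'⟩ : ∃ u : Fin (M ^ 2) → A, ∀ r, u r = t r • w := ⟨_, fun _ => rfl⟩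
  simp only [← hu'] at hu hD
  obtain ⟨D, hD'⟩ : ∃ D : Fin (M ^ 2) → A, ∀ r, D r = ∑ j ∈ range (M ^ 2), u r ^ j :=
    ⟨_, fun _ => rfl⟩
  simp only [← hD'] at hD
  have D1 : ‖∑ r, star (D r) * D r‖ ≤ ((M : ℝ) ^ 2) ^ 2 := by
    rw [hD, norm_smul]
    refine (mul_le_of_le_one_right (norm_nonneg _) one1).trans_eq (by simp; ring)
  have nb : ∀ (e : Fin (M ^ 2) → A) (B : ℝ), 0 ≤ B → (∀ r, ‖e r‖ ≤ B) →
      nn (fun r => τ.J (e r * b)) ≤ M * B := fun e B B0 h => nn_le (by positivity)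
    ((sum_le_card_nsmul _ _ (B ^ 2) fun r _ => by
      gcongr; exact (τ.J_le _).trans (mul1 (h r) hb)).trans_eq (by simp; ring))
  have k1 : ∀ r m x, S.f (a * star (w ^ m)) * x * (w ^ m * b) =
      S.f (a * star (u r ^ m)) * x * (u r ^ m * b) := fun r m x => by
    simp only [hu', smul_pow, star_smul, mul_smul_comm, smul_mul_assoc, map_smul, smul_smul,
      star_pow (t r), ← mul_pow, mul_comm (t r), ht, one_pow, one_smul]
  have k2 : ∀ r m x, S.f (a * w ^ m) * x * (star (w ^ m) * b) =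
      S.f (a * u r ^ m) * x * (star (u r ^ m) * b) := fun r m x => by
    simp only [hu', smul_pow, star_smul, mul_smul_comm, smul_mul_assoc, map_smul, smul_smul,
      star_pow (t r), ← mul_pow, ht, one_pow, one_smul]
  have k3 : ∀ x x' : A, (((M ^ 2 : ℕ) : ℂ) * (M ^ 2 : ℕ)) * ⟪τ.J y, τ.J (x * x')⟫_ℂ =
      ∑ r, ⟪τ.J y, τ.J (x * (star (D r) * D r) * x')⟫_ℂ := fun x x' => by
    rw [← inner_sum, ← map_sum, ← sum_mul, ← mul_sum, hD]
    simp only [mul_smul_comm, smul_mul_assoc, map_smul, inner_smul_right, mul_one]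
  have key : (((M ^ 2 : ℕ) : ℂ) * (M ^ 2 : ℕ)) * ∑ k ∈ s, c k *
      (⟪τ.J y, τ.J (S.f (a * star (w ^ n k)) * (w ^ n k * b))⟫_ℂ -
      ⟪τ.J y, τ.J (S.f (a * w ^ n k) * (star (w ^ n k) * b))⟫_ℂ) = ∑ k ∈ s, c k *
      (∑ r, ⟪τ.J y, τ.J (S.f (a * star (u r ^ n k)) * star (D r) *
        ((D r * u r ^ n k - D r) * b))⟫_ℂ - ∑ r, ⟪τ.J y, τ.J (S.f (a * u r ^ n k) * star (D r) *
        ((D r * star (u r ^ n k) - D r) * b))⟫_ℂ) - ∑ r, ⟪τ.J y, τ.J (S.f (a * ∑ k ∈ s, c k •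
        (u r ^ n k - star (u r ^ n k))) * star (D r) * (D r * b))⟫_ℂ := by
    simp only [mul_sum, mul_smul_comm, map_sum, map_smul, sum_mul, smul_mul_assoc, inner_sum,
      inner_smul_right]
    rw [sum_comm, ← sum_sub_distrib]
    refine sum_congr rfl fun k _ => ?_
    rw [mul_left_comm, mul_sub _ (inner ℂ _ _), k3, k3, ← mul_sum, ← mul_sub, ← sum_sub_distrib,
      ← sum_sub_distrib, ← sum_sub_distrib]
    refine congrArg _ (sum_congr rfl fun r _ => ?_)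
    rw [k1 r, k2 r]
    simp only [mul_sub, sub_mul, map_sub, inner_sub_right, mul_assoc]
    ring
  have b1 := (τ.ins D (fun r => D r * b) hy (by positivity : 0 ≤ C * P) (fun r =>
    (S.f.le_of_opNorm_le hC _).trans (mul_le_mul_of_nonneg_left (mul1' ha (hP _ (hu r))) C0))
    (by positivity) D1).trans (mul_le_mul_of_nonneg_left (c := (M : ℝ) ^ 2) (by
      simpa only [τ.J_mul] using (τ.col (by positivity) D1 (τ.J b)).trans
        (mul_le_of_le_one_right (by positivity) ((τ.J_le b).trans hb))) (by positivity))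
  have b2 := norm_sum_le_of_le s fun k _ => (norm_mul_le (c k) _).trans
    (mul_le_mul_of_nonneg_left ((norm_sub_le _ _).trans (add_le_add
      ((τ.ins D (fun r => (D r * u r ^ n k - D r) * b) hy C0
        (fun r => s1 _ (mul1 ha (unit1 (Unitary.star_mem (pow_mem (hu r) (n k)))))) (by positivity)
        D1).trans (mul_le_mul_of_nonneg_left (nb _ (2 * n k) (by positivity) fun r => by
          rw [hD']; exact geo_le (hu r) _ _) (by positivity)))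
      ((τ.ins D (fun r => (D r * star (u r ^ n k) - D r) * b) hy C0
        (fun r => s1 _ (mul1 ha (pow1 (hu r) (n k)))) (by positivity)
        D1).trans (mul_le_mul_of_nonneg_left (nb _ (2 * n k) (by positivity) fun r => by
          have := mul1 (geo_le (hu r) (M ^ 2) (n k)) (unit1 (Unitary.star_mem (pow_mem (hu r) (n k))))
          rwa [← hD', sub_mul, mul_assoc, (pow_mem (hu r) _).2, mul_one, norm_sub_rev] at this)
          (by positivity))))) (norm_nonneg _))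
  have b3 := (norm_sub_le _ _).trans (add_le_add b2 b1)
  rw [← key, norm_mul] at b3
  refine le_of_mul_le_mul_left (le_trans (le_of_eq ?_) (b3.trans ?_)) (pow_pos M0 4)
  · congr 1; simp; ring
  · have : ∑ k ∈ s, ‖c k‖ * (4 * C * M ^ 2 * (M * (2 * n k)) + 4 * C * M ^ 2 * (M * (2 * n k))) =
        M ^ 3 * ∑ k ∈ s, ‖c k‖ * (16 * C * n k) := by
      rw [mul_sum]; exact sum_congr rfl fun k _ => by ring
    rw [this]
    nlinarith [mul_le_mul_of_nonneg_left hM.le (pow_pos M0 3).le]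

end Vale.Agent.P082
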