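import Vale.Agent.P082.Tools

open Finset Vale.Agent.P104
open scoped InnerProductSpace

set_option linter.unusedSectionVars false

namespace Vale.Agent.P082

variable {H : Type*} [NormedAddCommGroup H] [InnerProductSpace ℂ H] [CompleteSpace H]
  {M : VonNeumannAlgebra H}

structure TA (M : VonNeumannAlgebra H) (V1 V2 z : Op H) : Prop where
  m1 : V1 ∈ M
  m2 : V2 ∈ M
  h1 : star V1 * V1 = z
  h2 : star V2 * V2 = z
  h0 : star V1 * V2 = 0

structure Dbl (M : VonNeumannAlgebra H) (z0 : Op H) (w : Op H × Op H) : Prop where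
  ta : TA M w.1 w.2 (star w.1 * w.1)
  p1 : PI w.1
  f1 : star w.1 * w.1 * w.1 = w.1
  f2 : star w.1 * w.1 * w.2 = w.2
  z : z0 * (star w.1 * w.1) = star w.1 * w.1

lemma Dbl.p2 {z0 : Op H} {w : Op H × Op H} (h : Dbl M z0 w) : PI w.2 :=
  PI.of_proj (h.ta.h2 ▸ h.p1.proj)

lemma dbl_sum {ι : Type*} {z0 : Op H} (s s' : ι → Op H) (hs : Ort s) (hs' : Ort s')
    (m : ∀ i, s i ∈ M) (m' : ∀ i, s' i ∈ M) (e : ∀ i, star (s' i) * s' i = star (s i) * s i)
    (o : ∀ i j, star (s i) * s' j = 0) (f : ∀ i, ∃ j, star (s j) * s j * s i = s i)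
    (f' : ∀ i, ∃ j, star (s j) * s j * s' i = s' i) (z : ∀ i, s i * z0 = s i)
    (hz : IsStarProjection z0) : ∃ w, Dbl M z0 w ∧ ∀ i, s i * star w.1 = s i * star (s i) ∧
      star w.1 * w.1 * star (s i) = star (s i) := by
  obtain ⟨t, tM, ht⟩ := hs.ex m
  obtain ⟨t', tM', ht'⟩ := hs'.ex m'
  have k : ∀ j, star t * t * star (s j) = star (s j) := fun j => by
    rw [mul_assoc, ht.two', ← mul_assoc, ht.two, PI.st (hs.pi j)]
  refine ⟨(t, t'), ⟨⟨tM, tM', rfl, ht'.eqp ht e, ht'.left fun j => ht.st.right fun i => o i j⟩,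
    ht.pi, ht.fixl fun i => ?_, ht'.fixl fun i => ?_, ?_⟩, fun i => ⟨ht.one' i, k i⟩⟩
  · obtain ⟨j, hj⟩ := f i
    rw [← hj, ← mul_assoc, ← mul_assoc, k]
  · obtain ⟨j, hj⟩ := f' i
    rw [← hj, ← mul_assoc, ← mul_assoc, k]
  · rw [← mul_assoc, (star_fix hz).2 (ht.fixr z)]

lemma dbl_TA {z0 : Op H} (hz : Cen M z0) {w0 : Op H × Op H} (h0 : Dbl M z0 w0) (hne : w0.1 ≠ 0) :
    ∃ z V1 V2, Cen M z ∧ z ≠ 0 ∧ z0 * z = z ∧ TA M V1 V2 z := by
  obtain ⟨F, h1, h2, h3⟩ := exists_maxfam (Dbl M z0)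
    (fun a b => star a.1 * a.1 * (star b.1 * b.1) = 0) fun a b h => by
      simpa [mul_assoc] using congrArg star h
  have o : ∀ i j : F, i ≠ j → star i.1.1 * i.1.1 * (star j.1.1 * j.1.1) = 0 := fun i j h =>
    h2 i.2 j.2 (Subtype.coe_ne_coe.2 h)
  have pp : ∀ i : F, IsStarProjection (star i.1.1 * i.1.1) := fun i => (h1 _ i.2).p1.proj
  have oa : ∀ i j : F, i ≠ j → ∀ a b, star i.1.1 * i.1.1 * a = a → star j.1.1 * j.1.1 * b = b →
      star a * b = 0 := fun i j h a b ha hb => by
    rw [← ha, ← hb, star_mul, pstar (pp i), mul_assoc, ← mul_assoc (star i.1.1 * _), o i j h]; simp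
  have r1 : ∀ i : F, star i.1.1 * i.1.1 * star i.1.1 = star i.1.1 := fun i => PI.st (h1 _ i.2).p1
  have r2 : ∀ i : F, star i.1.1 * i.1.1 * star i.1.2 = star i.1.2 := fun i => by
    rw [← (h1 _ i.2).ta.h2]; exact PI.st (h1 _ i.2).p2
  obtain ⟨w, hw, hw'⟩ := dbl_sum (M := M) (z0 := z0) (fun i : F => i.1.1) (fun i : F => i.1.2)
    ⟨fun i => (h1 _ i.2).p1, fun i j h => oa i j h _ _ (h1 _ i.2).f1 (h1 _ j.2).f1,
      fun i j h => by simpa using oa i j h _ _ (r1 i) (r1 j)⟩
    ⟨fun i => (h1 _ i.2).p2, fun i j h => oa i j h _ _ (h1 _ i.2).f2 (h1 _ j.2).f2,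
      fun i j h => by simpa using oa i j h _ _ (r2 i) (r2 j)⟩
    (fun i => (h1 _ i.2).ta.m1) (fun i => (h1 _ i.2).ta.m2) (fun i => (h1 _ i.2).ta.h2)
    (fun i j => by
      by_cases h : i = j
      · subst h; exact (h1 _ i.2).ta.h0
      · exact oa i j h _ _ (h1 _ i.2).f1 (h1 _ j.2).f2)
    (fun i => ⟨i, (h1 _ i.2).f1⟩) (fun i => ⟨i, (h1 _ i.2).f2⟩)
    (fun i => (star_fix hz.proj).1 (by rw [← r1 i, ← mul_assoc, (h1 _ i.2).z])) hz.proj
  set P := star w.1 * w.1 with hP
  have Pp : IsStarProjection P := hw.p1.proj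
  have PM : P ∈ M := mul_mem (star_mem hw.ta.m1) hw.ta.m1
  have mx : ∀ a, Dbl M z0 a → star a.1 * a.1 * P = 0 → a.1 = 0 := fun a ha h => by
    have := (hw' ⟨a, h3 a ha fun b hb => by
      rw [← (hw' ⟨b, hb⟩).2, ← mul_assoc, ← mul_assoc, h]; simp⟩).2
    rw [← PI.st ha.p1, ← mul_assoc, pflip ha.p1.proj Pp h, zero_mul, PI.st ha.p1] at this
    simpa using this.symm
  have P0 : P ≠ 0 := fun h => hne (mx w0 h0 (by rw [h, mul_zero]))
  have hq := Pp.sub_of_mul_eq_right hz.proj hw.z
  obtain ⟨y, hy, ⟨s, sM, s1, s2⟩, t, tM, t1, t2⟩ := exists_gc hq Pp (sub_mem hz.mem PM) PM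
  have Pt : P * t = 0 := by
    rw [← t2, ← mul_assoc, mul_sub, pflip' hz.proj Pp hw.z, pidem Pp]; simp
  have ht : PI t := PI.of_proj (t1 ▸ hy.one_sub.pmul Pp PM)
  have k : ∀ a b, a ∈ M → b ∈ M → P * b = b → star (t * a * star t) * (t * b * star t) =
      t * (star a * b * (1 - y)) * star t := fun a b aM bM hb => by
    calc _ = t * (star a * (star t * t * b)) * star t := by simp [mul_assoc]
      _ = _ := by rw [t1, mul_assoc P, ← hy.one_sub.comm b bM, ← mul_assoc P, hb, ← mul_assoc (star a)]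
  have k1 := k _ _ hw.ta.m1 hw.ta.m1 hw.f1
  rw [← hP, ← t1, ← mul_assoc t, ht] at k1
  have Py : t = 0 := by
    have := mx (t * w.1 * star t, t * w.2 * star t) ⟨⟨mul_mem (mul_mem tM hw.ta.m1) (star_mem tM),
      mul_mem (mul_mem tM hw.ta.m2) (star_mem tM), rfl, by
        rw [k _ _ hw.ta.m2 hw.ta.m2 hw.f2, k _ _ hw.ta.m1 hw.ta.m1 hw.f1, hw.ta.h2], by
        rw [k _ _ hw.ta.m1 hw.ta.m2 hw.f2, hw.ta.h0]; simp⟩,
      PI.of_proj (by rw [k1]; exact ht.proj'), by
        simp only [k1]; rw [← mul_assoc, ← mul_assoc, ht], by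
        simp only [k1]; rw [← mul_assoc, ← mul_assoc, ht], by
        simp only [k1]
        rw [← mul_assoc, ← t2, ← mul_assoc, mul_sub, pidem hz.proj, hw.z]⟩ (by
        simp only [k1]
        rw [mul_assoc, ← pstar Pp, ← star_mul, Pt]; simp)
    simp only at this
    rw [this, star_zero, zero_mul] at k1
    exact (CStarRing.mul_star_self_eq_zero_iff t).1 k1.symm
  rw [Py, mul_zero, mul_sub, mul_one, eq_comm, sub_eq_zero] at t1
  have TT : star (w.1 * s + w.2) * P * (w.1 * s + w.2) = z0 * y := by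
    have h0' : star w.2 * w.1 = 0 := by simpa using congrArg star hw.ta.h0
    rw [mul_assoc, mul_add, ← mul_assoc P, hw.f1, hw.f2]
    simp only [star_add, star_mul, add_mul, mul_add, mul_assoc, ← mul_assoc (star w.1),
      ← mul_assoc (star w.2), hw.ta.h0, h0', hw.ta.h2, ← hP, s2, s1, sub_mul, ← t1]
    simp
  have TM : w.1 * s + w.2 ∈ M := add_mem (mul_mem hw.ta.m1 sM) hw.ta.m2
  refine ⟨z0 * y, w.1 * (w.1 * s + w.2), w.2 * (w.1 * s + w.2), hz.mul hy, fun h => P0 ?_,
    by rw [← mul_assoc, pidem hz.proj], mul_mem hw.ta.m1 TM, mul_mem hw.ta.m2 TM, ?_, ?_, ?_⟩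
  · rw [t1, ← pflip' hz.proj Pp hw.z, mul_assoc, h, mul_zero]
  · rw [← TT, hP]; simp only [star_mul, mul_assoc]
  · rw [← TT, hP, ← hw.ta.h2]; simp only [star_mul, mul_assoc]
  · rw [star_mul, mul_assoc, ← mul_assoc (star w.1), hw.ta.h0]; simp

def Fi (M : VonNeumannAlgebra H) (z0 : Op H) : Prop :=
  ∀ (r : ℕ → Op H) (g : Op H), IsStarProjection g → (∀ i, r i ∈ M) →
    (∀ i j, star (r i) * r j = if i = j then g else 0) → (∀ i, z0 * r i = r i) → g = 0

lemma fi_or {z0 : Op H} (hz : Cen M z0) :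
    Fi M z0 ∨ ∃ z V1 V2, Cen M z ∧ z ≠ 0 ∧ z0 * z = z ∧ TA M V1 V2 z := by
  refine or_iff_not_imp_left.2 fun h => ?_
  simp only [Fi, not_forall] at h
  obtain ⟨r, g, hg, rM, rr, rz, g0⟩ := h
  have pi : ∀ i, PI (r i) := fun i => PI.of_proj (by rwa [rr, if_pos rfl])
  have rg : ∀ i, r i * g = r i := fun i => by
    have := pi i; rwa [PI, mul_assoc, rr, if_pos rfl] at this
  have gr : ∀ i, g * star (r i) = star (r i) := fun i => (star_fix hg).2 (rg i)
  have k : ∀ a b c d, star (r a * star (r b)) * (r c * star (r d)) =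
      if a = c then r b * star (r d) else 0 := fun a b c d => by
    rw [star_mul, star_star, mul_assoc, ← mul_assoc (star (r a)), rr]
    split_ifs <;> simp [gr]
  have k' : ∀ a b c d, r a * star (r b) * (r c * star (r d)) =
      if b = c then r a * star (r d) else 0 := fun a b c d => by simpa using k b a c d
  have ort : ∀ f : ℕ → ℕ, Function.Injective f → Ort fun i => r (f i) * star (r i) := fun f hf =>
    ⟨fun i => PI.of_proj (by rw [k, if_pos rfl]; exact (pi i).proj'),
      fun i j h => by rw [k, if_neg (hf.ne h)],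
      fun i j h => by rw [star_mul, star_star, k', if_neg h]⟩
  obtain ⟨w, hw, hw'⟩ := dbl_sum (M := M) (z0 := z0) _ _ (ort (2 * ·) fun a b h => by simpa using h)
    (ort (2 * · + 1) fun a b h => by simpa using h)
    (fun i => mul_mem (rM _) (star_mem (rM _))) (fun i => mul_mem (rM _) (star_mem (rM _)))
    (fun i => by rw [k, k, if_pos rfl, if_pos rfl])
    (fun i j => by rw [k, if_neg (by omega)])
    (fun i => ⟨2 * i, by rw [k, if_pos rfl, k', if_pos rfl]⟩)
    (fun i => ⟨2 * i + 1, by rw [k, if_pos rfl, k', if_pos rfl]⟩)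
    (fun i => by rw [mul_assoc, (star_fix hz.proj).1 (by rw [star_star, rz])]) hz.proj
  refine dbl_TA hz hw fun h => g0 ?_
  have := (hw' 0).2
  rw [h, mul_zero, zero_mul, eq_comm, star_eq_zero, CStarRing.mul_star_self_eq_zero_iff] at this
  simpa [this] using (rr 0 0).symm

section fin
variable {z0 : Op H} (hf : Fi M z0)
include hf

lemma Fi.iso {u q : Op H} (uM : u ∈ M) (hq : IsStarProjection q) (h1 : star u * u = q)
    (h2 : q * u = u) (h3 : z0 * q = q) : u * star u = q := by
  have hu : PI u := PI.of_proj (h1 ▸ hq)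
  have uq : u * q = u := by rw [← h1, ← mul_assoc]; exact hu
  have hg := hu.proj'.sub_of_mul_eq_right hq (by rw [← mul_assoc, h2])
  set g := q - u * star u with e
  have qg : q * g = g := by rw [e, mul_sub, pidem hq, ← mul_assoc, h2]
  have gu : g * u = 0 := by rw [e, sub_mul, h2, hu, sub_self]
  have qp : ∀ k, q * (u ^ k * g) = u ^ k * g := fun k => by
    rcases k with _ | k
    · rw [pow_zero, one_mul, qg]
    · rw [pow_succ', ← mul_assoc, ← mul_assoc, h2]
  have a1 : ∀ i k, star (u ^ i * g) * (u ^ (i + k) * g) = g * (u ^ k * g) := fun i k => by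
    induction i with
    | zero => simp [pstar hg]
    | succ i ih =>
      rw [← ih, show i + 1 + k = i + k + 1 by omega, pow_succ', pow_succ', mul_assoc u,
        mul_assoc u, star_mul, mul_assoc, ← mul_assoc (star u), h1, qp]
  have a2 : ∀ i j, i < j → star (u ^ i * g) * (u ^ j * g) = 0 := fun i j h => by
    obtain ⟨k, rfl⟩ := Nat.exists_eq_add_of_lt h
    rw [add_assoc, a1, pow_succ', ← mul_assoc, ← mul_assoc, gu]; simp
  have := hf (fun k => u ^ k * g) g hg (fun k => mul_mem (pow_mem uM k)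
    (sub_mem (h1 ▸ mul_mem (star_mem uM) uM) (mul_mem uM (star_mem uM)))) (fun i j => by
      split_ifs with h
      · subst h; simpa [pidem hg] using a1 i 0
      · rcases lt_or_gt_of_ne h with h | h
        · exact a2 i j h
        · simpa using congrArg star (a2 j i h))
    fun k => by rw [← qp, ← mul_assoc, h3]
  exact (sub_eq_zero.1 this).symm

lemma Fi.compl {v t e f : Op H} (vM : v ∈ M) (tM : t ∈ M) (he : IsStarProjection e)
    (hf' : IsStarProjection f) (v1 : star v * v = e) (v2 : v * star v = f) (ht : PI t)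
    (t1 : t * e = t) (t2 : f * t = t) (z : z0 * e = e) :
    ∃ w ∈ M, star w * w = e - star t * t ∧ w * star w = f - t * star t := by
  have eM : e ∈ M := v1 ▸ mul_mem (star_mem vM) vM
  have fM : f ∈ M := v2 ▸ mul_mem vM (star_mem vM)
  have hv : PI v := PI.of_proj (v1 ▸ he)
  have t1' := (star_fix he).2 t1
  have hp := ht.proj.sub_of_mul_eq_right he (by rw [← mul_assoc, t1'])
  have hq := ht.proj'.sub_of_mul_eq_right hf' (by rw [← mul_assoc, t2])
  have pM := sub_mem eM (mul_mem (star_mem tM) tM)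
  obtain ⟨s, sM, hs, s1, s2, s3⟩ := exists_gc0 hp hq pM (sub_mem fM (mul_mem tM (star_mem tM)))
  have ts : star t * s = 0 := by
    rw [← s1, ← mul_assoc, mul_sub, (star_fix hf').1 (by rwa [star_star]), ← mul_assoc, PI.st ht]
    simp
  have st : s * star t = 0 := by rw [← s2, mul_assoc, sub_mul, t1', PI.st ht]; simp
  have ts' : star s * t = 0 := by simpa using congrArg star ts
  have st' : t * star s = 0 := by simpa using congrArg star st
  have fs : f * s = s := by rw [← s1, ← mul_assoc, mul_sub, pidem hf', ← mul_assoc, t2]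
  have se : s * e = s := by rw [← s2, mul_assoc, sub_mul, pidem he, mul_assoc, t1]
  set u := t + s with hu
  have uM : u ∈ M := add_mem tM sM
  have u1 : star u * u = star t * t + star s * s := by
    simp [hu, add_mul, mul_add, ts, ts']
  have u2 : u * star u = t * star t + s * star s := by
    simp [hu, add_mul, mul_add, st, st']
  have fu : f * u = u := by rw [hu, mul_add, t2, fs]
  have ue : u * e = u := by rw [hu, add_mul, t1, se]
  have fv : f * v = v := by rw [← v2]; exact hv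
  have ev : e * star v = star v := by rw [← v1]; exact PI.st hv
  obtain ⟨y, hy, y1, y2⟩ := exists_cs (sub_mem pM (mul_mem (star_mem sM) sM))
  have y3 := y2 _ s3
  rw [sub_sub, ← u2, sub_mul, sub_eq_zero] at y3
  rw [sub_sub, ← u1] at y1
  have a1 := hf.iso (u := star u * v * y) (q := e * y)
    (mul_mem (mul_mem (star_mem uM) vM) hy.mem) (hy.pmul he eM) (by
      rw [star_mul, pstar hy.proj, ← hy.comm _ (star_mem (mul_mem (star_mem uM) vM)),
        hy.mm (mul_mem (star_mem uM) vM), star_mul, star_star, mul_assoc (star v),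
        ← mul_assoc u, mul_assoc (star v), mul_assoc _ v, hy.comm v vM, ← mul_assoc _ y, ← y3,
        mul_assoc f, ← hy.comm v vM, ← mul_assoc f, fv, ← mul_assoc, v1])
    (by rw [hy.mm (mul_mem (star_mem uM) vM), ← mul_assoc e, (star_fix he).2 ue])
    (by rw [← mul_assoc, z])
  rw [star_mul, pstar hy.proj, ← hy.comm _ (star_mem (mul_mem (star_mem uM) vM)),
    hy.mm (star_mem (mul_mem (star_mem uM) vM)), star_mul, star_star, mul_assoc (star u),
    ← mul_assoc v, v2, fu] at a1
  have a2 : star u * u = e := by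
    rw [← hy.comm _ (sub_mem eM (mul_mem (star_mem uM) uM)), sub_mul, a1, sub_self, eq_comm,
      sub_eq_zero] at y1
    exact y1.symm
  have a3 := hf.iso (u := star v * u) (q := e) (mul_mem (star_mem vM) uM) he
    (by rw [star_mul, star_star, mul_assoc, ← mul_assoc v, v2, fu, a2]) (by rw [← mul_assoc, ev]) z
  have a4 : u * star u = f := by
    have := congrArg (fun a => v * a * star v) a3
    simp only [star_mul, star_star, ← mul_assoc, v2, fu] at this
    rw [mul_assoc, v2, mul_assoc, (star_fix hf').1 (by rwa [star_star]), mul_assoc, ev, v2] at this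
    exact this
  exact ⟨s, sM, by rw [← a2, u1]; abel, by rw [← a4, u2]; abel⟩

lemma Fi.cover (hz : Cen M z0) {g : Op H} (hg : IsStarProjection g) (gM : g ∈ M) (g0 : g ≠ 0)
    : ∃ (K : Type) (_ : Fintype K) (_ : DecidableEq K) (r : K → Op H) (Q y : Op H),
      Hm M r g Q ∧ z0 * Q = Q ∧ Cen M y ∧ g * y ≠ 0 ∧ Sub M ((z0 - Q) * y) g := by
  obtain ⟨F, h1, h2, h3⟩ := exists_maxfam (fun r => r ∈ M ∧ star r * r = g ∧ z0 * r = r)
    (fun a b => star a * b = 0) fun a b h => by simpa using congrArg star h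
  have hF : F.Finite := by
    by_contra h
    let e := Set.Infinite.natEmbedding F h
    exact g0 (hf (fun i => e i) g hg (fun i => (h1 _ (e i).2).1) (fun i j => by
      split_ifs with h
      · subst h; exact (h1 _ (e i).2).2.1
      · exact h2 (e i).2 (e j).2 (Subtype.coe_ne_coe.2 (e.injective.ne h)))
      fun i => (h1 _ (e i).2).2.2)
  have := hF.to_subtype
  obtain ⟨n, ⟨e⟩⟩ := Finite.exists_equiv_fin F
  have hm : Hm M (fun i => (e.symm i).1) g (∑ i, (e.symm i).1 * star (e.symm i).1) :=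
    ⟨hg, gM, fun i => (h1 _ (e.symm i).2).1, fun i j => by
      split_ifs with h
      · subst h; exact (h1 _ (e.symm i).2).2.1
      · exact h2 (e.symm i).2 (e.symm j).2 (Subtype.coe_ne_coe.2 (e.symm.injective.ne h)), rfl⟩
  set Q := ∑ i, (e.symm i).1 * star (e.symm i).1 with hQ
  have zQ : z0 * Q = Q := by
    rw [hQ, mul_sum]; exact sum_congr rfl fun i _ => by rw [← mul_assoc, (h1 _ (e.symm i).2).2.2]
  obtain ⟨y, hy, y1, s, sM, s1, s2⟩ := exists_gc (hm.Qp.sub_of_mul_eq_right hz.proj zQ) hg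
    (sub_mem hz.mem hm.QM) gM
  refine ⟨Fin n, inferInstance, inferInstance, _, Q, y, hm, zQ, hy, fun h => g0 ?_, y1⟩
  rw [mul_sub, h, mul_one, sub_zero] at s1
  have k : ∀ r ∈ F, star r * s = 0 := fun r hr => by
    have := hm.rQ (e ⟨r, hr⟩)
    simp only [Equiv.symm_apply_apply] at this
    rw [← s2, ← mul_assoc, mul_sub, this, (star_fix hz.proj).1 (by rw [star_star, (h1 r hr).2.2])]
    simp
  rw [← s1]
  exact k s (h3 s ⟨sM, s1, by rw [← s2, ← mul_assoc, mul_sub, pidem hz.proj, zQ]⟩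
    fun r hr => by simpa using congrArg star (k r hr))

lemma Fi.typeB (hz : Cen M z0) {g : Op H} (hg : IsStarProjection g) (gM : g ∈ M) (g0 : g ≠ 0)
    (gz : z0 * g = g) (ab : Ab M g) : ∃ (z : Op H) (K : Type) (_ : Fintype K) (_ : DecidableEq K)
      (r : K → Op H) (e : Op H), Cen M z ∧ z ≠ 0 ∧ z0 * z = z ∧ Hm M r e z ∧ Ab M e := by
  obtain ⟨K, _, _, r, Q, y, hm, zQ, hy, gy, s, sM, s1, s2⟩ := hf.cover hz hg gM g0
  have hq := hy.pmul (hm.Qp.sub_of_mul_eq_right hz.proj zQ) (sub_mem hz.mem hm.QM)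
  have hs : PI s := PI.of_proj (s1 ▸ hq)
  have ss : s * ((z0 - Q) * y) = s := by rw [← s1, ← mul_assoc]; exact hs
  by_cases s0 : s = 0
  · refine ⟨z0 * y, K, inferInstance, inferInstance, fun a => r a * y, _, hz.mul hy,
      fun h => gy ?_,
      by rw [← mul_assoc, pidem hz.proj], ?_, ab.cut hg gM hy⟩
    · rw [← pflip' hz.proj hg gz, mul_assoc, h, mul_zero]
    · rw [s0, mul_zero, sub_mul, eq_comm, sub_eq_zero] at s1
      rw [s1]; exact hm.cut hy
  · obtain ⟨c, hc, c1, c2⟩ := exists_cs sM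
    have c3 := c2 _ fun x hx => by
      have := congrArg (· * s) (ab _ (mul_mem sM (star_mem sM)) hs.proj' (by rw [← mul_assoc, s2]) x hx)
      simp only [zero_mul] at this
      rwa [mul_assoc, hs] at this
    rw [sub_mul, sub_eq_zero] at c3
    have hw := hy.mul hc
    have h' := hm.cut hw
    have sy : s * y = s := by rw [← ss, mul_assoc, hy.idem]
    have sc : s * c = s := by rw [hc.comm s sM, c1]
    have sQ : s * Q = 0 := by
      rw [← ss, mul_assoc, mul_assoc, ← hy.comm Q hm.QM, ← mul_assoc (z0 - Q), sub_mul, zQ,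
        pidem hm.Qp]; simp
    have sr : ∀ a, s * (r a * (y * c)) = 0 := fun a => by
      rw [← hm.Qr a, ← mul_assoc, ← mul_assoc s, sQ]; simp
    refine ⟨z0 * (y * c), Option K, inferInstance, inferInstance,
      fun o => o.elim (star s) fun a => r a * (y * c), g * (y * c), hz.mul hw, fun h => s0 ?_,
      by rw [← mul_assoc, pidem hz.proj], ⟨h'.he, h'.eM, ?_, ?_, ?_⟩, ab.cut hg gM hw⟩
    · have sz : s * z0 = s := by rw [hz.comm s sM, ← s2, ← mul_assoc, gz]
      rw [← sc, ← sy, ← sz, mul_assoc, mul_assoc, h, mul_zero]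
    · rintro (_ | a)
      exacts [star_mem sM, h'.rM a]
    · rintro (_ | a) (_ | b)
      · simp only [Option.elim, star_star, if_true]
        have e1 : star s * c = star s := (star_fix hc.proj).1 (by rwa [star_star])
        have e2 : star s * y = star s := by
          rw [hy.comm _ (star_mem sM), (star_fix hy.proj).2 sy]
        rw [← hy.comm c hc.mem, ← mul_assoc, c3, mul_assoc s, e1, mul_assoc, e2]
      · simpa using sr b
      · simpa using congrArg star (sr a)
      · simpa using h'.rel a b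
    · rw [Fintype.sum_option]
      simp only [Option.elim, star_star, ← h'.hQ]
      rw [← sc, star_mul, pstar hc.proj, ← hc.comm _ (star_mem sM), hc.mm sM, s1, mul_assoc,
        sub_mul, sub_add_cancel]

end fin

end Vale.Agent.P082
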