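import Vale.Agent.P104.TypeI
import Vale.Agent.P082.Coch

open Finset Vale.Agent.P104
open scoped InnerProductSpace

set_option linter.unusedSectionVars false

namespace Vale.Agent.P082

section min
variable {X : Type*} [TopologicalSpace X] [T2Space X]

structure Inv (T : Set (X → X)) (K : Set X) : Prop where
  ne : K.Nonempty
  cpt : IsCompact K
  inv : ∀ t ∈ T, ∀ x ∈ K, t x ∈ K

structure Min (T : Set (X → X)) (K : Set X) : Prop extends Inv T K where
  min : ∀ C, IsClosed C → (∀ t ∈ T, ∀ x ∈ K, x ∈ C → t x ∈ C) → (∃ x ∈ K, x ∈ C) → K ⊆ C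

lemma Inv.exists_min {T : Set (X → X)} {K : Set X} (h : Inv T K) : ∃ K' ⊆ K, Min T K' := by
  obtain ⟨m, hm, h1⟩ := zorn_superset_nonempty {K | Inv T K} (fun c hc hch hne => by
    have : Nonempty c := hne.to_subtype
    obtain ⟨s, hs⟩ := hne
    refine ⟨⋂₀ c, ⟨IsCompact.nonempty_sInter_of_directed_nonempty_isCompact_isClosed
      (fun x hx y hy => (hch.total hx hy).elim (fun h => ⟨x, hx, le_rfl, h⟩)
        fun h => ⟨y, hy, h, le_rfl⟩)
      (fun U hU => (hc hU).ne) (fun U hU => (hc hU).cpt)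
      (fun U hU => (hc hU).cpt.isClosed), (hc hs).cpt.of_isClosed_subset
      (isClosed_sInter fun U hU => (hc hU).cpt.isClosed) (Set.sInter_subset_of_mem hs),
      fun t ht x hx U hU => (hc hU).inv t ht x (hx U hU)⟩, fun s hs => Set.sInter_subset_of_mem hs⟩)
    K h
  refine ⟨m, hm, h1.1, fun C hC hi hne x hx => ?_⟩
  exact (h1.2 (y := m ∩ C) ⟨hne, h1.1.cpt.inter_right hC,
    fun t ht x hx => ⟨h1.1.inv t ht x hx.1, hi t ht x hx.1 hx.2⟩⟩ Set.inter_subset_left hx).2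

lemma Min.ev {I : Type*} {T : Set (X → X)} {K : Set (I → X)}
    (h : Min ((fun t Ψ i => t (Ψ i)) '' T) K) (i : I) : Min T ((fun Ψ => Ψ i) '' K) where
  ne := h.ne.image _
  cpt := h.cpt.image (continuous_apply i)
  inv t ht := by rintro _ ⟨Ψ, h1, rfl⟩; exact ⟨_, h.inv _ ⟨t, ht, rfl⟩ Ψ h1, rfl⟩
  min C hC hi := by
    rintro ⟨_, ⟨Ψ, h1, rfl⟩, h2⟩ _ ⟨Φ, h3, rfl⟩
    refine h.min ((fun Ψ => Ψ i) ⁻¹' C) (hC.preimage (continuous_apply i)) ?_ ⟨Ψ, h1, h2⟩ h3
    rintro _ ⟨t, ht, rfl⟩ x hx hc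
    exact hi t ht _ ⟨x, hx, rfl⟩ hc

end min

structure VN (A H : Type*) [CStarAlgebra A] [NormedAddCommGroup H] [InnerProductSpace ℂ H]
    [CompleteSpace H] where
  ρ : A →⋆ₐ[ℂ] Op H
  M : VonNeumannAlgebra H
  nrm : ∀ a, ‖ρ a‖ = ‖a‖
  mem : ∀ a, ρ a ∈ M
  surj : ∀ x ∈ M, ∃ a, ρ a = x

variable {A H : Type*} [CStarAlgebra A] [NormedAddCommGroup H] [InnerProductSpace ℂ H]
  [CompleteSpace H]

lemma VN.inj (R : VN A H) {a b : A} (h : R.ρ a = R.ρ b) : a = b := by
  rw [← sub_eq_zero, ← norm_eq_zero, ← R.nrm, map_sub, h, sub_self, norm_zero]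

@[ext] structure W (R : VN A H) where
  f : A →L[ℂ] A

variable {R : VN A H}

noncomputable def coef (S : W R) (p : A × H × H) : ℂ := ⟪p.2.2, R.ρ (S.f p.1) p.2.1⟫_ℂ

noncomputable instance : TopologicalSpace (W R) := .induced coef inferInstance

lemma op_ext {S T : Op H} (h : ∀ ξ η, ⟪η, S ξ⟫_ℂ = ⟪η, T ξ⟫_ℂ) : S = T := by
  ext ξ; exact ext_inner_left ℂ fun η => h ξ η

lemma coef_emb : Topology.IsEmbedding (coef (R := R)) :=
  ⟨⟨rfl⟩, fun S T h => by
    ext x; exact R.inj (op_ext fun ξ η => congrFun h (x, ξ, η))⟩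

instance : T2Space (W R) := coef_emb.t2Space

section WC
variable {X : Type*} [TopologicalSpace X]

def WC (R : VN A H) (g : X → A) : Prop := ∀ ξ η, Continuous fun t => ⟪η, R.ρ (g t) ξ⟫_ℂ

lemma WC.ev {g : X → W R} (hg : Continuous g) (x : A) : WC R fun t => (g t).f x := fun ξ η =>
  ((continuous_apply (x, ξ, η)).comp coef_emb.continuous).comp hg

lemma cont_W {g : X → W R} (h : ∀ x, WC R fun t => (g t).f x) : Continuous g :=
  coef_emb.continuous_iff.2 (continuous_pi fun p => h p.1 p.2.1 p.2.2)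

lemma WC.const (a : A) : WC R fun _ : X => a := fun _ _ => continuous_const

lemma WC.add {f g : X → A} (hf : WC R f) (hg : WC R g) : WC R fun t => f t + g t := fun ξ η => by
  simpa only [map_add, add_apply, inner_add_right] using (hf ξ η).fun_add (hg ξ η)

lemma WC.sub {f g : X → A} (hf : WC R f) (hg : WC R g) : WC R fun t => f t - g t := fun ξ η => by
  simpa only [map_sub, sub_apply, inner_sub_right] using (hf ξ η).fun_sub (hg ξ η)

lemma WC.smul {f : X → A} (hf : WC R f) (c : ℂ) : WC R fun t => c • f t := fun ξ η => by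
  simpa only [map_smul, smul_apply, inner_smul_right] using continuous_const.fun_mul (hf ξ η)

lemma WC.sum {ι : Type*} {f : ι → X → A} (s : Finset ι) (hf : ∀ i, WC R (f i)) :
    WC R fun t => ∑ i ∈ s, f i t := fun ξ η => by
  simpa only [map_sum, _root_.sum_apply, inner_sum] using continuous_finsetSum s fun i _ => hf i ξ η

lemma WC.mulr {f : X → A} (hf : WC R f) (b : A) : WC R fun t => f t * b := fun ξ η => by
  simpa only [map_mul, mul_apply_eq_comp] using hf _ η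

lemma WC.mull {f : X → A} (hf : WC R f) (b : A) : WC R fun t => b * f t := fun ξ η => by
  simpa only [map_mul, mul_apply_eq_comp, inner_star_l] using hf ξ (star (R.ρ b) η)

lemma WC.ceq {f g : X → A} (hf : WC R f) (hg : WC R g) : IsClosed {t | f t = g t} := by
  have : {t | f t = g t} = ⋂ ξ, ⋂ η, {t | ⟪η, R.ρ (f t) ξ⟫_ℂ = ⟪η, R.ρ (g t) ξ⟫_ℂ} := by
    ext t; simp only [Set.mem_ofPred_eq, Set.mem_iInter]
    exact ⟨fun h _ _ => by rw [h], fun h => R.inj (op_ext h)⟩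
  rw [this]
  exact isClosed_iInter fun ξ => isClosed_iInter fun η => isClosed_eq (hf ξ η) (hg ξ η)

lemma norm_le_of_inner {c : ℝ} (hc : 0 ≤ c) {v : H} (h : ∀ η, ‖⟪η, v⟫_ℂ‖ ≤ c * ‖η‖) : ‖v‖ ≤ c := by
  have := h v
  rw [inner_self_eq_norm_sq_to_K] at this
  simp only [norm_pow, Complex.coe_algebraMap, Complex.norm_real, norm_norm] at this
  rcases (norm_nonneg v).eq_or_lt with h0 | h0
  · rwa [← h0]
  · nlinarith

lemma WC.cle {f : X → A} (hf : WC R f) {c : ℝ} (hc : 0 ≤ c) : IsClosed {t | ‖f t‖ ≤ c} := by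
  have : {t | ‖f t‖ ≤ c} = ⋂ ξ, ⋂ η, {t | ‖⟪η, R.ρ (f t) ξ⟫_ℂ‖ ≤ c * ‖ξ‖ * ‖η‖} := by
    ext t; simp only [Set.mem_ofPred_eq, Set.mem_iInter]
    refine ⟨fun h ξ η => (norm_inner_le_norm _ _).trans ?_, fun h => ?_⟩
    · rw [mul_comm]; gcongr; exact (ContinuousLinearMap.le_opNorm _ _).trans (by rw [R.nrm]; gcongr)
    · rw [← R.nrm]
      exact ContinuousLinearMap.opNorm_le_bound _ hc fun ξ =>
        norm_le_of_inner (by positivity) (h ξ)
  rw [this]
  exact isClosed_iInter fun ξ => isClosed_iInter fun η =>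
    isClosed_le (hf ξ η).norm continuous_const

end WC

lemma ball_cpt {C : ℝ} (hC : 0 ≤ C) : IsCompact {S : W R | ‖S.f‖ ≤ C} := by
  rw [coef_emb.isInducing.isCompact_iff]
  let D : Set (A × H × H → ℂ) := {c | (∀ x y ξ η, c (x + y, ξ, η) = c (x, ξ, η) + c (y, ξ, η)) ∧
    (∀ (s : ℂ) x ξ η, c (s • x, ξ, η) = s * c (x, ξ, η)) ∧
    (∀ x ξ ξ' η, c (x, ξ + ξ', η) = c (x, ξ, η) + c (x, ξ', η)) ∧
    (∀ (s : ℂ) x ξ η, c (x, s • ξ, η) = s * c (x, ξ, η)) ∧
    (∀ x ξ η η', c (x, ξ, η + η') = c (x, ξ, η) + c (x, ξ, η')) ∧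
    (∀ (s : ℂ) x ξ η, c (x, ξ, s • η) = (starRingEnd ℂ) s * c (x, ξ, η)) ∧
    (∀ y ∈ R.M.commutant, ∀ x ξ η, c (x, y ξ, η) = c (x, ξ, star y η))}
  have hD : IsClosed D := by
    simp only [D, Set.ofPred_and, Set.ofPred_forall]
    refine .inter ?_ (.inter ?_ (.inter ?_ (.inter ?_ (.inter ?_ (.inter ?_ ?_))))) <;>
    · repeat' first | refine isClosed_iInter fun _ => ?_ | exact isClosed_eq (by fun_prop) (by fun_prop)
  have hB := isCompact_univ_pi fun p : A × H × H =>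
    isCompact_closedBall (0 : ℂ) (C * ‖p.1‖ * ‖p.2.1‖ * ‖p.2.2‖)
  convert hB.inter_right hD using 1
  ext c
  constructor
  · rintro ⟨S, hS, rfl⟩
    refine ⟨fun p _ => ?_, ?_⟩
    · rw [mem_closedBall_zero_iff]
      refine (norm_inner_le_norm _ _).trans ?_
      rw [mul_comm]; gcongr
      refine (ContinuousLinearMap.le_opNorm _ _).trans ?_
      rw [R.nrm]; gcongr
      exact (S.f.le_opNorm _).trans (by gcongr; exact hS)
    · simp only [D, coef, Set.mem_ofPred_eq, map_add, map_smul, add_apply, smul_apply,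
        inner_add_right, inner_add_left, inner_smul_right, inner_smul_left, implies_true, true_and]
      intro y hy x ξ η
      rw [inner_star_l, ← mul_apply_eq_comp, commM (R.mem _) hy, mul_apply_eq_comp]
  · rintro ⟨hb, h1, h2, h3, h4, h5, h6, h7⟩
    have hb : ∀ x ξ η, ‖c (x, ξ, η)‖ ≤ C * ‖x‖ * ‖ξ‖ * ‖η‖ := fun x ξ η =>
      mem_closedBall_zero_iff.1 (hb (x, ξ, η) trivial)
    have : ∀ x ξ, ∃ v : H, ∀ η, ⟪η, v⟫_ℂ = c (x, ξ, η) := fun x ξ => by
      let l : H →ₗ[ℂ] ℂ := ⟨⟨fun η => (starRingEnd ℂ) (c (x, ξ, η)), fun a b => by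
        rw [h5, map_add]⟩, fun s a => by simp [h6]⟩
      refine ⟨(InnerProductSpace.toDual ℂ H).symm (l.mkContinuous (C * ‖x‖ * ‖ξ‖) fun η => by
        simpa [l] using hb x ξ η), fun η => ?_⟩
      rw [← inner_conj_symm, InnerProductSpace.toDual_symm_apply]
      simp [l]
    choose v hv using this
    have vb : ∀ x ξ, ‖v x ξ‖ ≤ C * ‖x‖ * ‖ξ‖ := fun x ξ =>
      norm_le_of_inner (by positivity) fun η => by rw [hv]; exact hb x ξ η
    have : ∀ x, ∃ a : A, ∀ ξ, R.ρ a ξ = v x ξ := fun x => by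
      let l : H →ₗ[ℂ] H := ⟨⟨v x, fun a b => ext_inner_left ℂ fun η => by
        rw [inner_add_right, hv, hv, hv, h3]⟩, fun s a => ext_inner_left ℂ fun η => by
        simp only [RingHom.id_apply, inner_smul_right, hv, h4]⟩
      obtain ⟨a, ha⟩ := R.surj (l.mkContinuous _ (vb x)) (memM fun y hy => op_ext fun ξ η => by
        rw [mul_apply_eq_comp, ← inner_star_l]
        exact (hv _ _ _).trans ((h7 y hy x ξ η).symm.trans (hv _ _ _).symm))
      exact ⟨a, fun ξ => by rw [ha]; rfl⟩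
    choose a ha using this
    let l : A →ₗ[ℂ] A := ⟨⟨a, fun x y => R.inj (op_ext fun ξ η => by
      simp only [map_add, add_apply, inner_add_right, ha, hv, h1])⟩,
      fun s x => R.inj (op_ext fun ξ η => by
      simp only [RingHom.id_apply, map_smul, smul_apply, inner_smul_right, ha, hv, h2])⟩
    have lb : ∀ x, ‖l x‖ ≤ C * ‖x‖ := fun x => by
      rw [← R.nrm]
      exact ContinuousLinearMap.opNorm_le_bound _ (by positivity) fun ξ => by
        rw [show l x = a x from rfl, ha]; exact vb x ξ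
    refine ⟨⟨l.mkContinuous C lb⟩, l.mkContinuous_norm_le hC lb, ?_⟩
    funext p
    exact (congrArg _ (ha p.1 p.2.1)).trans (hv _ _ _)

end Vale.Agent.P082
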