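import Vale.Agent.P082.Struct

open Finset Vale.Agent.P104
open scoped InnerProductSpace

set_option linter.unusedSectionVars false

namespace Vale.Agent.P082

variable {H : Type*} [NormedAddCommGroup H] [InnerProductSpace ℂ H] [CompleteSpace H]
  {M : VonNeumannAlgebra H} {z0 : Op H}

lemma nsq (A : Op H) (x : H) : ‖A x‖ ^ 2 = qf (star A * A) x := normsq_eq A x

lemma Fi.step (hf : Fi M z0) {v : Op H} (vM : v ∈ M) (hv : PI v) (z : z0 * star v = star v)
    (ζ : H) {α β : ℝ} (h : β * ‖star v ζ‖ ^ 2 < α * ‖v ζ‖ ^ 2) :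
    ∃ w ∈ M, w ≠ 0 ∧ PI w ∧ w * (star v * v) = w ∧ v * star v * w = w ∧
      ∀ t ∈ M, PI t → t * (star w * w) = t → w * star w * t = t → t ≠ 0 →
        β * ‖star t ζ‖ ^ 2 < α * ‖t ζ‖ ^ 2 := by
  obtain ⟨F, t, h1, tM, ht, h2⟩ := exists_maxpi (M := M) (fun t => t ∈ M ∧ PI t ∧
    t * (star v * v) = t ∧ v * star v * t = t ∧ α * ‖t ζ‖ ^ 2 ≤ β * ‖star t ζ‖ ^ 2)
    fun s h => ⟨h.1, h.2.1⟩
  have t1 := ht.fixr fun i => (h1 _ i.2).2.2.1
  have t2 := ht.fixl fun i => (h1 _ i.2).2.2.2.1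
  have t3 := hasSum_le (fun i : F => (h1 _ i.2).2.2.2.2) ((ht.nsq ζ).mul_left α)
    ((ht.st.nsq ζ).mul_left β)
  obtain ⟨w, wM, w1, w2⟩ := hf.compl vM tM hv.proj hv.proj' rfl rfl ht.pi t1 t2
    (by rw [← mul_assoc, z])
  have e1 := (star_fix hv.proj).2 t1
  have e2 : star t * (v * star v) = star t := (star_fix hv.proj').1 (by rwa [star_star])
  have hw : PI w := PI.of_proj
    (w1 ▸ ht.pi.proj.sub_of_mul_eq_right hv.proj (by rw [← mul_assoc, e1]))
  have a1 : star w * w * (star v * v) = star w * w := by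
    rw [w1, sub_mul, pidem hv.proj, mul_assoc (star t), t1]
  have a2 : v * star v * (w * star w) = w * star w := by
    rw [w2, mul_sub, pidem hv.proj', ← mul_assoc _ t, t2]
  refine ⟨w, wM, fun w0 => ?_, hw, by rw [← hw, mul_assoc, mul_assoc, ← mul_assoc (star w), a1,
    mul_assoc], by rw [← hw, ← mul_assoc, a2], fun s sM hs s1 s2 s0 => not_le.1 fun hh =>
    s0 (h2 s ⟨sM, hs, by rw [← s1, mul_assoc, a1], by rw [← s2, ← mul_assoc, a2], hh⟩ ?_ ?_)⟩
  · rw [w0, mul_zero, eq_comm, sub_eq_zero] at w1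
    rw [w0, zero_mul, eq_comm, sub_eq_zero] at w2
    rw [nsq, nsq, star_star, w1, w2] at h
    rw [nsq, nsq, star_star] at t3
    exact t3.not_gt h
  · have : star t * s = 0 := by
      rw [← s2, w2, ← mul_assoc, mul_sub, e2, ← mul_assoc, PI.st ht.pi]; simp
    simpa using congrArg star this
  · rw [← s1, w1, mul_assoc, sub_mul, e1, PI.st ht.pi]; simp

lemma exists_faith (hz : Cen M z0) (h0 : z0 ≠ 0) : ∃ e ∈ M, ∃ ζ : H, IsStarProjection e ∧
    z0 * e = e ∧ ζ ≠ 0 ∧ e ζ = ζ ∧ ∀ x ∈ M, x ζ = 0 → x * e = 0 := by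
  obtain ⟨ξ, hξ⟩ : ∃ ξ, z0 ξ ≠ 0 := by
    by_contra! h; exact h0 (ContinuousLinearMap.ext h)
  set ζ := z0 ξ
  obtain ⟨e, he, h1, h2, h3⟩ := exists_rp
    {b | ∃ y ∈ M.commutant, b = y * (innerSL ℂ ζ).smulRight ζ}
  have c : ∀ w ∈ M.commutant, ∀ b ∈ {b | ∃ y ∈ M.commutant, b = y * (innerSL ℂ ζ).smulRight ζ},
      ∃ a' ∈ {b | ∃ y ∈ M.commutant, b = y * (innerSL ℂ ζ).smulRight ζ}, ∃ c, w * b = a' * c := by
    rintro w hw _ ⟨y, hy, rfl⟩
    exact ⟨_, ⟨w * y, mul_mem hw hy, rfl⟩, 1, by rw [mul_one, mul_assoc]⟩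
  have f : ∀ x ∈ M, x ζ = 0 → x * e = 0 := fun x hx h => h2 x (by
    rintro _ ⟨y, hy, rfl⟩
    rw [← mul_assoc, commM hx hy, mul_assoc]
    ext η; simp [h])
  refine ⟨e, memM fun y hy => h3 y (c y hy) (c _ (star_mem hy)), ζ, he, ?_, hξ, ?_, f⟩
  · have := f _ hz.one_sub.mem congr($(hz.proj.one_sub_mul_self) ξ)
    rw [sub_mul, one_mul, sub_eq_zero] at this; exact this.symm
  · have := congr($(h1 _ ⟨1, one_mem _, rfl⟩) ζ)
    simp only [one_mul, mul_apply_eq_comp, ContinuousLinearMap.smulRight_apply, map_smul,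
      innerSL_apply_apply] at this
    exact smul_right_injective _ (inner_self_ne_zero.2 hξ) this

lemma Fi.trace0 (hf : Fi M z0) (hz : Cen M z0) (h0 : z0 ≠ 0) : ∃ p ∈ M, ∃ ζ : H,
    IsStarProjection p ∧ p ≠ 0 ∧ z0 * p = p ∧ (∀ x ∈ M, x * p = x → x ζ = 0 → x = 0) ∧
    ∀ r ∈ M, PI r → r * p = r → p * r = r → ‖r ζ‖ ^ 2 ≤ 2 * ‖star r ζ‖ ^ 2 := by
  obtain ⟨e, eM, ζ, he, ze, ζ0, eζ, fa⟩ := exists_faith hz h0
  have pos : ∀ x ∈ M, x * e = x → x ≠ 0 → 0 < ‖x ζ‖ ^ 2 := fun x hx h1 h2 =>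
    pow_pos (norm_pos_iff.2 fun h => h2 (h1 ▸ fa x hx h)) 2
  obtain ⟨w, wM, w0, hw, w1, w2, w3⟩ := hf.step eM (PI.of_p he) (by rwa [pstar he]) ζ
    (α := -1) (β := -2) (by rw [pstar he, eζ]; nlinarith [norm_pos_iff.2 ζ0])
  rw [pstar he, pidem he] at w1 w2
  let S : Set ℝ := {c | ∃ t ∈ M, PI t ∧ t * (star w * w) = t ∧ w * star w * t = t ∧ t ≠ 0 ∧
    c = ‖t ζ‖ ^ 2 / ‖star t ζ‖ ^ 2}
  have p1 : ∀ t ∈ M, t * (star w * w) = t → t ≠ 0 → 0 < ‖t ζ‖ ^ 2 := fun t ht h h' =>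
    pos t ht (by rw [← h, mul_assoc, mul_assoc, w1]) h'
  have p2 : ∀ t ∈ M, w * star w * t = t → t ≠ 0 → 0 < ‖star t ζ‖ ^ 2 := fun t ht h h' =>
    pos _ (star_mem ht) ((star_fix he).1 (by rw [star_star, ← h, ← mul_assoc, ← mul_assoc, w2]))
      (star_ne_zero.2 h')
  have bdd : BddAbove S := ⟨2, by
    rintro _ ⟨t, tM, ht, a, b, c, rfl⟩
    rw [div_le_iff₀ (p2 t tM b c)]
    linarith [w3 t tM ht a b c]⟩
  have hw' : w * (star w * w) = w := by rw [← mul_assoc]; exact hw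
  have wS : _ ∈ S := ⟨w, wM, hw, hw', hw, w0, rfl⟩
  have μ0 : 0 < sSup S := (div_pos (p1 w wM hw' w0) (p2 w wM hw w0)).trans_le (le_csSup bdd wS)
  obtain ⟨_, ⟨v, vM, hv, v1, v2, v0, rfl⟩, hμ⟩ := exists_lt_of_lt_csSup ⟨_, wS⟩ (half_lt_self μ0)
  rw [lt_div_iff₀ (p2 v vM v2 v0)] at hμ
  have ve : v * e = v := by rw [← v1, mul_assoc, mul_assoc, w1]
  obtain ⟨u, uM, u0, hu, u1, u2, u3⟩ := hf.step vM hv
    (by rw [← (star_fix he).2 ve, ← mul_assoc, ze]) ζ (α := 1) (β := sSup S / 2)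
    (by rwa [one_mul])
  have ue : u * e = u := by rw [← u1, mul_assoc, mul_assoc, ve]
  have uw : u * (star w * w) = u := by rw [← u1, mul_assoc, mul_assoc, v1]
  have wu : w * star w * u = u := by rw [← u2, ← mul_assoc, ← mul_assoc, v2]
  refine ⟨star u * u, mul_mem (star_mem uM) uM, ζ, hu.proj,
    fun h => u0 ((CStarRing.star_mul_self_eq_zero_iff u).1 h),
    by rw [← mul_assoc, ← (star_fix he).2 ue, ← mul_assoc, ze],
    fun x hx h1 h2 => by rw [← h1, ← ue, ← fa x hx h2, ← h1]; simp only [mul_assoc, ue, pidem hu.proj],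
    fun r rM hr r1 r2 => ?_⟩
  rcases eq_or_ne r 0 with rfl | r0
  · simp
  have k : ∀ a, star (u * r * a) * (u * r * a) = star (r * a) * (r * a) := fun a => by
    calc _ = star (r * a) * (star u * u * r * a) := by simp only [star_mul, mul_assoc]
      _ = _ := by rw [r2]
  have k1 := k 1
  have k2 := k (star r)
  rw [pstar hr.proj', pidem hr.proj'] at k2
  simp only [mul_one] at k1
  have n1 : u * r ≠ 0 := fun h => r0 (by rw [← r2, mul_assoc, h, mul_zero])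
  have b1 := le_csSup bdd ⟨u * r, mul_mem uM rM, PI.of_proj (k1 ▸ hr.proj),
    by rw [← r1, mul_assoc, mul_assoc, mul_assoc, uw], by rw [← mul_assoc, wu], n1, rfl⟩
  rw [div_le_iff₀ (p2 _ (mul_mem uM rM) (by rw [← mul_assoc, wu]) n1), nsq, k1, ← nsq] at b1
  have b2 := u3 (u * r * star r) (mul_mem (mul_mem uM rM) (star_mem rM))
    (PI.of_proj (k2 ▸ hr.proj')) (by
      rw [mul_assoc, (star_fix hu.proj).1 (by rwa [star_star])])
    (by rw [← mul_assoc, ← mul_assoc, hu]) fun h => n1 (by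
      rw [← hr, ← mul_assoc, ← mul_assoc, h, zero_mul])
  have e3 : u * r * star r * star (u * r * star r) = u * r * star (u * r) := by
    rw [star_mul, star_star, ← mul_assoc, mul_assoc (u * r), mul_assoc u, ← mul_assoc r, hr]
  rw [nsq, star_star, e3, nsq, k2, ← star_star (u * r), star_star (star _), ← nsq,
    ← star_star r, star_star (star r), ← nsq, star_star] at b2
  linarith

lemma qf_cont (f : Op H → Op H) (hf : Continuous f) (ζ : H) : Continuous fun c => qf (f c) ζ := by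
  unfold qf; fun_prop

lemma qf_add (S T : Op H) (ζ : H) : qf (S + T) ζ = qf S ζ + qf T ζ := by
  simp [qf]

lemma qf_rsmul (c : ℝ) (T : Op H) (ζ : H) : qf ((c : ℂ) • T) ζ = c * qf T ζ := by
  simp [qf]

lemma Fi.trace1 (hf : Fi M z0) (hz : Cen M z0) (h0 : z0 ≠ 0) : ∃ p ∈ M, ∃ ζ : H,
    IsStarProjection p ∧ p ≠ 0 ∧ z0 * p = p ∧ (∀ x ∈ M, x * p = x → x ζ = 0 → x = 0) ∧
    ∀ x ∈ M, x * p = x → p * x = x → ‖x ζ‖ ^ 2 ≤ 2 * ‖star x ζ‖ ^ 2 := by
  obtain ⟨p, pM, ζ, hp, p0, zp, fa, tr⟩ := hf.trace0 hz h0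
  refine ⟨p, pM, ζ, hp, p0, zp, fa, fun x xM x1 x2 => ?_⟩
  obtain ⟨s, sM, hs, s1, s2, s3, s4⟩ := exists_polar2 xM
  have hsa : star (CFC.abs x) = CFC.abs x := (CFC.abs_nonneg x).isSelfAdjoint.star_eq
  have a1 : star s * s * CFC.abs x = CFC.abs x := by rw [mul_assoc, s1, s2]
  have a2 : CFC.abs x * (star s * s) = CFC.abs x := by
    simpa [hsa, mul_assoc] using congrArg star a1
  have a3 : star x * x * (star s * s) = star x * x := by
    rw [← CFC.abs_mul_abs, mul_assoc, a2]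
  have a4 : star s * s * (star x * x) = star x * x := by
    rw [← CFC.abs_mul_abs x, ← mul_assoc, a1]
  have := bin (star_mul_self_nonneg x) {c | qf (c * (star s * s)) ζ ≤ 2 * qf (s * c * star s) ζ}
    (isClosed_le (qf_cont _ (by fun_prop) ζ) (continuous_const.mul (qf_cont _ (by fun_prop) ζ)))
    (by simp [qf]) (fun a ha b hb => by
      simp only [Set.mem_ofPred_eq, add_mul, mul_add, qf_add] at ha hb ⊢; linarith)
    (fun c hc a ha => by
      simp only [Set.mem_ofPred_eq, smul_mul_assoc, mul_smul_comm, qf_rsmul] at ha ⊢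
      nlinarith) fun e he hc => by
      have c1 := hc _ (a3.trans a4.symm)
      have c2 := hc p (by rw [mul_assoc, x1, ← mul_assoc, (star_fix hp).2 x1])
      have eM : e ∈ M := memM fun y hy => (hc y (commM (mul_mem (star_mem xM) xM) hy)).symm
      have c3 : star (s * e) * (s * e) = e * (star s * s) := by
        rw [star_mul, pstar he, mul_assoc, ← mul_assoc (star s), ← c1, ← mul_assoc, pidem he]
      have := tr (s * e) (mul_mem sM eM) (PI.of_proj (c3 ▸ he.mul hs.proj c1))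
        (by rw [mul_assoc, c2, ← mul_assoc, right_fix s4 x1]) (by rw [← mul_assoc, left_fix s3 x2])
      rwa [nsq, nsq, c3, star_star, star_mul, pstar he, ← mul_assoc (s * e), mul_assoc s e e,
        pidem he] at this
  simp only [Set.mem_ofPred_eq] at this
  rwa [a3, ← nsq, ← CFC.abs_mul_abs, ← mul_assoc, s1, mul_assoc, ← hsa, ← star_mul, s1,
    ← star_star x, star_star (star x), ← nsq, star_star] at this

structure TC (M : VonNeumannAlgebra H) (z : Op H) {ι : Type} [Fintype ι] (ζ : ι → H) : Prop where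
  fix : ∀ i, z (ζ i) = ζ i
  tr : ∀ x ∈ M, ∑ i, ‖x (ζ i)‖ ^ 2 ≤ 2 * ∑ i, ‖star x (ζ i)‖ ^ 2
  fa : ∀ x ∈ M, (∀ i, x (ζ i) = 0) → x * z = 0

lemma Fi.trace (hf : Fi M z0) (hz : Cen M z0) (h0 : z0 ≠ 0) : ∃ (z : Op H) (ι : Type)
    (_ : Fintype ι) (ζ : ι → H), Cen M z ∧ z ≠ 0 ∧ z0 * z = z ∧ TC M z ζ := by
  obtain ⟨p, pM, ζ, hp, p0, zp, fa, tr⟩ := hf.trace1 hz h0
  obtain ⟨K, _, _, r, Q, y, hm, zQ, hy, py, s, sM, s1, s2⟩ := hf.cover hz hp pM p0
  have h' := hm.cut hy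
  let a : Option K → Op H := fun o => o.elim s fun k => star (r k * y)
  have aM : ∀ o, a o ∈ M := by
    rintro (_ | k)
    exacts [sM, star_mem (h'.rM k)]
  have pa : ∀ o, p * a o = a o := by
    rintro (_ | k)
    · exact s2
    · exact (star_fix hp).2 (by rw [mul_assoc, ← hy.comm p pM, ← mul_assoc, hm.re])
  have ap : ∀ o, star (a o) * p = star (a o) := fun o => (star_fix hp).1 (by rw [star_star, pa])
  have aa : ∑ o, star (a o) * a o = z0 * y := by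
    rw [Fintype.sum_option]
    simp only [a, Option.elim, star_star, ← h'.hQ, s1, sub_mul, sub_add_cancel]
  have hw := hz.mul hy
  have za : ∀ o, z0 * y * star (a o) = star (a o) := by
    have k : ∀ o, y * star (a o) = star (a o) := by
      rintro (_ | k)
      · have hs : PI s := PI.of_proj
          (s1 ▸ hy.pmul (hm.Qp.sub_of_mul_eq_right hz.proj zQ) (sub_mem hz.mem hm.QM))
        refine (star_fix hy.proj).2 ?_
        change s * y = s
        rw [← hs, mul_assoc s, s1, mul_assoc, hy.idem]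
      · simp only [a, Option.elim, star_star]
        rw [← hy.comm _ (h'.rM k), hy.idem]
    intro o
    rw [mul_assoc, k, ← ap, ← hz.comm _ (mul_mem (star_mem (aM o)) pM), mul_assoc,
      pflip' hz.proj hp zp]
  have ns : ∀ x ∈ M, ∀ i, ‖x (star (a i) ζ)‖ ^ 2 = ∑ j, ‖(a j * x * star (a i)) ζ‖ ^ 2 :=
    fun x hx i => by
      have e : ∀ j, (a j * x * star (a i)) ζ = a j ((x * star (a i)) ζ) := fun j => rfl
      simp only [e, nsq (a _)]
      rw [← qf_sum, aa, qf, ← mul_apply_eq_comp (z0 * y), ← mul_assoc, ← hw.comm x hx, mul_assoc,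
        za, inner_self_eq_norm_sq_to_K]
      norm_cast
  refine ⟨z0 * y, Option K, inferInstance, fun o => star (a o) ζ, hw, fun h => py ?_,
    by rw [← mul_assoc, pidem hz.proj], fun i => congr($(za i) ζ), fun x hx => ?_,
    fun x hx h => ?_⟩
  · rw [← pflip' hz.proj hp zp, mul_assoc, h, mul_zero]
  · simp only [ns x hx, ns _ (star_mem hx), mul_sum]
    rw [sum_comm]
    refine sum_le_sum fun i _ => sum_le_sum fun j _ => ?_
    have := tr (a i * x * star (a j)) (mul_mem (mul_mem (aM i) hx) (star_mem (aM j)))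
      (by rw [mul_assoc, ap]) (by rw [← mul_assoc, ← mul_assoc, pa])
    rwa [star_mul, star_mul, star_star, ← mul_assoc] at this
  · rw [← aa, mul_sum]
    refine sum_eq_zero fun i _ => ?_
    rw [← mul_assoc, fa _ (mul_mem hx (star_mem (aM i))) (by rw [mul_assoc, ap]) (h i), zero_mul]

theorem types (hz : Cen M z0) (h0 : z0 ≠ 0) : ∃ z, Cen M z ∧ z ≠ 0 ∧ z0 * z = z ∧
    ((∃ V1 V2, TA M V1 V2 z) ∨
    (∃ (K : Type) (_ : Fintype K) (_ : DecidableEq K) (r : K → Op H) (e : Op H),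
      Hm M r e z ∧ Ab M e) ∨
    ((∀ k : ℕ, ∃ (K : Type) (_ : Fintype K) (_ : DecidableEq K) (r : K → Op H) (e : Op H),
      k < Fintype.card K ∧ Hm M r e z) ∧
      ∃ (ι : Type) (_ : Fintype ι) (ζ : ι → H), TC M z ζ)) := by
  rcases fi_or hz with hf | ⟨z, V1, V2, h1, h2, h3, h4⟩
  swap
  · exact ⟨z, h1, h2, h3, Or.inl ⟨V1, V2, h4⟩⟩
  by_cases hg : ∃ g ∈ M, IsStarProjection g ∧ g ≠ 0 ∧ z0 * g = g ∧ Ab M g
  · obtain ⟨g, gM, hg, g0, gz, ab⟩ := hg
    obtain ⟨z, K, _, _, r, e, h1, h2, h3, h4⟩ := hf.typeB hz hg gM g0 gz ab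
    exact ⟨z, h1, h2, h3, Or.inr (Or.inl ⟨K, _, _, r, e, h4⟩)⟩
  obtain ⟨z, ι, _, ζ, h1, h2, h3, h4⟩ := hf.trace hz h0
  refine ⟨z, h1, h2, h3, Or.inr (Or.inr ⟨fun k => ?_, ι, _, ζ, h4⟩)⟩
  obtain ⟨K, _, _, r, e, Q, hk, hm, n, hn⟩ := exists_units M k
  have : ∀ {n q}, Dec M (Ab M) n q → q * z = 0 := by
    intro n q h
    induction h with
    | zero => exact zero_mul _
    | @succ n a b aM ha ab _ _ ih =>
      rw [add_mul, ih, add_zero]
      by_contra h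
      exact hg ⟨a * z, mul_mem aM h1.mem, h1.pmul ha aM, h,
        by rw [h1.comm a aM, ← mul_assoc, h3], ab.cut ha aM h1⟩
  have h5 := this hn
  rw [sub_mul, one_mul, sub_eq_zero] at h5
  have h6 := hm.cut h1
  rw [← h5] at h6
  exact ⟨K, _, _, _, _, hk, h6⟩

end Vale.Agent.P082
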