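import Vale.Agent.P082.GT

open Finset Vale.Agent.P104
open scoped InnerProductSpace

set_option linter.unusedSectionVars false

namespace Vale.Agent.P082

universe u

variable {A H : Type u} [CStarAlgebra A] [NormedAddCommGroup H] [InnerProductSpace ℂ H]
  [CompleteSpace H] {G : Type*} [NormedAddCommGroup G] [InnerProductSpace ℂ G] [CompleteSpace G]

structure TR (R : VN A H) (G : Type*) [NormedAddCommGroup G] [InnerProductSpace ℂ G]
    [CompleteSpace G] (z : A) where
  π : A →⋆ₐ[ℂ] Op G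
  ζ : G
  ζ1 : ‖ζ‖ ≤ 1
  tr : ∀ x, ‖π x ζ‖ ≤ 2 * ‖π (star x) ζ‖
  πz : π z = 1
  wc : ∀ a ψ ψ', Continuous fun S : W R => ⟪ψ', π (S.f a) ψ⟫_ℂ
  fa : ∀ x, π x ζ = 0 → x * z = 0

variable {R : VN A H} {z : A}

namespace TR
variable (τ : TR R G z)

lemma πle (a : A) : ‖τ.π a‖ ≤ ‖a‖ := NonUnitalStarAlgHom.norm_apply_le τ.π a

noncomputable def πL : A →L[ℂ] Op G :=
  LinearMap.mkContinuous ⟨⟨τ.π, map_add τ.π⟩, map_smul τ.π⟩ 1 fun a => by
    rw [one_mul]; exact τ.πle a

@[simp] lemma πL_apply (a : A) : τ.πL a = τ.π a := rfl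

noncomputable def J : A →L[ℂ] G := ContinuousLinearMap.apply ℂ G τ.ζ ∘L τ.πL

lemma J_apply (a : A) : τ.J a = τ.π a τ.ζ := rfl

lemma J_mul (a x : A) : τ.J (a * x) = τ.π a (τ.J x) := by simp [J_apply]

lemma J_left (a x : A) : ‖τ.J (a * x)‖ ≤ ‖a‖ * ‖τ.J x‖ := by
  rw [J_mul]; exact (τ.π a).le_of_opNorm_le (τ.πle a) _

lemma J_le (x : A) : ‖τ.J x‖ ≤ ‖x‖ :=
  ((τ.π x).le_of_opNorm_le (τ.πle x) _).trans (mul_le_of_le_one_right (norm_nonneg _) τ.ζ1)

lemma J_star (x : A) : ‖τ.J x‖ ≤ 2 * ‖τ.J (star x)‖ := τ.tr x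

lemma J_right (x b : A) : ‖τ.J (x * b)‖ ≤ 4 * ‖b‖ * ‖τ.J x‖ := by
  have h1 := τ.J_star (x * b)
  have h2 := τ.J_left (star b) (star x)
  have h3 := τ.J_star (star x)
  rw [star_mul] at h1
  rw [norm_star] at h2
  rw [star_star] at h3
  nlinarith [norm_nonneg b]

lemma J_inner (a x y : A) : ⟪τ.J y, τ.J (a * x)⟫_ℂ = ⟪τ.J (star a * y), τ.J x⟫_ℂ := by
  rw [J_mul, J_mul, map_star, inner_star_l]

lemma J_z (hz : CP z) (a b : A) : τ.J (a * z * b) = τ.J (a * b) := by
  rw [hz.comm, mul_assoc, J_mul, τ.πz, one_apply_eq_self]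

lemma col {ι : Type*} [Fintype ι] {d : ι → A} {r : ℝ} (hr : 0 ≤ r)
    (h : ‖∑ i, star (d i) * d i‖ ≤ r ^ 2) (ψ : G) : nn (fun i => τ.π (d i) ψ) ≤ r * ‖ψ‖ :=
  nn_le (by positivity) (by
    have := qf_le (τ.π (∑ i, star (d i) * d i)) ψ
    rw [map_sum, qf_sum, ← map_sum] at this
    simp only [normsq_eq, ← map_star, ← map_mul]
    rw [mul_pow]
    exact this.trans (by gcongr; exact (τ.πle _).trans h))

lemma J_sum {ι : Type*} [Fintype ι] (c : ι → A) {d : ι → A} {r : ℝ} (hr : 0 ≤ r)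
    (h : ‖∑ i, star (d i) * d i‖ ≤ r ^ 2) :
    ‖τ.J (∑ i, c i * d i)‖ ≤ 4 * r * nn fun i => τ.J (c i) := by
  have h1 := τ.J_star (∑ i, c i * d i)
  have h2 : ‖τ.J (star (∑ i, c i * d i))‖ ≤ r * nn fun i => τ.J (star (c i)) :=
    norm_le_of_inner (mul_nonneg hr (nn_nonneg _)) fun ψ => by
      simp only [star_sum, star_mul, map_sum, J_mul, inner_sum, map_star, inner_star_r]
      refine (nn_inner _ _).trans ?_
      have := τ.col hr h ψ
      have := nn_nonneg fun i => τ.J (star (c i))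
      nlinarith
  have h3 := nn_mono (x := fun i => τ.J (star (c i))) (y := fun i => τ.J (c i)) zero_le_two
    fun i => by simpa using τ.J_star (star (c i))
  nlinarith

end TR

section
variable {ι : Type} [Fintype ι] [DecidableEq ι] {E : ι → ι → A}

def EE (E : ι → ι → A) : Set A := Set.range fun p : ι × ι => E p.1 p.2

lemma MU.EE_star (hE : MU E z) : ∀ a ∈ EE E, star a ∈ EE E := by
  rintro _ ⟨p, rfl⟩; exact ⟨p.swap, (hE.st _ _).symm⟩

omit [Fintype ι] [DecidableEq ι] in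
lemma Cm.ee {q : A} (h : Cm (EE E) q) (a b : ι) : q * E a b = E a b * q := h _ ⟨(a, b), rfl⟩

lemma MU.proj (hE : MU E z) (a : ι) : IsStarProjection (E a a) :=
  ⟨by rw [IsIdempotentElem, hE.mul, if_pos rfl], hE.st a a⟩

lemma norm_of_sq {x p : A} (hp : IsStarProjection p) {r : ℝ} (hr : 0 ≤ r)
    (h : star x * x = (r : ℂ) • p) : ‖x‖ ≤ √r := by
  refine Real.le_sqrt_of_sq_le ?_
  rw [sq, ← CStarRing.norm_star_mul_self, h, norm_smul, Complex.norm_real, Real.norm_of_nonneg hr]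
  exact mul_le_of_le_one_right hr hp.norm_le

omit [Fintype ι] in
lemma sg_mm (ε : ι → Bool) (i j : ι) (x y : ℂ) :
    sg ε i * x * (sg ε j * y) = sg ε i * sg ε j * (x * y) := by ring

lemma schur [AddCommGroup ι] (τ : TR R G z) (hE : MU E z) {S : W R} (hS : ∀ a b, Mo S (E a b))
    {I K : Type} [Fintype I] [DecidableEq I] [Fintype K] [DecidableEq K]
    (hI : Fintype.card I ≤ Fintype.card ι) (hK : Fintype.card K ≤ Fintype.card ι)
    {g : I → A} {h : K → A} (hg : ∀ i, g i ∈ unitary A ∧ Cm (EE E) (g i))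
    (hh : ∀ j, h j ∈ unitary A ∧ Cm (EE E) (h j)) (α : I → K → ℝ) (s : I → ℝ)
    (hα : ∀ i i', ∑ j, α i j * α i' j = if i = i' then 1 else 0) {a y : A} (ha : ‖a‖ ≤ 1)
    (hy : ‖y‖ ≤ 1) :
    ‖∑ i, ∑ j, (α i j * s i : ℂ) * ⟪τ.J y, τ.J (S.f (a * star (h j * star (g i))) *
      (h j * star (g i)))⟫_ℂ‖ ≤ 16 * ‖S.f‖ * √(Fintype.card K) * √(∑ i, s i ^ 2) := by
  obtain ⟨e⟩ := Function.Embedding.nonempty_of_card_le hI
  obtain ⟨e'⟩ := Function.Embedding.nonempty_of_card_le hK
  have D0 : (0 : ℝ) < Fintype.card ι := by exact_mod_cast Fintype.card_pos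
  obtain ⟨o, -, ho⟩ : ∃ o ∈ (univ : Finset ι), ‖τ.J (E o o)‖ ^ 2 ≤ (Fintype.card ι : ℝ)⁻¹ := by
    refine exists_le_of_sum_le univ_nonempty ?_
    simp only [τ.J_apply, normsq_eq, ← map_star, ← map_mul, hE.st, hE.mul, if_true]
    rw [← Complex.re_sum, ← inner_sum, ← _root_.sum_apply, ← map_sum, hE.sum, τ.πz,
      one_apply_eq_self, inner_self_re]
    simpa [D0.ne'] using τ.ζ1
  have gE := fun i => (hg i).2.ee
  have hE' := fun j => (hh j).2.ee
  have gE' := fun i => ((hg i).2.st hE.EE_star).ee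
  have hE'' := fun j => ((hh j).2.st hE.EE_star).ee
  let c : A := ∑ j, h j * E (e' j) o
  have c1 : ‖c‖ ≤ √(Fintype.card K) := norm_of_sq (hE.proj o) (by positivity) (by
    simp only [c, star_sum, sum_mul, mul_sum, star_mul, hE.st, mul_assoc, hE', ← mul_assoc (star _),
      hE'']
    simp only [← mul_assoc, hE.mul, e'.injective.eq_iff]
    simp [mul_assoc, fun j => (hh j).1.1, Nat.cast_smul_eq_nsmul])
  have key : ∀ (σ : ι) (ε : I → Bool), ‖⟪τ.J y, τ.J (S.f (a * ∑ i, ∑ j, (sg ε i * α i j : ℂ) •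
      (g i * star (h j) * E (e i + σ) (e' j))) * c *
      ∑ i, (sg ε i * s i : ℂ) • (E o (e i + σ) * star (g i)))⟫_ℂ‖ ≤
      (Fintype.card ι : ℝ)⁻¹ * (16 * ‖S.f‖ * √(Fintype.card K) * √(∑ i, s i ^ 2)) := by
    intro σ ε
    set X := ∑ i, ∑ j, (sg ε i * α i j : ℂ) • (g i * star (h j) * E (e i + σ) (e' j)) with hX
    set ρ := ∑ i, (sg ε i * s i : ℂ) • (E o (e i + σ) * star (g i)) with hρ
    have X1 : ‖X‖ ≤ 1 := by
      have p1 : IsStarProjection (∑ i, E (e i + σ) (e i + σ)) :=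
        ⟨by simp [IsIdempotentElem, sum_mul, mul_sum, hE.mul],
          by simp [IsSelfAdjoint, star_sum, hE.st]⟩
      have := norm_of_sq (x := star X) p1 zero_le_one (by
        have k : ∀ i i' j j', g i * star (h j) * E (e i + σ) (e' j) *
            star (g i' * star (h j') * E (e i' + σ) (e' j')) =
            if j = j' then g i * star (g i') * E (e i + σ) (e i' + σ) else 0 := by
          intro i i' j j'
          simp only [star_mul, star_star, hE.st, ← mul_assoc, mul_assoc _ (E _ _) (E _ _), hE.mul,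
            e'.injective.eq_iff]
          split_ifs with hj
          · subst hj
            rw [mul_assoc _ (E _ _), ← hE', ← mul_assoc, mul_assoc (g i), (hh j).1.1, mul_one,
              mul_assoc, ← gE', mul_assoc]
          · simp
        simp only [hX, star_star, star_sum, sum_mul, mul_sum, star_smul, smul_mul_smul_comm, k,
          smul_ite, smul_zero, sum_ite_eq', mem_univ, if_true, star_mul', sg_star,
          Complex.star_def, Complex.conj_ofReal, Complex.ofReal_one, one_smul]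
        refine sum_congr rfl fun i _ => ?_
        rw [sum_comm]
        simp only [sg_mm, ← sum_smul, ← mul_sum, ← Complex.ofReal_mul,
          ← Complex.ofReal_sum, hα]
        simp [apply_ite, sg_sq, (hg i).1.2])
      simpa using this
    have ρ1 : ‖ρ‖ ≤ √(∑ i, s i ^ 2) := by
      have := norm_of_sq (x := star ρ) (r := ∑ i, s i ^ 2) (hE.proj o) (by positivity) (by
        have k : ∀ i i', E o (e i + σ) * star (g i) * star (E o (e i' + σ) * star (g i')) =
            if i = i' then E o o else 0 := by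
          intro i i'
          rw [star_mul, star_star, hE.st, gE, mul_assoc, ← mul_assoc (star _), gE', ← mul_assoc,
            ← mul_assoc, hE.mul]
          split_ifs <;> simp_all [mul_assoc, (hg i').1.1]
        simp only [hρ, star_star, star_sum, sum_mul, mul_sum, star_smul, smul_mul_smul_comm, k,
          smul_ite, smul_zero, sum_ite_eq', mem_univ, if_true, star_mul', sg_star,
          Complex.star_def, Complex.conj_ofReal, sg_mm, sg_sq, ← sum_smul]
        simp [sq])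
      simpa using this
    have e1 : c * ρ = c * E o o * (E o o * ρ) := by
      simp only [c, hρ, sum_mul, mul_sum, mul_smul_comm, mul_assoc, ← mul_assoc (E _ _) (E _ _),
        hE.mul, if_true]
    rw [mul_assoc, e1, ← mul_assoc, τ.J_inner, ← mul_assoc, star_mul, hE.st, mul_assoc]
    have b1 : ‖star (S.f (a * X) * c) * y‖ ≤ ‖S.f‖ * √(Fintype.card K) := mul1 (by
      rw [norm_star]
      exact (norm_mul_le _ _).trans (mul_le_mul ((S.f.le_opNorm _).trans (mul_le_of_le_one_right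
        (norm_nonneg _) (mul1 ha X1))) c1 (norm_nonneg _) (norm_nonneg _))) hy
    refine (norm_inner_le_norm _ _).trans ((mul_le_mul (τ.J_right _ _) (τ.J_right _ _)
      (norm_nonneg _) (by positivity)).trans ?_)
    calc _ = 16 * ‖star (S.f (a * X) * c) * y‖ * ‖ρ‖ * ‖τ.J (E o o)‖ ^ 2 := by ring
      _ ≤ 16 * (‖S.f‖ * √(Fintype.card K)) * √(∑ i, s i ^ 2) * (Fintype.card ι : ℝ)⁻¹ := by gcongr
      _ = _ := by ring
  have k2 : ∀ σ : ι, ‖∑ i, ∑ j, (α i j * s i : ℂ) * ⟪τ.J y, τ.J (S.f (a * star (h j * star (g i))) *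
      E (e i + σ) (e i + σ) * (h j * star (g i)))⟫_ℂ‖ ≤
      (Fintype.card ι : ℝ)⁻¹ * (16 * ‖S.f‖ * √(Fintype.card K) * √(∑ i, s i ^ 2)) := fun σ => by
    rw [← sg_avg fun i i' => ∑ j, (α i j * s i' : ℂ) * ⟪τ.J y, τ.J (S.f (a * star (h j *
      star (g i))) * E (e i + σ) (e i' + σ) * (h j * star (g i')))⟫_ℂ]
    refine avg_le fun ε => le_of_eq_of_le (congrArg _ ?_) (key σ ε)
    have k : ∀ i j, S.f (a * (g i * star (h j) * E (e i + σ) (e' j))) * c =
        S.f (a * (g i * star (h j))) * h j * E (e i + σ) o := fun i j => by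
      rw [← mul_assoc a, hS]
      simp only [c, mul_sum, mul_assoc _ (E _ _), ← mul_assoc (E _ _), ← hE']
      simp [mul_assoc, hE.mul]
    simp only [mul_sum, mul_smul_comm, map_sum, map_smul, sum_mul, smul_mul_assoc, k, inner_sum,
      inner_smul_right, smul_eq_mul, star_mul, star_star]
    rw [sum_comm]
    refine sum_congr rfl fun i' _ => sum_congr rfl fun i _ => sum_congr rfl fun j _ => ?_
    rw [mul_assoc _ (E _ o), ← mul_assoc (E _ o), hE.mul, if_pos rfl, mul_assoc _ (E _ _),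
      ← mul_assoc (E _ _), ← hE']
    simp only [mul_assoc]
    ring
  refine le_of_eq_of_le (congrArg _ ?_) ((norm_sum_le_of_le univ fun σ _ => k2 σ).trans_eq
    (by simp [← mul_assoc, D0.ne']))
  symm
  rw [sum_comm]
  refine sum_congr rfl fun i _ => ?_
  rw [sum_comm]
  refine sum_congr rfl fun j _ => ?_
  rw [← mul_sum, ← inner_sum, ← map_sum, ← sum_mul, ← mul_sum,
    show ∑ σ, E (e i + σ) (e i + σ) = z from
      (Equiv.sum_comp (Equiv.addLeft (e i)) fun i => E i i).trans hE.sum, τ.J_z hE.cp]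

end

end Vale.Agent.P082
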