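import Vale.Agent.P082.CB

open Finset Vale.Agent.P104
open scoped InnerProductSpace

set_option linter.unusedSectionVars false

namespace Vale.Agent.P082

universe u

variable {A H : Type u} [CStarAlgebra A] [NormedAddCommGroup H] [InnerProductSpace ℂ H]
  [CompleteSpace H] {R : VN A H}

lemma sg_avg {κ X : Type*} [Fintype κ] [DecidableEq κ] [AddCommGroup X] [Module ℂ X]
    (c : κ → κ → X) : (Fintype.card (κ → Bool) : ℂ)⁻¹ •
      ∑ s, ∑ i, ∑ j, (sg s i * sg s j) • c i j = ∑ i, c i i := by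
  have : (Fintype.card (κ → Bool) : ℂ) ≠ 0 := by exact_mod_cast Fintype.card_ne_zero
  rw [sg_sum, smul_smul, inv_mul_cancel₀ this, one_smul]

lemma sum_rev3 {α β γ X : Type*} [Fintype α] [Fintype β] [Fintype γ] [AddCommMonoid X]
    (f : α → β → γ → X) : ∑ a, ∑ b, ∑ c, f a b c = ∑ c, ∑ b, ∑ a, f a b c := by
  rw [sum_comm_cycle]; exact sum_congr rfl fun _ _ => sum_comm

lemma sum_22 {α β γ δ X : Type*} [Fintype α] [Fintype β] [Fintype γ] [Fintype δ] [AddCommMonoid X]
    (f : α → β → γ → δ → X) : ∑ a, ∑ b, ∑ c, ∑ d, f a b c d = ∑ c, ∑ d, ∑ a, ∑ b, f a b c d := by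
  calc _ = ∑ a, ∑ c, ∑ d, ∑ b, f a b c d := sum_congr rfl fun a _ =>
        sum_comm.trans (sum_congr rfl fun c _ => sum_comm)
    _ = _ := sum_comm.trans (sum_congr rfl fun c _ => sum_comm)

section
variable {m k ι : Type} [Fintype m] [Fintype k] [Fintype ι] [DecidableEq m] [DecidableEq k]
  [DecidableEq ι] {z : A}

def Iso (z : A) (U : m → A) : Prop := ∀ i j, star (U i) * U j = if i = j then z else 0

lemma Iso.uz {U : m → A} (h : Iso z U) (hz : IsStarProjection z) (i : m) : U i * z = U i := by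
  have h1 := h i i
  rw [if_pos rfl] at h1
  have : star (U i * z - U i) * (U i * z - U i) = 0 := by
    simp only [star_sub, star_mul, hz.isSelfAdjoint.star_eq, sub_mul, mul_sub, mul_assoc, ← mul_assoc (star (U i)), h1,
      hz.isIdempotentElem.eq, sub_self]
  exact sub_eq_zero.1 ((CStarRing.star_mul_self_eq_zero_iff _).1 this)

lemma Iso.zu {U : m → A} (h : Iso z U) (hz : IsStarProjection z) (i : m) : z * star (U i) = star (U i) := by
  simpa [hz.isSelfAdjoint.star_eq] using congrArg star (h.uz hz i)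

lemma Iso.col {U : m → A} (h : Iso z U) (hz : IsStarProjection z) : Col R fun i => star (U i) := by
  refine Col.of (IsStarProjection.norm_le _ ⟨?_, by simp [IsSelfAdjoint, star_sum]⟩)
  simp [IsIdempotentElem, sum_mul, mul_sum, mul_assoc, ← mul_assoc (star (U _)), h _ _, h.zu hz]

lemma Iso.row {U : m → A} (h : Iso z U) (hz : IsStarProjection z) (η : m → H) :
    ‖∑ i, R.ρ (U i) (η i)‖ ≤ nn η := by simpa using (h.col hz).row η

lemma Iso.le1 {U : m → A} (h : Iso z U) (hz : IsStarProjection z) (i : m) : ‖U i‖ ≤ 1 := by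
  have := hz.norm_le
  rw [← (if_pos rfl : (if i = i then z else 0) = z), ← h, CStarRing.norm_star_mul_self] at this
  nlinarith [norm_nonneg (U i)]

lemma Iso.amp (R : VN A H) {U : m → A} (h : Iso z U) (hz : IsStarProjection z) (a : A) :
    ‖∑ l, U l * a * star (U l)‖ ≤ ‖a‖ := by
  rw [← R.nrm]
  refine ContinuousLinearMap.opNorm_le_bound _ (norm_nonneg _) fun ξ => ?_
  have := (h.row (R := R) hz _).trans ((nn_mono (x := fun l => R.ρ a (R.ρ (star (U l)) ξ))
    (norm_nonneg a) fun l => ((R.ρ a).le_opNorm _).trans_eq (by rw [R.nrm])).trans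
    (mul_le_mul_of_nonneg_left (h.col hz ξ) (norm_nonneg _)))
  simpa only [map_sum, map_mul, _root_.sum_apply, mul_apply_eq_comp] using this

lemma Iso.sg {U : m → A} (h : Iso z U) (s : m → Bool) : Iso z fun i => sg s i • U i := fun i j => by
  rw [star_smul, smul_mul_smul_comm, h, sg_star]
  split_ifs with e
  · rw [e, sg_sq, one_smul]
  · rw [smul_zero]

lemma Iso.comp {U : ι → A} (h : Iso z U) {f : m → ι} (hf : Function.Injective f) :
    Iso z fun i => U (f i) := fun i j => by simp only [h _ _, hf.eq_iff]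

lemma lam_core (hz : IsStarProjection z) {U : m → A} {U' : k → A} (h : Iso z U) (h' : Iso z U') {X : m → k → A}
    (hX : Con R X) (T : A →L[ℂ] A) (ξ : k → H) (η : m → H) :
    ‖∑ l, ∑ p, ⟪η l, R.ρ (star (U l) * T (U l * X l p * star (U' p)) * U' p) (ξ p)⟫_ℂ‖ ≤
      ‖T‖ * nn ξ * nn η := by
  have a1 : ∀ {U : m → A} {U' : k → A}, Iso z U → Iso z U' →
      ‖R.ρ (T (∑ l, ∑ p, U l * X l p * star (U' p))) (∑ p, R.ρ (U' p) (ξ p))‖ ≤ ‖T‖ * nn ξ :=
    fun {U U'} h h' => by
      refine (ContinuousLinearMap.le_opNorm _ _).trans (mul_le_mul ?_ (h'.row hz ξ)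
        (norm_nonneg _) (norm_nonneg _))
      rw [R.nrm]
      refine (T.le_opNorm _).trans (mul_le_of_le_one_right (norm_nonneg _) ?_)
      rw [← R.nrm]
      refine ContinuousLinearMap.opNorm_le_bound _ zero_le_one fun x => ?_
      have := (h.row (R := R) hz _).trans ((hX fun p => R.ρ (star (U' p)) x).trans (h'.col hz x))
      simpa only [ap, map_sum, map_mul, _root_.sum_apply, mul_apply_eq_comp, one_mul] using this
  have a2 : ∀ {U : m → A}, Iso z U →
      ‖∑ p, R.ρ (T (∑ l, U l * X l p * star (U' p))) (R.ρ (U' p) (ξ p))‖ ≤ ‖T‖ * nn ξ :=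
    fun {U} h => by
      rw [← sg_avg fun p p' => R.ρ (T (∑ l, U l * X l p' * star (U' p'))) (R.ρ (U' p) (ξ p))]
      refine avg_le fun s => le_of_eq_of_le (congrArg _ ?_) (a1 h (h'.sg s))
      rw [sum_comm (s := (univ : Finset m))]
      simp only [star_smul, sg_star, mul_smul_comm, ← smul_sum, map_sum T (s := (univ : Finset k)),
        map_smul, map_sum R.ρ, map_sum (_ : Op H), _root_.sum_apply, smul_apply]
      simp only [smul_sum, smul_smul]
  rw [← sg_avg fun l l' => ∑ p, ⟪η l, R.ρ (star (U l) * T (U l' * X l' p * star (U' p)) * U' p)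
    (ξ p)⟫_ℂ]
  refine avg_le fun s => le_of_eq_of_le (congrArg _ ?_) ((norm_inner_le_norm
    (∑ l, R.ρ (sg s l • U l) (η l)) _).trans ((mul_le_mul ((h.sg s).row hz η) (a2 (h.sg s))
      (norm_nonneg _) (nn_nonneg _)).trans_eq (mul_comm _ _)))
  simp only [sum_inner, inner_sum, smul_mul_assoc, map_sum, map_smul, map_mul, map_star,
    _root_.sum_apply, smul_apply, inner_smul_left, inner_smul_right, mul_apply_eq_comp,
    inner_star_r, sg_conj, smul_eq_mul, mul_sum]
  rw [sum_rev3]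
  simp only [mul_assoc, mul_left_comm (sg s _) (sg s _)]

noncomputable def lam (V : ι → A) (T : A →L[ℂ] A) : A →L[ℂ] A :=
  (Fintype.card ι : ℂ)⁻¹ • ∑ i, (Fintype.card ι : ℂ)⁻¹ • ∑ j,
    ContinuousLinearMap.mulLeftRight ℂ A (star (V i)) (V j) ∘L T ∘L
      ContinuousLinearMap.mulLeftRight ℂ A (V i) (star (V j))

lemma lam_apply (V : ι → A) (T : A →L[ℂ] A) (x : A) : lam V T x =
    (Fintype.card ι : ℂ)⁻¹ • ∑ i, (Fintype.card ι : ℂ)⁻¹ • ∑ j,
      star (V i) * T (V i * x * star (V j)) * V j := by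
  simp [lam]

end

lemma lam_bd {ι : Type} [Fintype ι] [DecidableEq ι] [AddCommGroup ι] {z : A} (hz : CP z)
    {V : ι → A} (h : Iso z V) (T : A →L[ℂ] A) :
    BdL (R := R) (Fintype.card ι) 1 ‖T‖ ⟨lam V T⟩ := by
  classical
  intro m k _ _ hm hk X hX ξ _
  obtain ⟨e⟩ := Function.Embedding.nonempty_of_card_le hm
  obtain ⟨e'⟩ := Function.Embedding.nonempty_of_card_le hk
  refine nn_of_inner (mul_nonneg (norm_nonneg _) (nn_nonneg _)) fun η => ?_
  refine le_of_eq_of_le (congrArg _ ?_) (avg_le fun s => avg_le fun s' => lam_core hz.proj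
    (h.comp ((add_left_injective s).comp e.injective))
    (h.comp ((add_left_injective s').comp e'.injective)) hX T ξ η)
  have k : ∀ (c : ι) (f : ι → ℂ), ∑ s, f (c + s) = ∑ s, f s := fun c f =>
    Equiv.sum_comp (Equiv.addLeft c) f
  simp only [ap, lam_apply, map_smul, map_sum, smul_apply, _root_.sum_apply, inner_sum,
    inner_smul_right, smul_eq_mul, mul_sum, Function.comp_apply]
  rw [sum_22, eq_comm, sum_22, eq_comm, sum_22]
  refine sum_congr rfl fun l _ => sum_congr rfl fun p _ => ?_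
  rw [← k (e l)]
  exact sum_congr rfl fun s _ => (k (e' p) _).symm

lemma BdL.add {L : ℕ} {r : ℝ} {T : A →L[ℂ] A} (h : BdL (R := R) L 1 r ⟨T⟩) (b : A) :
    BdL (R := R) L 1 (r + ‖b‖) ⟨T + ContinuousLinearMap.mul ℂ A b⟩ := by
  intro m k _ _ hm hk X hX ξ hξ
  have : ap R (fun l j => (T + ContinuousLinearMap.mul ℂ A b) (X l j)) ξ = fun l =>
      ap R (fun l j => T (X l j)) ξ l + R.ρ b (ap R X ξ l) := by
    funext l; simp [ap, sum_add_distrib]
  rw [this, add_mul]
  refine (nn_add _ _).trans (add_le_add (h m k hm hk X hX ξ hξ) ((nn_mono (norm_nonneg b)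
    fun l => ((R.ρ b).le_opNorm _).trans_eq (by rw [R.nrm])).trans ?_))
  gcongr; exact hX ξ

lemma BdL.mono {L L' : ℕ} {z : A} {r r' : ℝ} {S : W R} (h : BdL L z r S) (hL : L' ≤ L)
    (hr : r ≤ r') : BdL L' z r' S := fun m k _ _ hm hk X hX ξ hξ =>
  (h m k (hm.trans hL) (hk.trans hL) X hX ξ hξ).trans (by gcongr; exact nn_nonneg _)

lemma BdL.norm {L : ℕ} (hL : 1 ≤ L) {r : ℝ} (hr : 0 ≤ r) {S : W R} (h : BdL L 1 r S) :
    ‖S.f‖ ≤ r :=
  ContinuousLinearMap.opNorm_le_of_unit_norm hr fun x hx => by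
    rw [← R.nrm]
    refine ContinuousLinearMap.opNorm_le_bound _ hr fun ξ => ?_
    simpa only [nn_unit, ap, Fintype.sum_unique] using h Unit Unit (by simpa) (by simpa) _
      (Con.unit hx.le) (fun _ => ξ) (by simp)

variable {n : ℕ}

lemma typeA_L {φ : CM A (n + 1) A} (hφ : ∀ a, dA φ a = 0) {z : A} (hz : CP z) {ι : Type}
    [Fintype ι] [DecidableEq ι] [AddCommGroup ι] {V : ι → A} (h : Iso z V) :
    ∃ Ψ : (Fin n → A) → W R, ML ((n + 2) * ‖φ‖) Ψ ∧ Coc (fun a => z * φ a) Ψ ∧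
      ∀ a, BdL (Fintype.card ι) 1 ((n + 2) * ‖φ‖ * ∏ i, ‖a i‖) (Ψ a) := by
  let γ : A →L[ℂ] A := ∑ l, ContinuousLinearMap.mulLeftRight ℂ A (V l) (star (V l))
  have γa : ∀ a, γ a = ∑ l, V l * a * star (V l) := fun a => by simp [γ]
  have g1 : ∀ a i, γ a * V i = V i * a := fun a i => by
    simp [γa, sum_mul, mul_assoc, h _ _, hz.comm a, ← mul_assoc (V i), h.uz hz.proj]
  have g2 : ∀ a i, star (V i) * γ a = a * star (V i) := fun a i => by
    simp [γa, mul_sum, ← mul_assoc, h _ _, ← hz.comm a, mul_assoc a, h.zu hz.proj]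
  have g3 : ∀ a b, γ (a * b) = γ a * γ b := fun a b => by
    simp only [γa b, mul_sum, ← mul_assoc, g1, γa (a * b)]
  have g4 : ‖γ‖ ≤ 1 := ContinuousLinearMap.opNorm_le_bound _ zero_le_one fun a => by
    rw [γa, one_mul]; exact h.amp R hz.proj a
  choose g hg1 hg2 using fun i => homot g3 g4 (h.le1 hz.proj i) (fun a => g1 a i) n A
    (ContinuousLinearMap.mul ℂ A) (ContinuousLinearMap.mul ℂ A) φ hφ
  simp only [dd, ContinuousLinearMap.mul_apply'] at hg2
  let b : (Fin n → A) → A := fun a =>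
    (Fintype.card ι : ℂ)⁻¹ • ∑ i, -(-1 : ℂ) ^ (n + 1) • (star (V i) * g i a)
  have bd : ∀ a, BdL (R := R) (Fintype.card ι) 1 ((n + 2) * ‖φ‖ * ∏ i, ‖a i‖)
      ⟨lam V (pull γ (cur φ) a) + ContinuousLinearMap.mul ℂ A (b a)⟩ := fun a => by
    refine ((lam_bd hz h _).add _).mono le_rfl ?_
    have b1 := (pull γ (cur φ)).le_of_opNorm_le ((norm_pull g4 _).trans (norm_cur φ).le) a
    have b2 : ‖b a‖ ≤ (n + 1) * ‖φ‖ * ∏ i, ‖a i‖ := avg_le fun i => by
      rw [norm_smul, norm_neg, norm_pow, norm_neg, norm_one, one_pow, one_mul]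
      exact mul1' (by rw [norm_star]; exact h.le1 hz.proj i) ((g i).le_of_opNorm_le (hg1 i) a)
    linarith
  refine ⟨_, ⟨fun a i x y t => ?_, fun a i c x t => ?_, fun a =>
    (bd a).norm Fintype.card_pos (by positivity)⟩, fun a x => ?_, bd⟩
  · simp only [b, add_apply, lam_apply, ContinuousMultilinearMap.map_update_add, mul_add, add_mul,
      sum_add_distrib, smul_add, ContinuousLinearMap.mul_apply']
    abel
  · simp only [b, add_apply, lam_apply, ContinuousMultilinearMap.map_update_smul, mul_smul_comm,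
      smul_mul_assoc, smul_add, ContinuousLinearMap.mul_apply', smul_apply, smul_comm _ c,
      ← smul_sum]
  · have e0 : ∀ y : A, y = (Fintype.card ι : ℂ)⁻¹ • ∑ _i : ι, y := fun y => (avg_const y).symm
    have e1 : ∀ a x, (lam V (pull γ (cur φ) a) + ContinuousLinearMap.mul ℂ A (b a)) x =
        (Fintype.card ι : ℂ)⁻¹ • ∑ i, (Fintype.card ι : ℂ)⁻¹ • ∑ j,
        (star (V i) * φ (sn (fun i => γ (a i)) (V i * x * star (V j))) * V j -
          (-1 : ℂ) ^ (n + 1) • (star (V i) * g i a * x)) := fun a x => by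
      simp only [b, add_apply, lam_apply, ContinuousLinearMap.mul_apply', pull_apply, cur_apply,
        avg_const, smul_mul_assoc, sum_mul, neg_smul, neg_mul,
        sum_neg_distrib, smul_neg, sub_eq_add_neg, smul_add, sum_add_distrib]
    rw [e0 (_ • (z * φ a * x)), ]
    simp only [e1, mid_smul, mid_sum, mul_smul_comm, mul_sum, smul_comm _ (Fintype.card ι : ℂ)⁻¹,
      smul_sum (r := (-1 : ℂ) ^ (n + 1)), ← smul_add, ← sum_add_distrib]
    refine congrArg _ (sum_congr rfl fun i _ => ?_)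
    rw [e0 (_ • (z * φ a * x))]
    refine congrArg _ (sum_congr rfl fun j _ => ?_)
    have c1 := congrArg (star (V i) * · * V j)
      (coc_cur (R := R) hφ (fun i => γ (a i)) (V i * x * star (V j)))
    have c2 := congrArg (fun y => (-1 : ℂ) ^ (n + 1) • (star (V i) * y * x)) (hg2 i a)
    have e6 : Fin.tail (fun i => γ (a i)) = fun i => γ (Fin.tail a i) := rfl
    have e7 : Fin.init (fun i => γ (a i)) = fun i => γ (Fin.init a i) := rfl
    have e8 : ∀ y, y * V i * x * star (V j) * V j = y * V i * x := fun y => by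
      rw [mul_assoc, h, if_pos rfl, mul_assoc, hz.comm, ← mul_assoc, mul_assoc y, h.uz hz.proj]
    have e9 : star (V i) * V i = z := by rw [h, if_pos rfl]
    simp only [cur_apply, mid_comp γ g3, e6, e7, mul_add, add_mul, ← mid_mul, mul_smul_comm,
      smul_mul_assoc, ← mul_assoc, g1, g2, mul_sub, sub_mul, e9, smul_add, smul_sub,
      e8] at c1 c2
    simp only [sub_eq_add_neg, ← neg_smul, mid_add, mid_smul, mul_add, mul_smul_comm, smul_add,
      ← mul_assoc]
    linear_combination (norm := module) c1 - c2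

theorem typeA (R : VN A H) {φ : CM A (n + 1) A} (hφ : ∀ a, dA φ a = 0) {z V1 V2 : A} (hz : CP z)
    (h1 : star V1 * V1 = z) (h2 : star V2 * V2 = z) (h0 : star V1 * V2 = 0) :
    Good φ ((n + 2) * ‖φ‖) z := by
  have z1 : z * V1 = V1 := by
    rw [← hz.comm]; exact Iso.uz (U := fun _ : Unit => V1) (fun _ _ => by simp [h1]) hz.proj ()
  have zp : ∀ k, z * (V2 ^ k * V1) = V2 ^ k * V1 := fun k => by
    rw [← mul_assoc, ← hz.comm, mul_assoc, z1]
  have a1 : ∀ i k, star (V2 ^ i * V1) * (V2 ^ (i + k) * V1) = star V1 * (V2 ^ k * V1) := by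
    intro i k
    induction i with
    | zero => simp
    | succ i ih =>
      rw [← ih, show i + 1 + k = i + k + 1 by omega, pow_succ', pow_succ', mul_assoc V2,
        mul_assoc V2, star_mul, mul_assoc, ← mul_assoc (star V2), h2, zp]
  have a2 : ∀ i j, i < j → star (V2 ^ i * V1) * (V2 ^ j * V1) = 0 := fun i j h => by
    obtain ⟨k, rfl⟩ := Nat.exists_eq_add_of_lt h
    rw [add_assoc, a1, pow_succ', ← mul_assoc, ← mul_assoc, h0]; simp
  have iso : ∀ L : ℕ, Iso z fun i : ZMod (L + 1) => V2 ^ i.val * V1 := fun L i j => by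
    split_ifs with h
    · subst h; simpa [h1] using a1 i.val 0
    · rcases lt_or_gt_of_ne ((ZMod.val_injective _).ne h) with h | h
      · exact a2 _ _ h
      · simpa using congrArg star (a2 _ _ h)
  have C0 : 0 ≤ (n + 2) * ‖φ‖ := by positivity
  have C1 : ∀ a : Fin n → A, 0 ≤ (n + 2) * ‖φ‖ * ∏ i, ‖a i‖ := fun a => by positivity
  let t : ℕ → Set ((Fin n → A) → W R) := fun L =>
    {Ψ | ∀ a, BdL L 1 ((n + 2) * ‖φ‖ * ∏ i, ‖a i‖) (Ψ a)}
  have t1 : ∀ L, IsClosed (t L) := fun L => by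
    simp only [t, Set.ofPred_forall]
    exact isClosed_iInter fun a => IsClosed.preimage (f := fun Ψ : (Fin n → A) → W R => Ψ a)
      (continuous_apply a) (BdL.closed L 1 (C1 a))
  have c0 := (ML.cpt (R := R) (n := n) C0).inter_right (Coc.closed fun a => z * φ a)
  refine good_of C0 hz (φ' := fun a => z * φ a) (fun a => by rw [← mul_assoc, hz.idem])
    (T := TK R) ⟨c0.inter_iInter_nonempty t t1 fun s => ?_, c0.inter_right (isClosed_iInter t1), ?_⟩
    (fun Ψ h => h.1) fun a K hK h => cb_thm hK (C1 a) (fun S hS L => ?_) z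
  · obtain ⟨Ψ, b1, b2, b3⟩ := typeA_L (R := R) hφ hz (iso (s.sup id))
    exact ⟨Ψ, ⟨b1, b2⟩, Set.mem_iInter₂.2 fun L hL a => (b3 a).mono (by
      rw [ZMod.card]; exact (le_sup (f := id) hL).trans (Nat.le_succ _)) le_rfl⟩
  · rintro _ ⟨T, hT, rfl⟩ Ψ ⟨⟨b1, b2⟩, b3⟩
    have b4 : ∀ a, Bd 1 _ (T (Ψ a)) := fun a => Bd.map ⟨IsStarProjection.one _, by simp⟩ (C1 a)
      (fun L => Set.mem_iInter.1 b3 L a) hT
    exact ⟨⟨ML.map b1 (TK_sub hT) fun a => (b4 a).norm (C1 a), Coc.map b2 (TK_sub hT)⟩,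
      Set.mem_iInter.2 fun L a => b4 a L⟩
  · obtain ⟨Ψ, b, rfl⟩ := h S hS
    exact Set.mem_iInter.1 b.2 L a

end Vale.Agent.P082
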