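import Vale.Agent.P082.StepD
import Vale.Agent.P082.Trace
import Vale.Agent.P104.Fam

open Finset Vale.Agent.P104
open scoped InnerProductSpace

set_option linter.unusedSectionVars false

namespace Vale.Agent.P082

universe u

variable {A H : Type u} [CStarAlgebra A] [NormedAddCommGroup H] [InnerProductSpace ℂ H]
  [CompleteSpace H] {G : Type*} [NormedAddCommGroup G] [InnerProductSpace ℂ G] [CompleteSpace G]
  {R : VN A H} {z : A} {ι : Type} [Fintype ι] [DecidableEq ι] {E : ι → ι → A}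

lemma SU.jump {F : Type} [CStarAlgebra F] [FiniteDimensional ℂ F] (V : SU F E z) [Nonempty ι]
    (τ : TR R G z) (hE : MU E z) {S : W R} (hS : ∀ a b, Mo S (E a b)) (hz : Mo S (1 - z))
    {ε C : ℝ} (ε0 : 0 ≤ ε) (hε : AM τ E S ε) (hC : ‖S.f‖ ≤ C) {X y a b : A} (hX : X ∈ unitary A)
    (hy : ‖y‖ ≤ 1) (ha : ‖a‖ ≤ 1) (hb : ‖b‖ ≤ 1) {d m : ℕ} (hm : 2 ^ d ≤ m) {δ : ℝ} (hδ : 0 < δ)
    (hD : (6 * m + 2) * (m ^ 2 + 1) ^ m ≤ δ ^ 2 * √(Fintype.card ι)) :
    d * (τ.β S y a b - τ.β S y (a * X) (star X * b) - 2 * (m * (8 * C * δ + 64 * ε))) ≤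
      4 * (C * 30) := by
  have uc := V.Uc
  let s := (range d).sigma fun j => range (2 ^ j)
  let f : ℕ → unitary F → ℝ := fun n v => τ.β S y (a * star ((X * V.U v) ^ (n + 1)))
    ((X * V.U v) ^ (n + 1) * b) - τ.β S y (a * (X * V.U v) ^ (n + 1))
    (star ((X * V.U v) ^ (n + 1)) * b)
  have c1 : ∀ n, Continuous fun v : unitary F => τ.β S y (a * star ((X * V.U v) ^ n))
    ((X * V.U v) ^ n * b) := fun n => SU.βc τ S y (by fun_prop) (by fun_prop)
  have c2 : ∀ n, Continuous fun v : unitary F => τ.β S y (a * (X * V.U v) ^ n)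
    (star ((X * V.U v) ^ n) * b) := fun n => SU.βc τ S y (by fun_prop) (by fun_prop)
  have fc : ∀ n, Continuous (f n) := fun n => (c1 _).sub (c2 _)
  have k1 : Ex (fun v => ∑ k ∈ s, ((2 ^ k.1 : ℕ) : ℝ)⁻¹ * f k.2 v) ≤ 4 * (C * 30) := by
    refine (Ex_mono (by fun_prop) continuous_const fun v => ?_).trans_eq (Ex_const _)
    refine le_trans (le_of_eq ?_) ((Complex.re_le_norm _).trans (τ.bz S hC s
      (fun k => ((2 ^ k.1 : ℕ) : ℂ)⁻¹) (fun k => k.2 + 1) (fun u hu => by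
        simpa only [s, sum_sigma, smul_sum] using poly3 hu d) (mul_mem hX (V.unit hE.cp v)) hy ha hb))
    rw [Complex.re_sum]
    refine sum_congr rfl fun k _ => ?_
    rw [← Complex.ofReal_natCast, ← Complex.ofReal_inv, Complex.re_ofReal_mul]; rfl
  have k2 : ∀ n, n + 1 ≤ m → τ.β S y a b - τ.β S y (a * X) (star X * b) -
      2 * (m * (8 * C * δ + 64 * ε)) ≤ Ex (f n) := fun n hn => by
    have h1 := abs_le.1 (V.stepB τ hE hS ε0 hε hC hX hy ha hb hn hδ hD)
    have h2 := abs_le.1 (V.stepB τ hE hS ε0 hε hC (Unitary.star_mem hX) hy (mul1 ha (unit1 hX))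
      (mul1' (unit1 (Unitary.star_mem hX)) hb) (Nat.le_of_succ_le hn) hδ hD)
    rw [← Ex_star] at h2
    have e : ∀ v : unitary F, τ.β S y (a * X * star ((star X * V.U (star v : unitary F)) ^ n))
        ((star X * V.U (star v : unitary F)) ^ n * (star X * b)) =
        τ.β S y (a * (X * V.U v) ^ (n + 1)) (star ((X * V.U v) ^ (n + 1)) * b) := fun v => by
      have e1 : (X * V.U v) ^ (n + 1) = X * (V.U v * X) ^ n * V.U v := by
        rw [← mul_pow_mul, pow_succ, mul_assoc]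
      rw [Unitary.coe_star, V.U_star hE.cp, ← star_mul, ← star_pow, star_star, e1, TR.β, TR.β,
        ← mul_assoc a, V.mo hS hz, star_mul, star_mul]
      simp only [mul_assoc, ← mul_assoc (V.U v) (star _), (V.unit hE.cp v).2, one_mul]
    simp only [e] at h2
    rw [SU.Ex_sub (c1 _) (c2 _)]
    linarith [h1.1, h2.2]
  rw [Ex_sum _ (by fun_prop)] at k1
  refine le_trans ?_ ((sum_le_sum fun k hk => ?_).trans k1 : ∑ k ∈ s, ((2 ^ k.1 : ℕ) : ℝ)⁻¹ *
    (τ.β S y a b - τ.β S y (a * X) (star X * b) - 2 * (m * (8 * C * δ + 64 * ε))) ≤ _)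
  · rw [← sum_mul]; simp [s, sum_sigma]
  · rw [Ex_mul]
    obtain ⟨h1, h2⟩ := mem_sigma.1 hk
    refine mul_le_mul_of_nonneg_left (k2 _ ?_) (by positivity)
    exact (mem_range.1 h2).trans_le ((Nat.pow_le_pow_right two_pos (mem_range.1 h1).le).trans hm)

theorem typeC0 (τ : TR R G z) (hz : CP z) {K : Set (W R)} (hK : Min (TU R Set.univ) K) {C : ℝ}
    (hC : ∀ S ∈ K, ‖S.f‖ ≤ C) (hU : ∀ k : ℕ, ∃ (ι : Type) (_ : Fintype ι) (_ : DecidableEq ι)
      (_ : AddCommGroup ι) (E : ι → ι → A), MU E z ∧ k ≤ Fintype.card ι) : ∀ S ∈ K, ZM z S := by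
  obtain ⟨S0, h0⟩ := hK.ne
  have C0 := (norm_nonneg _).trans (hC S0 h0)
  have key : ∀ t, 0 < t → ∀ S ∈ K, ∀ y a b X, ‖y‖ ≤ 1 → ‖a‖ ≤ 1 → ‖b‖ ≤ 1 → X ∈ unitary A →
      τ.β S y a b - τ.β S y (a * X) (star X * b) ≤ t := fun t ht => by
    refine hK.min {S | ∀ y a b X, ‖y‖ ≤ 1 → ‖a‖ ≤ 1 → ‖b‖ ≤ 1 → X ∈ unitary A →
      τ.β S y a b - τ.β S y (a * X) (star X * b) ≤ t} ?_ ?_ ?_
    · simp only [Set.ofPred_forall]
      repeat' first | refine isClosed_iInter fun _ => ?_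
      exact isClosed_le ((τ.β_cont _ _ _).sub (τ.β_cont _ _ _)) continuous_const
    · rintro _ ⟨κ, _, _, u, hu, rfl⟩ S - hS y a b X hy ha hb hX
      rw [τ.β_kr, τ.β_kr, ← mul_sub, ← sum_sub_distrib]
      refine avg_re fun i => ?_
      have h1 := (hu i).1
      have := hS y _ _ _ hy (mul1 ha (unit1 (Unitary.star_mem h1))) (mul1' (unit1 h1) hb)
        (mul_mem (mul_mem h1 hX) (Unitary.star_mem h1))
      simpa only [star_mul, star_star, mul_assoc, ← mul_assoc (star (u i)) (u i), h1.1,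
        one_mul] using this
    · obtain ⟨d, hd⟩ := exists_nat_gt (240 * C / t)
      rw [div_lt_iff₀ ht] at hd
      obtain ⟨m, hm⟩ : ∃ m : ℕ, 2 ^ d = m := ⟨_, rfl⟩
      have m0 : (0 : ℝ) < m := by rw [← hm]; positivity
      obtain ⟨D, hD⟩ := stepA τ hK.toInv hC (ε := t / (512 * m)) (by positivity)
      obtain ⟨δ, hδ⟩ : ∃ δ, δ = t / (64 * m * (C + 1)) := ⟨_, rfl⟩
      have δ0 : 0 < δ := by rw [hδ]; positivity
      obtain ⟨k, hk⟩ := exists_nat_ge (((6 * m + 2) * (m ^ 2 + 1) ^ m / δ ^ 2) ^ 2)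
      obtain ⟨ι, _, _, _, E, hE, hι⟩ := hU (D + k)
      obtain ⟨S, hS, h1, h2⟩ := hD ι E hE (by omega)
      obtain ⟨F, _, _, ⟨V⟩⟩ := hE.su
      refine ⟨S, hS, fun y a b X hy ha hb hX => ?_⟩
      have := V.jump τ hE h1 (hK.cen hz.one_sub S hS) (by positivity) h2 (hC S hS) hX hy ha hb hm.le
        δ0 (by
          rw [← div_le_iff₀' (by positivity)]
          exact Real.le_sqrt_of_sq_le (hk.trans (by exact_mod_cast (by omega))))
      have e : m * (8 * C * δ + 64 * (t / (512 * m))) ≤ t / 4 := by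
        rw [hδ]; field_simp; linarith
      have d0 : (0 : ℝ) < d := pos_of_mul_pos_left (hd.trans_le' (by positivity)) ht.le
      nlinarith
  intro S hS x
  have := four (F := ∅) (by simp) (τ.df S 1) (ε := 0) (fun g hg _ => by
    have := τ.sq_le (c := S.f 1 * g - S.f g) (t := 0) (by positivity) (lt_add_one _).le
      fun y hy => le_of_forall_pos_le_add fun t ht => by
        have := key t ht S hS y 1 g g hy one1 (unit1 hg) hg
        simpa only [TR.β, hg.1, one_mul, mul_one, zero_add, map_sub, inner_sub_right,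
          Complex.sub_re] using this
    rw [τ.df_apply, one_mul, map_sub, norm_sub_rev, ← map_sub]
    nlinarith [norm_nonneg (τ.J (S.f 1 * g - S.f g))]) (q := x) (by simp [Cm])
  rw [mul_zero, zero_mul, norm_le_zero_iff, τ.df_apply, one_mul] at this
  rw [← sub_eq_zero, ← sub_mul]
  exact τ.fa _ this

open scoped InnerProduct in
lemma exists_TR (hz : CP z) {κ : Type} [Fintype κ] {ζ : κ → H} (h : TC R.M (R.ρ z) ζ) :
    ∃ (G : Type u) (_ : NormedAddCommGroup G) (_ : InnerProductSpace ℂ G) (_ : CompleteSpace G),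
      Nonempty (TR R G z) := by
  classical
  obtain ⟨G, _, _, _, J, hJ⟩ := exists_fam (R.proj.2 hz.proj) κ
  have cz : ∀ a, R.ρ a * R.ρ z = R.ρ z * R.ρ a := fun a => by rw [← map_mul, ← map_mul, hz.comm]
  let π : A →⋆ₐ[ℂ] Op G :=
    { toFun := fun a => amp J (R.ρ a)
      map_one' := by rw [map_one, hJ.amp_one]
      map_mul' := fun a b => by rw [map_mul, hJ.amp_mul (cz a)]
      map_zero' := by simp [amp]
      map_add' := fun a b => by ext ψ; simp [amp_apply, sum_add_distrib]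
      commutes' := fun c => by
        ext ψ; simp [amp_apply, Algebra.algebraMap_eq_smul_one, ← smul_sum, hJ.sum]
      map_star' := fun a => by rw [map_star, amp_star] }
  have hπ : ∀ a, π a = amp J (R.ρ a) := fun _ => rfl
  have e : ∀ a, ‖π a (∑ i, J i (ζ i))‖ ^ 2 = ∑ i, ‖R.ρ a (ζ i)‖ ^ 2 := fun a => by
    rw [hJ.normsq]
    refine sum_congr rfl fun i _ => ?_
    rw [hπ, hJ.adj_amp, ← mul_apply_eq_comp, ← cz, mul_apply_eq_comp, hJ.fix']
    simp [hJ.orth, h.fix]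
  obtain ⟨c, c0, c1⟩ : ∃ c : ℝ, 0 < c ∧ c * ‖∑ i, J i (ζ i)‖ ≤ 1 :=
    ⟨(‖∑ i, J i (ζ i)‖ + 1)⁻¹, by positivity, inv_mul_le_one_of_le₀ (by linarith) (by positivity)⟩
  have e2 : ∀ T : Op G, ‖T ((c : ℂ) • ∑ i, J i (ζ i))‖ = c * ‖T (∑ i, J i (ζ i))‖ := fun T => by
    rw [map_smul, norm_smul, Complex.norm_real, Real.norm_of_nonneg c0.le]
  refine ⟨G, _, _, ‹_›, ⟨⟨π, (c : ℂ) • ∑ i, J i (ζ i), (e2 1).trans_le c1, fun x => ?_, ?_,
    fun a ψ ψ' => ?_, fun x hx => ?_⟩⟩⟩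
  · rw [e2, e2, mul_left_comm]
    refine mul_le_mul_of_nonneg_left (le_of_sq_le_sq ?_ (by positivity)) c0.le
    have := h.tr _ (R.mem x)
    rw [mul_pow, e, e, map_star]
    have : 0 ≤ ∑ i, ‖star (R.ρ x) (ζ i)‖ ^ 2 := by positivity
    linarith
  · ext ψ; simp [hπ, amp_apply, hJ.fix', hJ.sum]
  · simp only [hπ, amp_apply, inner_sum, ← ContinuousLinearMap.adjoint_inner_left (J _)]
    exact continuous_finsetSum _ fun i _ => WC.ev continuous_id a _ _
  · have h1 := e2 (π x)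
    rw [hx, norm_zero, eq_comm, mul_eq_zero, or_iff_right c0.ne'] at h1
    have h2 := e x
    rw [h1, zero_pow two_ne_zero, eq_comm, sum_eq_zero_iff_of_nonneg fun _ _ => by positivity] at h2
    refine R.inj ?_
    rw [map_mul, map_zero]
    exact h.fa _ (R.mem x) fun i => by simpa using h2 i (mem_univ i)

end Vale.Agent.P082
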